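import Vale.Agent.P154.Q4.BB.S7
import Vale.Agent.P154.Q4.BB.Cert.Tree
import Vale.Agent.P154.Q4.CFinal
import Vale.Agent.P154.Q4.SFinal
import Vale.Agent.P154.Q4.Main
import Vale.Agent.P154.Q4.Chan

/-!
The closure estimate for all vectors, and nonreconstruction for the four-state ferromagnetic Potts
channel on both tree models.
-/

namespace Vale.Agent.P154.Q4.BB

open Real Vale.Agent.P154.Q4 Vale.Agent.P154 Filter Topology

theorem Fbb_nonneg_of_le {a b : Fin 4 → ℝ}
    (h : wMul b * psi a + wMul a * psi b ≤ (∑ g : Equiv.Perm (Fin 4), psi (pv a b g)) / 24) :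
    0 ≤ Fbb a b := by
  unfold Fbb
  linarith

/-- Sorted vectors. -/
theorem sorted_case {a b : Fin 4 → ℝ} (da : Dom a) (db : Dom b) (sa : Srt a) (sb : Srt b)
    (h : a 3 ≤ b 3) : 0 ≤ Fbb a b := by
  have root := Cert.root a b da db sa sb (inBox_root da sa) (inBox_root db sb)
  by_cases hb : b 3 < 1 / 4
  · exact root ⟨h, Or.inl hb⟩
  have hb' : 1 / 4 ≤ b 3 := not_lt.mp hb
  obtain ⟨s1, s2, s3⟩ := sb
  have hall : ∀ i, 1 / 4 ≤ b i := by
    intro i
    fin_cases i
    · show 1 / 4 ≤ b 0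
      linarith
    · show 1 / 4 ≤ b 1
      linarith
    · show 1 / 4 ≤ b 2
      linarith
    · exact hb'
  have ea : vecOf (coords a) = a := vecOf_coords da.2
  have eb : vecOf (coords b) = b := vecOf_coords db.2
  have xa : (coords a).x = xx a := by
    rw [← xx_vecOf, ea]
  have xb : (coords b).x = xx b := by
    rw [← xx_vecOf, eb]
  have ha' : ∀ i, 0 < vecOf (coords a) i := by
    rw [ea]
    exact da.1
  have hb'' : ∀ i, 1 / 4 ≤ vecOf (coords b) i := by
    rw [eb]
    exact hall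
  rcases le_or_gt (xx b) 1 with hx | hx
  · have := C_case1 ha' hb'' (by rw [xb]; exact hx)
    rw [ea, eb] at this
    exact Fbb_nonneg_of_le this
  rcases le_or_gt (xx a) (7 / 10) with hy | hy
  · have := C_case2 ha' hb'' (by rw [xa]; exact hy) (by rw [xb]; exact hx.le)
    rw [ea, eb] at this
    exact Fbb_nonneg_of_le this
  exact root ⟨h, Or.inr ⟨hx, hy⟩⟩

/-- The closure estimate for all vectors of mean one. -/
theorem Fbb_nonneg {u v : Fin 4 → ℝ} (hu : Dom u) (hv : Dom v) : 0 ≤ Fbb u v := by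
  obtain ⟨σ, hσ⟩ := exists_sort u
  obtain ⟨τ, hτ⟩ := exists_sort v
  rw [← Fbb_comp u v σ τ]
  rcases le_total ((u ∘ σ) 3) ((v ∘ τ) 3) with h | h
  · exact sorted_case (dom_comp hu σ) (dom_comp hv τ) hσ hτ h
  · rw [Fbb_comm]
    exact sorted_case (dom_comp hv τ) (dom_comp hu σ) hτ hσ h

/-- The closure estimate without any constraint on the second vector. -/
theorem pointwiseC_one : PointwiseC 1 := by
  refine pointwiseC_of_unit 1 fun a b ha hb _ => ?_
  have h := Fbb_nonneg (u := vecOf a) (v := vecOf b) ⟨ha, mass_vecOf a⟩ ⟨hb, mass_vecOf b⟩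
  unfold Fbb at h
  linarith

/-- Subadditivity. -/
theorem pointwiseS_all : PointwiseS :=
  pointwiseS_of_unit fun _ _ ha hb => S_unit ha hb

/-- Nonreconstruction for the four-state ferromagnetic Potts channel whenever `d * lam ^ 2 ≤ 1`,
on the `d`-ary tree for `d ≥ 2` and on the Poisson Galton-Watson tree for `d > 0`. -/
theorem potts4_all :
    (∀ d : ℕ, 2 ≤ d → ∀ lam : ℝ, 0 ≤ lam → (d : ℝ) * lam ^ 2 ≤ 1 →
      Tendsto (reconA 4 d lam) atTop (𝓝 0))
    ∧ (∀ d : ℝ, 0 < d → ∀ lam : ℝ, 0 ≤ lam → lam ≤ 1 → d * lam ^ 2 ≤ 1 →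
      (∀ n, Summable fun T : DTree n => T.prob (poissonWeight d) * T.treeA 4 lam)
      ∧ Tendsto (gwA 4 (poissonWeight d) lam) atTop (𝓝 0)) := by
  obtain ⟨h1, h2⟩ := q4_main 1 (by norm_num) le_rfl pointwiseS_all pointwiseC_one pointwiseT
  exact ⟨h1, fun d hd lam h0 hl hlam => h2 d hd lam h0 hl hlam (Or.inr hl)⟩

end Vale.Agent.P154.Q4.BB
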