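import Vale.Agent.P154.Q4.BB.Core
import Vale.Agent.P154.Q4.ScalarNum

/-!
Soundness of the computable check, part one: arithmetic with natural numbers, and the bound for
the function `phi x = x log x - x + 1`.
-/

namespace Vale.Agent.P154.Q4.BB

open Real

/-- The function whose convexity is used for the entropy. -/
noncomputable def phi (x : ℝ) : ℝ := x * log x - x + 1

theorem logUp_eq (a b : ℕ) : logUp a b = ScalarNum.logUp a b := rfl

theorem logDn_eq (a b : ℕ) : logDn a b = ScalarNum.logDn a b := rfl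

theorem cast_sub_ge (a b : ℕ) : (a : ℝ) - b ≤ ((Nat.sub a b : ℕ) : ℝ) := by
  show (a : ℝ) - b ≤ ((a - b : ℕ) : ℝ)
  rcases le_total b a with h | h
  · rw [Nat.cast_sub h]
  · have h' : (a : ℝ) ≤ b := by exact_mod_cast h
    rw [Nat.sub_eq_zero_of_le h]
    simp
    linarith

theorem cast_sub_of_le {a b : ℕ} (h : b ≤ a) : ((Nat.sub a b : ℕ) : ℝ) = (a : ℝ) - b := by
  show ((a - b : ℕ) : ℝ) = _
  rw [Nat.cast_sub h]

theorem cast_absd (x y : ℕ) : ((absd x y : ℕ) : ℝ) = |(x : ℝ) - y| := by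
  show ((x - y + (y - x) : ℕ) : ℝ) = _
  rcases le_total y x with h | h
  · have h' : (y : ℝ) ≤ x := by exact_mod_cast h
    rw [Nat.sub_eq_zero_of_le h, abs_of_nonneg (by linarith)]
    simp [Nat.cast_sub h]
  · have h' : (x : ℝ) ≤ y := by exact_mod_cast h
    rw [Nat.sub_eq_zero_of_le h, abs_of_nonpos (by linarith)]
    simp [Nat.cast_sub h]

theorem cast_nadd (a b : ℕ) : ((Nat.add a b : ℕ) : ℝ) = (a : ℝ) + b := by
  show ((a + b : ℕ) : ℝ) = _
  push_cast
  rfl

theorem cast_nmul (a b : ℕ) : ((Nat.mul a b : ℕ) : ℝ) = (a : ℝ) * b := by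
  show ((a * b : ℕ) : ℝ) = _
  push_cast
  rfl

theorem cast_shr_succ (n k : ℕ) :
    (n : ℝ) / 2 ^ k ≤ ((Nat.succ (Nat.shiftRight n k) : ℕ) : ℝ) := by
  have h := ScalarNum.le_natDiv_succ (a := n) (b := 2 ^ k) (by positivity)
  have e : Nat.shiftRight n k = n / 2 ^ k := by
    show n >>> k = _
    rw [Nat.shiftRight_eq_div_pow]
  rw [e, Nat.succ_eq_add_one]
  push_cast at h ⊢
  exact h

theorem shl_eq (n k : ℕ) : Nat.shiftLeft n k = n * 2 ^ k := by
  show n <<< k = _
  rw [Nat.shiftLeft_eq]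

theorem phiUp_spec (z : ℕ) : phi ((z : ℝ) / 4096) ≤ (phiUp z : ℝ) / 2 ^ 30 := by
  unfold phiUp
  by_cases h1 : 4096 ≤ z
  · rw [Nat.ble_eq_true_of_le h1]
    simp only [cond_true]
    have hU := ScalarNum.le_logUp (a := z) (b := 4096) (by norm_num) h1
    rw [← logUp_eq] at hU
    unfold ScalarNum.Hi ScalarNum.FS at hU
    have hz : (4096 : ℝ) ≤ z := by exact_mod_cast h1
    have hx : (0 : ℝ) < (z : ℝ) / 4096 := by positivity
    have h2 := cast_shr_succ (Nat.sub (Nat.mul z (logUp z 4096)) (Nat.shiftLeft (Nat.sub z 4096) 64)) 46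
    have h3 := cast_sub_ge (Nat.mul z (logUp z 4096)) (Nat.shiftLeft (Nat.sub z 4096) 64)
    have e3 : ((Nat.mul z (logUp z 4096) : ℕ) : ℝ) = (z : ℝ) * (logUp z 4096 : ℝ) := by
      show ((z * logUp z 4096 : ℕ) : ℝ) = _
      push_cast
      ring
    have e4 : ((Nat.shiftLeft (Nat.sub z 4096) 64 : ℕ) : ℝ) = ((z : ℝ) - 4096) * 2 ^ 64 := by
      rw [shl_eq, Nat.cast_mul, cast_sub_of_le h1]
      push_cast
      ring
    rw [e3, e4] at h3
    have hL : log ((z : ℝ) / 4096) ≤ (logUp z 4096 : ℝ) / 18446744073709551616 := by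
      have : (((4096 : ℕ) : ℝ)) = 4096 := by norm_num
      rw [this] at hU
      exact_mod_cast hU
    unfold phi
    have h5 := mul_le_mul_of_nonneg_left hL hx.le
    have h6 : ((Nat.sub (Nat.mul z (logUp z 4096)) (Nat.shiftLeft (Nat.sub z 4096) 64) : ℕ) : ℝ)
        / 2 ^ 46 / 2 ^ 30 ≤ (((Nat.succ (Nat.shiftRight (Nat.sub (Nat.mul z (logUp z 4096))
          (Nat.shiftLeft (Nat.sub z 4096) 64)) 46)) : ℕ) : ℝ) / 2 ^ 30 :=
      div_le_div_of_nonneg_right h2 (by positivity)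
    refine le_trans ?_ h6
    have h7 : ((z : ℝ) * (logUp z 4096 : ℝ) - ((z : ℝ) - 4096) * 2 ^ 64) / 2 ^ 46 / 2 ^ 30
        ≤ ((Nat.sub (Nat.mul z (logUp z 4096)) (Nat.shiftLeft (Nat.sub z 4096) 64) : ℕ) : ℝ)
        / 2 ^ 46 / 2 ^ 30 := by
      apply div_le_div_of_nonneg_right _ (by positivity)
      apply div_le_div_of_nonneg_right h3 (by positivity)
    refine le_trans ?_ h7
    have e8 : ((z : ℝ) * (logUp z 4096 : ℝ) - ((z : ℝ) - 4096) * 2 ^ 64) / 2 ^ 46 / 2 ^ 30
        = (z : ℝ) / 4096 * ((logUp z 4096 : ℝ) / 18446744073709551616) - (z : ℝ) / 4096 + 1 := by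
      norm_num
      ring
    rw [e8]
    linarith
  · have hb : Nat.ble 4096 z = false := by
      rw [← Bool.not_eq_true]
      intro h
      exact h1 (Nat.le_of_ble_eq_true h)
    rw [hb]
    simp only [cond_false]
    by_cases h0 : z = 0
    · subst h0
      simp [phi]
      norm_num
    · have hb0 : Nat.beq z 0 = false := by
        rw [← Bool.not_eq_true]
        intro h
        exact h0 (Nat.eq_of_beq_eq_true h)
      rw [hb0]
      simp only [cond_false]
      have hz0 : 0 < z := Nat.pos_of_ne_zero h0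
      have h1' : z ≤ 4096 := by omega
      have hU := ScalarNum.logDn_le (a := 4096) (b := z) hz0 h1'
      rw [← logDn_eq] at hU
      unfold ScalarNum.Lo ScalarNum.FS at hU
      have hz : (0 : ℝ) < z := by exact_mod_cast hz0
      have hx : (0 : ℝ) < (z : ℝ) / 4096 := by positivity
      have h2 := cast_shr_succ (Nat.sub (Nat.shiftLeft (Nat.sub 4096 z) 64) (Nat.mul z (logDn 4096 z))) 46
      have h3 := cast_sub_ge (Nat.shiftLeft (Nat.sub 4096 z) 64) (Nat.mul z (logDn 4096 z))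
      have e3 : ((Nat.mul z (logDn 4096 z) : ℕ) : ℝ) = (z : ℝ) * (logDn 4096 z : ℝ) := by
        show ((z * logDn 4096 z : ℕ) : ℝ) = _
        push_cast
        ring
      have e4 : ((Nat.shiftLeft (Nat.sub 4096 z) 64 : ℕ) : ℝ) = (4096 - (z : ℝ)) * 2 ^ 64 := by
        rw [shl_eq, Nat.cast_mul, cast_sub_of_le h1']
        push_cast
        ring
      rw [e3, e4] at h3
      have hL : (logDn 4096 z : ℝ) / 18446744073709551616 ≤ log (4096 / (z : ℝ)) := by
        have : (((4096 : ℕ) : ℝ)) = 4096 := by norm_num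
        rw [this] at hU
        exact_mod_cast hU
      have hL2 : log ((z : ℝ) / 4096) = - log (4096 / (z : ℝ)) := by
        rw [← log_inv, inv_div]
      unfold phi
      rw [hL2]
      have h5 := mul_le_mul_of_nonneg_left hL hx.le
      have h6 : ((Nat.sub (Nat.shiftLeft (Nat.sub 4096 z) 64) (Nat.mul z (logDn 4096 z)) : ℕ) : ℝ)
          / 2 ^ 46 / 2 ^ 30 ≤ (((Nat.succ (Nat.shiftRight (Nat.sub (Nat.shiftLeft (Nat.sub 4096 z) 64)
            (Nat.mul z (logDn 4096 z))) 46)) : ℕ) : ℝ) / 2 ^ 30 :=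
        div_le_div_of_nonneg_right h2 (by positivity)
      refine le_trans ?_ h6
      have h7 : ((4096 - (z : ℝ)) * 2 ^ 64 - (z : ℝ) * (logDn 4096 z : ℝ)) / 2 ^ 46 / 2 ^ 30
          ≤ ((Nat.sub (Nat.shiftLeft (Nat.sub 4096 z) 64) (Nat.mul z (logDn 4096 z)) : ℕ) : ℝ)
          / 2 ^ 46 / 2 ^ 30 := by
        apply div_le_div_of_nonneg_right _ (by positivity)
        apply div_le_div_of_nonneg_right h3 (by positivity)
      refine le_trans ?_ h7
      have e8 : ((4096 - (z : ℝ)) * 2 ^ 64 - (z : ℝ) * (logDn 4096 z : ℝ)) / 2 ^ 46 / 2 ^ 30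
          = - ((z : ℝ) / 4096 * ((logDn 4096 z : ℝ) / 18446744073709551616)) - (z : ℝ) / 4096 + 1 := by
        norm_num
        ring
      rw [e8]
      linarith

/-- A line above `phi` at the end points of an interval is above `phi` on the interval. -/
theorem line_bound {l u z m b : ℝ} (hl : 0 ≤ l) (hlz : l ≤ z) (hzu : z ≤ u)
    (h1 : phi l ≤ m * l + b) (h2 : phi u ≤ m * u + b) : phi z ≤ m * z + b := by
  rcases eq_or_lt_of_le (le_trans hlz hzu) with hlu | hlu
  · have e1 : z = l := le_antisymm (by rw [hlu]; exact hzu) hlz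
    rw [e1]
    exact h1
  · have hd : 0 < u - l := by linarith
    have ht1 : 0 ≤ (u - z) / (u - l) := div_nonneg (by linarith) hd.le
    have ht2 : 0 ≤ (z - l) / (u - l) := div_nonneg (by linarith) hd.le
    have ht3 : (u - z) / (u - l) + (z - l) / (u - l) = 1 := by
      field_simp
      ring
    have hc := Real.convexOn_mul_log.2 (Set.mem_Ici.mpr hl) (Set.mem_Ici.mpr (le_trans hl (le_trans hlz hzu)))
      ht1 ht2 ht3
    have ez : ((u - z) / (u - l)) * l + ((z - l) / (u - l)) * u = z := by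
      field_simp
      ring
    simp only [smul_eq_mul] at hc
    rw [ez] at hc
    unfold phi at *
    generalize (u - z) / (u - l) = t at ht1 ht3 hc ez
    generalize (z - l) / (u - l) = v at ht2 ht3 hc ez
    have h3 := mul_le_mul_of_nonneg_left h1 ht1
    have h4 := mul_le_mul_of_nonneg_left h2 ht2
    calc z * log z - z + 1 ≤ t * (l * log l) + v * (u * log u) - z + 1 := by linarith
      _ = t * (l * log l - l + 1) + v * (u * log u - u + 1) := by linear_combination ez - ht3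
      _ ≤ t * (m * l + b) + v * (m * u + b) := add_le_add h3 h4
      _ = m * z + b := by linear_combination m * ez + b * ht3

/-- The upper line of a coordinate. -/
theorem lineV_bound {c r pl pu S : ℕ} {z : ℝ}
    (hl : (((Nat.sub c r : ℕ) : ℝ)) / 4096 ≤ z) (hu : z ≤ ((c : ℝ) + r) / 4096)
    (h1 : phi (((Nat.sub c r : ℕ) : ℝ) / 4096) ≤ (pl : ℝ) / 2 ^ 30)
    (h2 : phi (((c : ℝ) + r) / 4096) ≤ (pu : ℝ) / 2 ^ 30) :
    phi z ≤ ((lineC c r pl pu S : ℝ) + ((S : ℝ) - 4194304) * (4096 * z - c)) / 2 ^ 30 := by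
  have hle : Nat.sub c r ≤ c := Nat.sub_le _ _
  obtain ⟨l, hldef⟩ : ∃ l, l = Nat.sub c r := ⟨_, rfl⟩
  rw [← hldef] at hl h1 hle
  have hV1 : (pl : ℝ) + (S : ℝ) * ((c : ℝ) - l) - 4194304 * ((c : ℝ) - l) ≤ (lineC c r pl pu S : ℝ) := by
    unfold lineC lineV
    rw [← hldef, cast_nadd]
    have h3 := cast_sub_ge (Nat.add pl (Nat.mul S (Nat.sub c l))) (Nat.mul 4194304 (Nat.sub c l))
    have e1 : ((Nat.add pl (Nat.mul S (Nat.sub c l)) : ℕ) : ℝ) = (pl : ℝ) + (S : ℝ) * ((c : ℝ) - l) := by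
      show ((pl + S * Nat.sub c l : ℕ) : ℝ) = _
      push_cast
      rw [cast_sub_of_le hle]
    have e2 : ((Nat.mul 4194304 (Nat.sub c l) : ℕ) : ℝ) = 4194304 * ((c : ℝ) - l) := by
      show ((4194304 * Nat.sub c l : ℕ) : ℝ) = _
      push_cast
      rw [cast_sub_of_le hle]
    rw [e1, e2] at h3
    have h4 : (0 : ℝ) ≤ ((Nat.sub (Nat.sub (Nat.add pu (Nat.mul 4194304 r)) (Nat.mul S r))
        (Nat.sub (Nat.add pl (Nat.mul S (Nat.sub c l))) (Nat.mul 4194304 (Nat.sub c l))) : ℕ) : ℝ) :=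
      Nat.cast_nonneg _
    linarith
  have hV2 : (pu : ℝ) + 4194304 * (r : ℝ) - (S : ℝ) * r ≤ (lineC c r pl pu S : ℝ) := by
    unfold lineC lineV
    rw [← hldef, cast_nadd]
    obtain ⟨X, hX⟩ : ∃ X, X = Nat.sub (Nat.add pl (Nat.mul S (Nat.sub c l))) (Nat.mul 4194304 (Nat.sub c l)) :=
      ⟨_, rfl⟩
    rw [← hX]
    have h3 := cast_sub_ge (Nat.sub (Nat.add pu (Nat.mul 4194304 r)) (Nat.mul S r)) X
    have h4 := cast_sub_ge (Nat.add pu (Nat.mul 4194304 r)) (Nat.mul S r)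
    have e1 : ((Nat.add pu (Nat.mul 4194304 r) : ℕ) : ℝ) = (pu : ℝ) + 4194304 * (r : ℝ) := by
      show ((pu + 4194304 * r : ℕ) : ℝ) = _
      push_cast
      ring
    have e2 : ((Nat.mul S r : ℕ) : ℝ) = (S : ℝ) * r := by
      show ((S * r : ℕ) : ℝ) = _
      push_cast
      ring
    rw [e1, e2] at h4
    linarith
  have hl0 : (0 : ℝ) ≤ (l : ℝ) / 4096 := by positivity
  have e : ((lineC c r pl pu S : ℝ) + ((S : ℝ) - 4194304) * (4096 * z - c)) / 2 ^ 30
      = (((S : ℝ) - 4194304) * 4096 / 2 ^ 30) * z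
        + ((lineC c r pl pu S : ℝ) - ((S : ℝ) - 4194304) * c) / 2 ^ 30 := by
    ring
  rw [e]
  apply line_bound hl0 hl hu
  · refine le_trans h1 ?_
    have : (pl : ℝ) / 2 ^ 30 ≤ ((lineC c r pl pu S : ℝ) + ((S : ℝ) - 4194304) * ((l : ℝ) - c)) / 2 ^ 30 := by
      apply div_le_div_of_nonneg_right _ (by positivity)
      nlinarith
    refine le_trans this (le_of_eq ?_)
    ring
  · refine le_trans h2 ?_
    have : (pu : ℝ) / 2 ^ 30 ≤ ((lineC c r pl pu S : ℝ) + ((S : ℝ) - 4194304) * (r : ℝ)) / 2 ^ 30 := by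
      apply div_le_div_of_nonneg_right _ (by positivity)
      nlinarith
    refine le_trans this (le_of_eq ?_)
    ring

/-- The table of logarithms is below the logarithms. -/
def tlCheck (n : ℕ) : Bool :=
  Nat.ble (Nat.mul (tl (Nat.add 128 n)) 1099511627776) (logDn (Nat.add 128 n) 1)

set_option maxRecDepth 10000 in
theorem tlCheck_all : ∀ n, n < 128 → tlCheck n = true := by
  decide +kernel

theorem tl_le {f : ℕ} (h1 : 128 ≤ f) (h2 : f ≤ 255) : (tl f : ℝ) / 2 ^ 24 ≤ log f := by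
  obtain ⟨n, rfl⟩ : ∃ n, f = 128 + n := ⟨f - 128, by omega⟩
  have hn : n < 128 := by omega
  have hc := tlCheck_all n hn
  unfold tlCheck at hc
  have h3 : tl (128 + n) * 1099511627776 ≤ logDn (128 + n) 1 := Nat.le_of_ble_eq_true hc
  have h4 := ScalarNum.logDn_le (a := 128 + n) (b := 1) (by norm_num) (by omega)
  rw [← logDn_eq] at h4
  unfold ScalarNum.Lo ScalarNum.FS at h4
  have h5 : ((tl (128 + n) * 1099511627776 : ℕ) : ℝ) ≤ (logDn (128 + n) 1 : ℝ) := by exact_mod_cast h3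
  push_cast at h5 h4 ⊢
  norm_num at h4
  have e : (tl (128 + n) : ℝ) / 2 ^ 24 = (tl (128 + n) : ℝ) * 1099511627776 / 18446744073709551616 := by
    norm_num
    ring
  rw [e]
  refine le_trans (div_le_div_of_nonneg_right h5 (by norm_num)) ?_
  exact h4

end Vale.Agent.P154.Q4.BB
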