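import Vale.Agent.P154.Q4.BB.S1
import Vale.Agent.P154.Q4.Reduce
import Vale.Agent.P154.Q4.Avg

/-!
Soundness of the computable check, part two: the dual bound for the group average.
-/

namespace Vale.Agent.P154.Q4.BB

open Real Vale.Agent.P154.Q4

theorem z_log_z_ge {Z w : ℝ} (hZ : 0 < Z) (hw : 0 < w) : Z * (1 + log w) - w ≤ Z * log Z := by
  have h := Real.one_sub_inv_le_log_of_pos (div_pos hZ hw)
  rw [Real.log_div hZ.ne' hw.ne', inv_div] at h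
  have h2 := mul_le_mul_of_nonneg_left h hZ.le
  have e : Z * (1 - w / Z) = Z - w := by
    field_simp
  rw [e] at h2
  nlinarith

theorem log_two_lo : (11629079 : ℝ) / 2 ^ 24 ≤ log 2 := by
  have := Real.log_two_gt_d9
  norm_num at this ⊢
  linarith

theorem log_two_hi : log 2 ≤ (11629080 : ℝ) / 2 ^ 24 := by
  have := Real.log_two_lt_d9
  norm_num at this ⊢
  linarith

theorem log_v_ge {f e : ℕ} (h1 : 128 ≤ f) (h2 : f ≤ 255) :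
    ((tl f : ℝ) + (e : ℝ) * 11629079 - 302356080) / 2 ^ 24 ≤ log (((f * 2 ^ e : ℕ) : ℝ) / 2 ^ 26) := by
  have hf : (0 : ℝ) < f := by
    have : 0 < f := by omega
    exact_mod_cast this
  have e1 : log (((f * 2 ^ e : ℕ) : ℝ) / 2 ^ 26) = log f + (e : ℝ) * log 2 - 26 * log 2 := by
    push_cast
    rw [Real.log_div (by positivity) (by positivity), Real.log_mul hf.ne' (by positivity), Real.log_pow,
      Real.log_pow]
    norm_num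
  rw [e1]
  have h3 := tl_le h1 h2
  have h4 := log_two_lo
  have h5 := log_two_hi
  have h6 : (0 : ℝ) ≤ e := Nat.cast_nonneg e
  have h7 := mul_le_mul_of_nonneg_left h4 h6
  have e2 : ((tl f : ℝ) + (e : ℝ) * 11629079 - 302356080) / 2 ^ 24
      = (tl f : ℝ) / 2 ^ 24 + (e : ℝ) * (11629079 / 2 ^ 24) - 26 * (11629080 / 2 ^ 24) := by
    norm_num
    ring
  rw [e2]
  linarith

theorem sq_div_ge {q t Z : ℝ} (hZ : 0 < Z) : 2 * t * q - t ^ 2 * Z - 2 * q + Z ≤ (q - Z) ^ 2 / Z := by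
  rw [le_div_iff₀ hZ]
  nlinarith [sq_nonneg (q - t * Z)]

theorem cast_T {t e T : ℕ} (hT : T = Nat.sub (Nat.add (Nat.add 578813952 t) (Nat.mul e 11629079)) 302356080) :
    (T : ℝ) = 578813952 + t + e * 11629079 - 302356080 := by
  have h8 : 302356080 ≤ 578813952 + t + e * 11629079 := by omega
  have h9 : T = (578813952 + t + e * 11629079) - 302356080 := hT
  have h10 : (T : ℝ) = ((578813952 + t + e * 11629079 : ℕ) : ℝ) - ((302356080 : ℕ) : ℝ) :=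
    (congrArg (fun n : ℕ => (n : ℝ)) h9).trans (Nat.cast_sub h8)
  rw [h10]
  push_cast
  ring

theorem pos_v {f e : ℕ} (hf : (0 : ℝ) < f) : (0 : ℝ) < ((f * 2 ^ e : ℕ) : ℝ) / 2 ^ 26 := by
  push_cast
  positivity

/-- The core estimate for one permutation. -/
theorem gterm_core {p : Fin 4 → ℝ} (hp : ∀ i, 0 < p i) {T0 T1 T2 T3 f e T R : ℕ}
    (hT : T = Nat.sub (Nat.add (Nat.add 578813952 (tl f)) (Nat.mul e 11629079)) 302356080)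
    (hR : R = Nat.mul 32 (sqS T0 T1 T2 T3)) (h1 : 128 ≤ f) (h2 : f ≤ 255) :
    3 / 2 ^ 25 * ((((65536 : ℝ) * T0 + T - R) - 570425344) * p 0
        + (((65536 : ℝ) * T1 + T - R) - 570425344) * p 1
        + (((65536 : ℝ) * T2 + T - R) - 570425344) * p 2
        + (((65536 : ℝ) * T3 + T - R) - 570425344) * p 3) - 6 * (((f * 2 ^ e : ℕ) : ℝ) / 2 ^ 26)
      ≤ 9 * yy p + 6 * (mass p * log (mass p)) := by
  have hZ := mass_pos_of_forall_pos hp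
  have h3y := three_yy_eq hZ
  have hs : p 0 + p 1 + p 2 + p 3 = 4 * mass p := by
    unfold mass
    rw [Fin.sum_univ_four]
    ring
  obtain ⟨Z, hZdef⟩ : ∃ Z, Z = mass p := ⟨_, rfl⟩
  rw [← hZdef] at hZ h3y hs ⊢
  have hTc : (T : ℝ) = 578813952 + tl f + e * 11629079 - 302356080 := cast_T hT
  have hRc : (R : ℝ) = 32 * ((T0 : ℝ) ^ 2 + (T1 : ℝ) ^ 2 + (T2 : ℝ) ^ 2 + (T3 : ℝ) ^ 2) := by
    rw [hR, cast_nmul]
    unfold sqS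
    simp only [cast_nadd, cast_nmul]
    push_cast
    ring
  have hf : (0 : ℝ) < f := by
    have : 0 < f := by omega
    exact_mod_cast this
  have hw : (0 : ℝ) < ((f * 2 ^ e : ℕ) : ℝ) / 2 ^ 26 := pos_v hf
  obtain ⟨w, hwdef⟩ : ∃ w, w = ((f * 2 ^ e : ℕ) : ℝ) / 2 ^ 26 := ⟨_, rfl⟩
  have hlog := log_v_ge (e := e) h1 h2
  rw [← hwdef] at hw hlog ⊢
  have hzl := z_log_z_ge hZ hw
  have hzl2 := mul_le_mul_of_nonneg_left hlog hZ.le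
  have s0 := sq_div_ge (q := p 0) (t := (T0 : ℝ) / 256) hZ
  have s1 := sq_div_ge (q := p 1) (t := (T1 : ℝ) / 256) hZ
  have s2 := sq_div_ge (q := p 2) (t := (T2 : ℝ) / 256) hZ
  have s3 := sq_div_ge (q := p 3) (t := (T3 : ℝ) / 256) hZ
  have e3 : 9 * yy p = 3 / 4 * ((p 0 - Z) ^ 2 / Z + (p 1 - Z) ^ 2 / Z + (p 2 - Z) ^ 2 / Z + (p 3 - Z) ^ 2 / Z) := by
    have : 9 * yy p = 3 * (3 * yy p) := by ring
    rw [this, h3y, Fin.sum_univ_four]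
    ring
  rw [e3]
  obtain ⟨X, hX⟩ : ∃ X : ℝ, X = (tl f : ℝ) + (e : ℝ) * 11629079 - 302356080 := ⟨_, rfl⟩
  rw [← hX] at hzl2
  have hTc2 : (T : ℝ) = 578813952 + X := by
    rw [hTc, hX]
    ring
  rw [hTc2, hRc]
  have key : 3 / 2 ^ 25 * (((65536 * (T0 : ℝ) + (578813952 + X) - 32 * ((T0 : ℝ) ^ 2 + (T1 : ℝ) ^ 2 + (T2 : ℝ) ^ 2 + (T3 : ℝ) ^ 2)) - 570425344) * p 0
        + ((65536 * (T1 : ℝ) + (578813952 + X) - 32 * ((T0 : ℝ) ^ 2 + (T1 : ℝ) ^ 2 + (T2 : ℝ) ^ 2 + (T3 : ℝ) ^ 2)) - 570425344) * p 1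
        + ((65536 * (T2 : ℝ) + (578813952 + X) - 32 * ((T0 : ℝ) ^ 2 + (T1 : ℝ) ^ 2 + (T2 : ℝ) ^ 2 + (T3 : ℝ) ^ 2)) - 570425344) * p 2
        + ((65536 * (T3 : ℝ) + (578813952 + X) - 32 * ((T0 : ℝ) ^ 2 + (T1 : ℝ) ^ 2 + (T2 : ℝ) ^ 2 + (T3 : ℝ) ^ 2)) - 570425344) * p 3)
      = 3 / 4 * ((2 * ((T0 : ℝ) / 256) * p 0 - ((T0 : ℝ) / 256) ^ 2 * Z - 2 * p 0 + Z)
          + (2 * ((T1 : ℝ) / 256) * p 1 - ((T1 : ℝ) / 256) ^ 2 * Z - 2 * p 1 + Z)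
          + (2 * ((T2 : ℝ) / 256) * p 2 - ((T2 : ℝ) / 256) ^ 2 * Z - 2 * p 2 + Z)
          + (2 * ((T3 : ℝ) / 256) * p 3 - ((T3 : ℝ) / 256) ^ 2 * Z - 2 * p 3 + Z))
        + 6 * Z * (1 + X / 2 ^ 24) := by
    linear_combination (3 / 4 + 3 * X / 2 ^ 25
      - 3 / 2 ^ 20 * ((T0 : ℝ) ^ 2 + (T1 : ℝ) ^ 2 + (T2 : ℝ) ^ 2 + (T3 : ℝ) ^ 2) + 3 / 2) * hs
  rw [key]
  clear key hTc hTc2 hRc hT hR
  have e5 : Z * (1 + X / 2 ^ 24) ≤ Z * (1 + log w) := by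
    rw [mul_add, mul_add]
    linarith
  have e6 : 6 * Z * (1 + X / 2 ^ 24) = 6 * (Z * (1 + X / 2 ^ 24)) := by ring
  rw [e6]
  linarith

theorem cond_and {x y : Bool} (h : cond x y false = true) : x = true ∧ y = true := by
  cases x <;> simp_all

/-- The estimate for one permutation, from the floors, `T`, `R`. -/
theorem gterm2_spec {p : Fin 4 → ℝ} (hp : ∀ i, 0 < p i) {t0 t1 t2 t3 f e T R : ℕ}
    (hT : T = Nat.sub (Nat.add (Nat.add 578813952 (tl f)) (Nat.mul e 11629079)) 302356080)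
    (hR : R = Nat.mul 32 (sqS t0 t1 t2 t3)) (h : (gterm2 t0 t1 t2 t3 f e T R).ok = true) :
    3 / 2 ^ 25 * ((((gterm2 t0 t1 t2 t3 f e T R).t0 : ℝ) - 570425344) * p 0
        + (((gterm2 t0 t1 t2 t3 f e T R).t1 : ℝ) - 570425344) * p 1
        + (((gterm2 t0 t1 t2 t3 f e T R).t2 : ℝ) - 570425344) * p 2
        + (((gterm2 t0 t1 t2 t3 f e T R).t3 : ℝ) - 570425344) * p 3)
      - 6 * (((gterm2 t0 t1 t2 t3 f e T R).v : ℝ) / 2 ^ 26)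
      ≤ 9 * yy p + 6 * (mass p * log (mass p)) := by
  have h1 := cond_and h
  have h2 := cond_and h1.2
  have hRT : R ≤ T := Nat.le_of_ble_eq_true h1.1
  have h128 : 128 ≤ f := Nat.le_of_ble_eq_true h2.1
  have h255 : f ≤ 255 := Nat.le_of_ble_eq_true h2.2
  have e0 : ∀ t : ℕ, ((Nat.add (Nat.mul 65536 t) (Nat.sub T R) : ℕ) : ℝ) = (65536 : ℝ) * t + T - R := by
    intro t
    show ((65536 * t + (T - R) : ℕ) : ℝ) = _
    push_cast [Nat.cast_sub hRT]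
    ring
  have ev : ((gterm2 t0 t1 t2 t3 f e T R).v : ℝ) = ((f * 2 ^ e : ℕ) : ℝ) := by
    show ((Nat.shiftLeft f e : ℕ) : ℝ) = _
    rw [shl_eq]
  have h3 := gterm_core hp hT hR h128 h255
  rw [ev]
  rw [← e0 t0, ← e0 t1, ← e0 t2, ← e0 t3] at h3
  exact h3

/-- The estimate for one permutation. -/
theorem gtermP_spec {p : Fin 4 → ℝ} (hp : ∀ i, 0 < p i) {q0 q1 q2 q3 : ℕ}
    (h : (gtermP q0 q1 q2 q3).ok = true) :
    3 / 2 ^ 25 * ((((gtermP q0 q1 q2 q3).t0 : ℝ) - 570425344) * p 0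
        + (((gtermP q0 q1 q2 q3).t1 : ℝ) - 570425344) * p 1
        + (((gtermP q0 q1 q2 q3).t2 : ℝ) - 570425344) * p 2
        + (((gtermP q0 q1 q2 q3).t3 : ℝ) - 570425344) * p 3)
      - 6 * (((gtermP q0 q1 q2 q3).v : ℝ) / 2 ^ 26)
      ≤ 9 * yy p + 6 * (mass p * log (mass p)) :=
  gterm2_spec hp rfl rfl h

/-- The group sums of the closure estimate. -/
noncomputable def Gr (u v : Fin 4 → ℝ) : ℝ :=
  (9 * ∑ g : Equiv.Perm (Fin 4), yy (pv u v g)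
    + 6 * ∑ g : Equiv.Perm (Fin 4), mass (pv u v g) * log (mass (pv u v g))) / 24

/-- The value of the estimate for one permutation on a product. -/
noncomputable def gval (G : GT) (u v : Fin 4 → ℝ) (g : Equiv.Perm (Fin 4)) : ℝ :=
  3 / 2 ^ 25 * (((G.t0 : ℝ) - 570425344) * pv u v g 0 + ((G.t1 : ℝ) - 570425344) * pv u v g 1
      + ((G.t2 : ℝ) - 570425344) * pv u v g 2 + ((G.t3 : ℝ) - 570425344) * pv u v g 3)
    - 6 * ((G.v : ℝ) / 2 ^ 26)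

theorem sum_gval (G0 G1 G2 G3 G4 G5 G6 G7 G8 G9 G10 G11 G12 G13 G14 G15 G16 G17 G18 G19 G20 G21 G22 G23 : GT) (u v : Fin 4 → ℝ) (hu : u 0 + u 1 + u 2 + u 3 = 4) (hv : v 0 + v 1 + v 2 + v 3 = 4) :
    gval G0 u v pg0 + gval G1 u v pg1 + gval G2 u v pg2 + gval G3 u v pg3 + gval G4 u v pg4 + gval G5 u v pg5 + gval G6 u v pg6 + gval G7 u v pg7 + gval G8 u v pg8 + gval G9 u v pg9 + gval G10 u v pg10 + gval G11 u v pg11 + gval G12 u v pg12 + gval G13 u v pg13 + gval G14 u v pg14 + gval G15 u v pg15 + gval G16 u v pg16 + gval G17 u v pg17 + gval G18 u v pg18 + gval G19 u v pg19 + gval G20 u v pg20 + gval G21 u v pg21 + gval G22 u v pg22 + gval G23 u v pg23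
      = 24 * (((mkDual2 G0 G1 G2 G3 G4 G5 G6 G7 G8 G9 G10 G11 G12 G13 G14 G15 G16 G17 G18 G19 G20 G21 G22 G23).C00 : ℝ) * (u 0 * v 0) + ((mkDual2 G0 G1 G2 G3 G4 G5 G6 G7 G8 G9 G10 G11 G12 G13 G14 G15 G16 G17 G18 G19 G20 G21 G22 G23).C01 : ℝ) * (u 0 * v 1)
        + ((mkDual2 G0 G1 G2 G3 G4 G5 G6 G7 G8 G9 G10 G11 G12 G13 G14 G15 G16 G17 G18 G19 G20 G21 G22 G23).C02 : ℝ) * (u 0 * v 2) + ((mkDual2 G0 G1 G2 G3 G4 G5 G6 G7 G8 G9 G10 G11 G12 G13 G14 G15 G16 G17 G18 G19 G20 G21 G22 G23).C03 : ℝ) * (u 0 * v 3)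
        + ((mkDual2 G0 G1 G2 G3 G4 G5 G6 G7 G8 G9 G10 G11 G12 G13 G14 G15 G16 G17 G18 G19 G20 G21 G22 G23).C10 : ℝ) * (u 1 * v 0) + ((mkDual2 G0 G1 G2 G3 G4 G5 G6 G7 G8 G9 G10 G11 G12 G13 G14 G15 G16 G17 G18 G19 G20 G21 G22 G23).C11 : ℝ) * (u 1 * v 1)
        + ((mkDual2 G0 G1 G2 G3 G4 G5 G6 G7 G8 G9 G10 G11 G12 G13 G14 G15 G16 G17 G18 G19 G20 G21 G22 G23).C12 : ℝ) * (u 1 * v 2) + ((mkDual2 G0 G1 G2 G3 G4 G5 G6 G7 G8 G9 G10 G11 G12 G13 G14 G15 G16 G17 G18 G19 G20 G21 G22 G23).C13 : ℝ) * (u 1 * v 3)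
        + ((mkDual2 G0 G1 G2 G3 G4 G5 G6 G7 G8 G9 G10 G11 G12 G13 G14 G15 G16 G17 G18 G19 G20 G21 G22 G23).C20 : ℝ) * (u 2 * v 0) + ((mkDual2 G0 G1 G2 G3 G4 G5 G6 G7 G8 G9 G10 G11 G12 G13 G14 G15 G16 G17 G18 G19 G20 G21 G22 G23).C21 : ℝ) * (u 2 * v 1)
        + ((mkDual2 G0 G1 G2 G3 G4 G5 G6 G7 G8 G9 G10 G11 G12 G13 G14 G15 G16 G17 G18 G19 G20 G21 G22 G23).C22 : ℝ) * (u 2 * v 2) + ((mkDual2 G0 G1 G2 G3 G4 G5 G6 G7 G8 G9 G10 G11 G12 G13 G14 G15 G16 G17 G18 G19 G20 G21 G22 G23).C23 : ℝ) * (u 2 * v 3)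
        + ((mkDual2 G0 G1 G2 G3 G4 G5 G6 G7 G8 G9 G10 G11 G12 G13 G14 G15 G16 G17 G18 G19 G20 G21 G22 G23).C30 : ℝ) * (u 3 * v 0) + ((mkDual2 G0 G1 G2 G3 G4 G5 G6 G7 G8 G9 G10 G11 G12 G13 G14 G15 G16 G17 G18 G19 G20 G21 G22 G23).C31 : ℝ) * (u 3 * v 1)
        + ((mkDual2 G0 G1 G2 G3 G4 G5 G6 G7 G8 G9 G10 G11 G12 G13 G14 G15 G16 G17 G18 G19 G20 G21 G22 G23).C32 : ℝ) * (u 3 * v 2) + ((mkDual2 G0 G1 G2 G3 G4 G5 G6 G7 G8 G9 G10 G11 G12 G13 G14 G15 G16 G17 G18 G19 G20 G21 G22 G23).C33 : ℝ) * (u 3 * v 3)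
        - ((mkDual2 G0 G1 G2 G3 G4 G5 G6 G7 G8 G9 G10 G11 G12 G13 G14 G15 G16 G17 G18 G19 G20 G21 G22 G23).neg : ℝ)) / 2 ^ 28 := by
  have e0 : gval G0 u v pg0 = 3 / 2 ^ 25 * (((G0.t0 : ℝ) - 570425344) * (u 0 * v 0) + ((G0.t1 : ℝ) - 570425344) * (u 1 * v 1)
      + ((G0.t2 : ℝ) - 570425344) * (u 2 * v 2) + ((G0.t3 : ℝ) - 570425344) * (u 3 * v 3))
    - 6 * ((G0.v : ℝ) / 2 ^ 26) := rfl
  have e1 : gval G1 u v pg1 = 3 / 2 ^ 25 * (((G1.t0 : ℝ) - 570425344) * (u 0 * v 0) + ((G1.t1 : ℝ) - 570425344) * (u 1 * v 1)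
      + ((G1.t2 : ℝ) - 570425344) * (u 2 * v 3) + ((G1.t3 : ℝ) - 570425344) * (u 3 * v 2))
    - 6 * ((G1.v : ℝ) / 2 ^ 26) := rfl
  have e2 : gval G2 u v pg2 = 3 / 2 ^ 25 * (((G2.t0 : ℝ) - 570425344) * (u 0 * v 0) + ((G2.t1 : ℝ) - 570425344) * (u 1 * v 2)
      + ((G2.t2 : ℝ) - 570425344) * (u 2 * v 1) + ((G2.t3 : ℝ) - 570425344) * (u 3 * v 3))
    - 6 * ((G2.v : ℝ) / 2 ^ 26) := rfl
  have e3 : gval G3 u v pg3 = 3 / 2 ^ 25 * (((G3.t0 : ℝ) - 570425344) * (u 0 * v 0) + ((G3.t1 : ℝ) - 570425344) * (u 1 * v 2)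
      + ((G3.t2 : ℝ) - 570425344) * (u 2 * v 3) + ((G3.t3 : ℝ) - 570425344) * (u 3 * v 1))
    - 6 * ((G3.v : ℝ) / 2 ^ 26) := rfl
  have e4 : gval G4 u v pg4 = 3 / 2 ^ 25 * (((G4.t0 : ℝ) - 570425344) * (u 0 * v 0) + ((G4.t1 : ℝ) - 570425344) * (u 1 * v 3)
      + ((G4.t2 : ℝ) - 570425344) * (u 2 * v 1) + ((G4.t3 : ℝ) - 570425344) * (u 3 * v 2))
    - 6 * ((G4.v : ℝ) / 2 ^ 26) := rfl
  have e5 : gval G5 u v pg5 = 3 / 2 ^ 25 * (((G5.t0 : ℝ) - 570425344) * (u 0 * v 0) + ((G5.t1 : ℝ) - 570425344) * (u 1 * v 3)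
      + ((G5.t2 : ℝ) - 570425344) * (u 2 * v 2) + ((G5.t3 : ℝ) - 570425344) * (u 3 * v 1))
    - 6 * ((G5.v : ℝ) / 2 ^ 26) := rfl
  have e6 : gval G6 u v pg6 = 3 / 2 ^ 25 * (((G6.t0 : ℝ) - 570425344) * (u 0 * v 1) + ((G6.t1 : ℝ) - 570425344) * (u 1 * v 0)
      + ((G6.t2 : ℝ) - 570425344) * (u 2 * v 2) + ((G6.t3 : ℝ) - 570425344) * (u 3 * v 3))
    - 6 * ((G6.v : ℝ) / 2 ^ 26) := rfl
  have e7 : gval G7 u v pg7 = 3 / 2 ^ 25 * (((G7.t0 : ℝ) - 570425344) * (u 0 * v 1) + ((G7.t1 : ℝ) - 570425344) * (u 1 * v 0)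
      + ((G7.t2 : ℝ) - 570425344) * (u 2 * v 3) + ((G7.t3 : ℝ) - 570425344) * (u 3 * v 2))
    - 6 * ((G7.v : ℝ) / 2 ^ 26) := rfl
  have e8 : gval G8 u v pg8 = 3 / 2 ^ 25 * (((G8.t0 : ℝ) - 570425344) * (u 0 * v 1) + ((G8.t1 : ℝ) - 570425344) * (u 1 * v 2)
      + ((G8.t2 : ℝ) - 570425344) * (u 2 * v 0) + ((G8.t3 : ℝ) - 570425344) * (u 3 * v 3))
    - 6 * ((G8.v : ℝ) / 2 ^ 26) := rfl
  have e9 : gval G9 u v pg9 = 3 / 2 ^ 25 * (((G9.t0 : ℝ) - 570425344) * (u 0 * v 1) + ((G9.t1 : ℝ) - 570425344) * (u 1 * v 2)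
      + ((G9.t2 : ℝ) - 570425344) * (u 2 * v 3) + ((G9.t3 : ℝ) - 570425344) * (u 3 * v 0))
    - 6 * ((G9.v : ℝ) / 2 ^ 26) := rfl
  have e10 : gval G10 u v pg10 = 3 / 2 ^ 25 * (((G10.t0 : ℝ) - 570425344) * (u 0 * v 1) + ((G10.t1 : ℝ) - 570425344) * (u 1 * v 3)
      + ((G10.t2 : ℝ) - 570425344) * (u 2 * v 0) + ((G10.t3 : ℝ) - 570425344) * (u 3 * v 2))
    - 6 * ((G10.v : ℝ) / 2 ^ 26) := rfl
  have e11 : gval G11 u v pg11 = 3 / 2 ^ 25 * (((G11.t0 : ℝ) - 570425344) * (u 0 * v 1) + ((G11.t1 : ℝ) - 570425344) * (u 1 * v 3)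
      + ((G11.t2 : ℝ) - 570425344) * (u 2 * v 2) + ((G11.t3 : ℝ) - 570425344) * (u 3 * v 0))
    - 6 * ((G11.v : ℝ) / 2 ^ 26) := rfl
  have e12 : gval G12 u v pg12 = 3 / 2 ^ 25 * (((G12.t0 : ℝ) - 570425344) * (u 0 * v 2) + ((G12.t1 : ℝ) - 570425344) * (u 1 * v 0)
      + ((G12.t2 : ℝ) - 570425344) * (u 2 * v 1) + ((G12.t3 : ℝ) - 570425344) * (u 3 * v 3))
    - 6 * ((G12.v : ℝ) / 2 ^ 26) := rfl
  have e13 : gval G13 u v pg13 = 3 / 2 ^ 25 * (((G13.t0 : ℝ) - 570425344) * (u 0 * v 2) + ((G13.t1 : ℝ) - 570425344) * (u 1 * v 0)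
      + ((G13.t2 : ℝ) - 570425344) * (u 2 * v 3) + ((G13.t3 : ℝ) - 570425344) * (u 3 * v 1))
    - 6 * ((G13.v : ℝ) / 2 ^ 26) := rfl
  have e14 : gval G14 u v pg14 = 3 / 2 ^ 25 * (((G14.t0 : ℝ) - 570425344) * (u 0 * v 2) + ((G14.t1 : ℝ) - 570425344) * (u 1 * v 1)
      + ((G14.t2 : ℝ) - 570425344) * (u 2 * v 0) + ((G14.t3 : ℝ) - 570425344) * (u 3 * v 3))
    - 6 * ((G14.v : ℝ) / 2 ^ 26) := rfl
  have e15 : gval G15 u v pg15 = 3 / 2 ^ 25 * (((G15.t0 : ℝ) - 570425344) * (u 0 * v 2) + ((G15.t1 : ℝ) - 570425344) * (u 1 * v 1)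
      + ((G15.t2 : ℝ) - 570425344) * (u 2 * v 3) + ((G15.t3 : ℝ) - 570425344) * (u 3 * v 0))
    - 6 * ((G15.v : ℝ) / 2 ^ 26) := rfl
  have e16 : gval G16 u v pg16 = 3 / 2 ^ 25 * (((G16.t0 : ℝ) - 570425344) * (u 0 * v 2) + ((G16.t1 : ℝ) - 570425344) * (u 1 * v 3)
      + ((G16.t2 : ℝ) - 570425344) * (u 2 * v 0) + ((G16.t3 : ℝ) - 570425344) * (u 3 * v 1))
    - 6 * ((G16.v : ℝ) / 2 ^ 26) := rfl
  have e17 : gval G17 u v pg17 = 3 / 2 ^ 25 * (((G17.t0 : ℝ) - 570425344) * (u 0 * v 2) + ((G17.t1 : ℝ) - 570425344) * (u 1 * v 3)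
      + ((G17.t2 : ℝ) - 570425344) * (u 2 * v 1) + ((G17.t3 : ℝ) - 570425344) * (u 3 * v 0))
    - 6 * ((G17.v : ℝ) / 2 ^ 26) := rfl
  have e18 : gval G18 u v pg18 = 3 / 2 ^ 25 * (((G18.t0 : ℝ) - 570425344) * (u 0 * v 3) + ((G18.t1 : ℝ) - 570425344) * (u 1 * v 0)
      + ((G18.t2 : ℝ) - 570425344) * (u 2 * v 1) + ((G18.t3 : ℝ) - 570425344) * (u 3 * v 2))
    - 6 * ((G18.v : ℝ) / 2 ^ 26) := rfl
  have e19 : gval G19 u v pg19 = 3 / 2 ^ 25 * (((G19.t0 : ℝ) - 570425344) * (u 0 * v 3) + ((G19.t1 : ℝ) - 570425344) * (u 1 * v 0)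
      + ((G19.t2 : ℝ) - 570425344) * (u 2 * v 2) + ((G19.t3 : ℝ) - 570425344) * (u 3 * v 1))
    - 6 * ((G19.v : ℝ) / 2 ^ 26) := rfl
  have e20 : gval G20 u v pg20 = 3 / 2 ^ 25 * (((G20.t0 : ℝ) - 570425344) * (u 0 * v 3) + ((G20.t1 : ℝ) - 570425344) * (u 1 * v 1)
      + ((G20.t2 : ℝ) - 570425344) * (u 2 * v 0) + ((G20.t3 : ℝ) - 570425344) * (u 3 * v 2))
    - 6 * ((G20.v : ℝ) / 2 ^ 26) := rfl
  have e21 : gval G21 u v pg21 = 3 / 2 ^ 25 * (((G21.t0 : ℝ) - 570425344) * (u 0 * v 3) + ((G21.t1 : ℝ) - 570425344) * (u 1 * v 1)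
      + ((G21.t2 : ℝ) - 570425344) * (u 2 * v 2) + ((G21.t3 : ℝ) - 570425344) * (u 3 * v 0))
    - 6 * ((G21.v : ℝ) / 2 ^ 26) := rfl
  have e22 : gval G22 u v pg22 = 3 / 2 ^ 25 * (((G22.t0 : ℝ) - 570425344) * (u 0 * v 3) + ((G22.t1 : ℝ) - 570425344) * (u 1 * v 2)
      + ((G22.t2 : ℝ) - 570425344) * (u 2 * v 0) + ((G22.t3 : ℝ) - 570425344) * (u 3 * v 1))
    - 6 * ((G22.v : ℝ) / 2 ^ 26) := rfl
  have e23 : gval G23 u v pg23 = 3 / 2 ^ 25 * (((G23.t0 : ℝ) - 570425344) * (u 0 * v 3) + ((G23.t1 : ℝ) - 570425344) * (u 1 * v 2)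
      + ((G23.t2 : ℝ) - 570425344) * (u 2 * v 1) + ((G23.t3 : ℝ) - 570425344) * (u 3 * v 0))
    - 6 * ((G23.v : ℝ) / 2 ^ 26) := rfl
  rw [e0, e1, e2, e3, e4, e5, e6, e7, e8, e9, e10, e11, e12, e13, e14, e15, e16, e17, e18, e19, e20, e21, e22, e23]
  simp only [mkDual2, cast_nadd]
  push_cast
  linear_combination (-(3 / 2 ^ 25) * 570425344 * 6 * (v 0 + v 1 + v 2 + v 3)) * hu + (-(3 / 2 ^ 25) * 570425344 * 6 * 4) * hv

/-- The bilinear form of a dual certificate. -/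
noncomputable def bil (D : Dual) (u v : Fin 4 → ℝ) : ℝ :=
  (D.C00 : ℝ) * (u 0 * v 0) + (D.C01 : ℝ) * (u 0 * v 1)
        + (D.C02 : ℝ) * (u 0 * v 2) + (D.C03 : ℝ) * (u 0 * v 3)
        + (D.C10 : ℝ) * (u 1 * v 0) + (D.C11 : ℝ) * (u 1 * v 1)
        + (D.C12 : ℝ) * (u 1 * v 2) + (D.C13 : ℝ) * (u 1 * v 3)
        + (D.C20 : ℝ) * (u 2 * v 0) + (D.C21 : ℝ) * (u 2 * v 1)
        + (D.C22 : ℝ) * (u 2 * v 2) + (D.C23 : ℝ) * (u 2 * v 3)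
        + (D.C30 : ℝ) * (u 3 * v 0) + (D.C31 : ℝ) * (u 3 * v 1)
        + (D.C32 : ℝ) * (u 3 * v 2) + (D.C33 : ℝ) * (u 3 * v 3)

theorem mkDual2_spec (G0 G1 G2 G3 G4 G5 G6 G7 G8 G9 G10 G11 G12 G13 G14 G15 G16 G17 G18 G19 G20 G21 G22 G23 : GT) {u v : Fin 4 → ℝ} (hu : u 0 + u 1 + u 2 + u 3 = 4) (hv : v 0 + v 1 + v 2 + v 3 = 4)
    (h0 : gval G0 u v pg0 ≤ 9 * yy (pv u v pg0) + 6 * (mass (pv u v pg0) * log (mass (pv u v pg0))))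
     (h1 : gval G1 u v pg1 ≤ 9 * yy (pv u v pg1) + 6 * (mass (pv u v pg1) * log (mass (pv u v pg1))))
     (h2 : gval G2 u v pg2 ≤ 9 * yy (pv u v pg2) + 6 * (mass (pv u v pg2) * log (mass (pv u v pg2))))
     (h3 : gval G3 u v pg3 ≤ 9 * yy (pv u v pg3) + 6 * (mass (pv u v pg3) * log (mass (pv u v pg3))))
     (h4 : gval G4 u v pg4 ≤ 9 * yy (pv u v pg4) + 6 * (mass (pv u v pg4) * log (mass (pv u v pg4))))
     (h5 : gval G5 u v pg5 ≤ 9 * yy (pv u v pg5) + 6 * (mass (pv u v pg5) * log (mass (pv u v pg5))))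
     (h6 : gval G6 u v pg6 ≤ 9 * yy (pv u v pg6) + 6 * (mass (pv u v pg6) * log (mass (pv u v pg6))))
     (h7 : gval G7 u v pg7 ≤ 9 * yy (pv u v pg7) + 6 * (mass (pv u v pg7) * log (mass (pv u v pg7))))
     (h8 : gval G8 u v pg8 ≤ 9 * yy (pv u v pg8) + 6 * (mass (pv u v pg8) * log (mass (pv u v pg8))))
     (h9 : gval G9 u v pg9 ≤ 9 * yy (pv u v pg9) + 6 * (mass (pv u v pg9) * log (mass (pv u v pg9))))
     (h10 : gval G10 u v pg10 ≤ 9 * yy (pv u v pg10) + 6 * (mass (pv u v pg10) * log (mass (pv u v pg10))))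
     (h11 : gval G11 u v pg11 ≤ 9 * yy (pv u v pg11) + 6 * (mass (pv u v pg11) * log (mass (pv u v pg11))))
     (h12 : gval G12 u v pg12 ≤ 9 * yy (pv u v pg12) + 6 * (mass (pv u v pg12) * log (mass (pv u v pg12))))
     (h13 : gval G13 u v pg13 ≤ 9 * yy (pv u v pg13) + 6 * (mass (pv u v pg13) * log (mass (pv u v pg13))))
     (h14 : gval G14 u v pg14 ≤ 9 * yy (pv u v pg14) + 6 * (mass (pv u v pg14) * log (mass (pv u v pg14))))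
     (h15 : gval G15 u v pg15 ≤ 9 * yy (pv u v pg15) + 6 * (mass (pv u v pg15) * log (mass (pv u v pg15))))
     (h16 : gval G16 u v pg16 ≤ 9 * yy (pv u v pg16) + 6 * (mass (pv u v pg16) * log (mass (pv u v pg16))))
     (h17 : gval G17 u v pg17 ≤ 9 * yy (pv u v pg17) + 6 * (mass (pv u v pg17) * log (mass (pv u v pg17))))
     (h18 : gval G18 u v pg18 ≤ 9 * yy (pv u v pg18) + 6 * (mass (pv u v pg18) * log (mass (pv u v pg18))))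
     (h19 : gval G19 u v pg19 ≤ 9 * yy (pv u v pg19) + 6 * (mass (pv u v pg19) * log (mass (pv u v pg19))))
     (h20 : gval G20 u v pg20 ≤ 9 * yy (pv u v pg20) + 6 * (mass (pv u v pg20) * log (mass (pv u v pg20))))
     (h21 : gval G21 u v pg21 ≤ 9 * yy (pv u v pg21) + 6 * (mass (pv u v pg21) * log (mass (pv u v pg21))))
     (h22 : gval G22 u v pg22 ≤ 9 * yy (pv u v pg22) + 6 * (mass (pv u v pg22) * log (mass (pv u v pg22))))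
     (h23 : gval G23 u v pg23 ≤ 9 * yy (pv u v pg23) + 6 * (mass (pv u v pg23) * log (mass (pv u v pg23))))
    :
    (bil (mkDual2 G0 G1 G2 G3 G4 G5 G6 G7 G8 G9 G10 G11 G12 G13 G14 G15 G16 G17 G18 G19 G20 G21 G22 G23) u v - ((mkDual2 G0 G1 G2 G3 G4 G5 G6 G7 G8 G9 G10 G11 G12 G13 G14 G15 G16 G17 G18 G19 G20 G21 G22 G23).neg : ℝ)) / 2 ^ 28 ≤ Gr u v := by
  have hs := sum_gval G0 G1 G2 G3 G4 G5 G6 G7 G8 G9 G10 G11 G12 G13 G14 G15 G16 G17 G18 G19 G20 G21 G22 G23 u v hu hv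
  have e : Gr u v = ((9 * yy (pv u v pg0) + 6 * (mass (pv u v pg0) * log (mass (pv u v pg0)))) + (9 * yy (pv u v pg1) + 6 * (mass (pv u v pg1) * log (mass (pv u v pg1)))) + (9 * yy (pv u v pg2) + 6 * (mass (pv u v pg2) * log (mass (pv u v pg2)))) + (9 * yy (pv u v pg3) + 6 * (mass (pv u v pg3) * log (mass (pv u v pg3)))) + (9 * yy (pv u v pg4) + 6 * (mass (pv u v pg4) * log (mass (pv u v pg4)))) + (9 * yy (pv u v pg5) + 6 * (mass (pv u v pg5) * log (mass (pv u v pg5)))) + (9 * yy (pv u v pg6) + 6 * (mass (pv u v pg6) * log (mass (pv u v pg6)))) + (9 * yy (pv u v pg7) + 6 * (mass (pv u v pg7) * log (mass (pv u v pg7)))) + (9 * yy (pv u v pg8) + 6 * (mass (pv u v pg8) * log (mass (pv u v pg8)))) + (9 * yy (pv u v pg9) + 6 * (mass (pv u v pg9) * log (mass (pv u v pg9)))) + (9 * yy (pv u v pg10) + 6 * (mass (pv u v pg10) * log (mass (pv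 u v pg10)))) + (9 * yy (pv u v pg11) + 6 * (mass (pv u v pg11) * log (mass (pv u v pg11)))) + (9 * yy (pv u v pg12) + 6 * (mass (pv u v pg12) * log (mass (pv u v pg12)))) + (9 * yy (pv u v pg13) + 6 * (mass (pv u v pg13) * log (mass (pv u v pg13)))) + (9 * yy (pv u v pg14) + 6 * (mass (pv u v pg14) * log (mass (pv u v pg14)))) + (9 * yy (pv u v pg15) + 6 * (mass (pv u v pg15) * log (mass (pv u v pg15)))) + (9 * yy (pv u v pg16) + 6 * (mass (pv u v pg16) * log (mass (pv u v pg16)))) + (9 * yy (pv u v pg17) + 6 * (mass (pv u v pg17) * log (mass (pv u v pg17)))) + (9 * yy (pv u v pg18) + 6 * (mass (pv u v pg18) * log (mass (pv u v pg18)))) + (9 * yy (pv u v pg19) + 6 * (mass (pv u v pg19) * log (mass (pv u v pg19)))) + (9 * yy (pv u v pg20) + 6 * (mass (pv u v pg20) * log (mass (pv u v pg20)))) + (9 * yy (pv u v pg21) + 6 * (mass (pv u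 v pg21) * log (mass (pv u v pg21)))) + (9 * yy (pv u v pg22) + 6 * (mass (pv u v pg22) * log (mass (pv u v pg22)))) + (9 * yy (pv u v pg23) + 6 * (mass (pv u v pg23) * log (mass (pv u v pg23))))) / 24 := by
    unfold Gr
    rw [sum_perm, sum_perm]
    simp only [permList, List.map, List.sum_cons, List.sum_nil]
    ring
  rw [e]
  unfold bil
  have h24 : (gval G0 u v pg0 + gval G1 u v pg1 + gval G2 u v pg2 + gval G3 u v pg3 + gval G4 u v pg4 + gval G5 u v pg5 + gval G6 u v pg6 + gval G7 u v pg7 + gval G8 u v pg8 + gval G9 u v pg9 + gval G10 u v pg10 + gval G11 u v pg11 + gval G12 u v pg12 + gval G13 u v pg13 + gval G14 u v pg14 + gval G15 u v pg15 + gval G16 u v pg16 + gval G17 u v pg17 + gval G18 u v pg18 + gval G19 u v pg19 + gval G20 u v pg20 + gval G21 u v pg21 + gval G22 u v pg22 + gval G23 u v pg23) ≤ (9 * yy (pv u v pg0) + 6 *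 (mass (pv u v pg0) * log (mass (pv u v pg0)))) + (9 * yy (pv u v pg1) + 6 * (mass (pv u v pg1) * log (mass (pv u v pg1)))) + (9 * yy (pv u v pg2) + 6 * (mass (pv u v pg2) * log (mass (pv u v pg2)))) + (9 * yy (pv u v pg3) + 6 * (mass (pv u v pg3) * log (mass (pv u v pg3)))) + (9 * yy (pv u v pg4) + 6 * (mass (pv u v pg4) * log (mass (pv u v pg4)))) + (9 * yy (pv u v pg5) + 6 * (mass (pv u v pg5) * log (mass (pv u v pg5)))) + (9 * yy (pv u v pg6) + 6 * (mass (pv u v pg6) * log (mass (pv u v pg6)))) + (9 * yy (pv u v pg7) + 6 * (mass (pv u v pg7) * log (mass (pv u v pg7)))) + (9 * yy (pv u v pg8) + 6 * (mass (pv u v pg8) * log (mass (pv u v pg8)))) + (9 * yy (pv u v pg9) + 6 * (mass (pv u v pg9) * log (mass (pv u v pg9)))) + (9 * yy (pv u v pg10) + 6 * (mass (pv u v pg10) * log (mass (pv u v pg10)))) + (9 * yy (pv u v pg11) + 6 * (mass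 (pv u v pg11) * log (mass (pv u v pg11)))) + (9 * yy (pv u v pg12) + 6 * (mass (pv u v pg12) * log (mass (pv u v pg12)))) + (9 * yy (pv u v pg13) + 6 * (mass (pv u v pg13) * log (mass (pv u v pg13)))) + (9 * yy (pv u v pg14) + 6 * (mass (pv u v pg14) * log (mass (pv u v pg14)))) + (9 * yy (pv u v pg15) + 6 * (mass (pv u v pg15) * log (mass (pv u v pg15)))) + (9 * yy (pv u v pg16) + 6 * (mass (pv u v pg16) * log (mass (pv u v pg16)))) + (9 * yy (pv u v pg17) + 6 * (mass (pv u v pg17) * log (mass (pv u v pg17)))) + (9 * yy (pv u v pg18) + 6 * (mass (pv u v pg18) * log (mass (pv u v pg18)))) + (9 * yy (pv u v pg19) + 6 * (mass (pv u v pg19) * log (mass (pv u v pg19)))) + (9 * yy (pv u v pg20) + 6 * (mass (pv u v pg20) * log (mass (pv u v pg20)))) + (9 * yy (pv u v pg21) + 6 * (mass (pv u v pg21) * log (mass (pv u v pg21)))) + (9 * yy (pv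 u v pg22) + 6 * (mass (pv u v pg22) * log (mass (pv u v pg22)))) + (9 * yy (pv u v pg23) + 6 * (mass (pv u v pg23) * log (mass (pv u v pg23)))) := by
    linarith
  rw [hs] at h24
  linarith

theorem and_tree (G0 G1 G2 G3 G4 G5 G6 G7 G8 G9 G10 G11 G12 G13 G14 G15 G16 G17 G18 G19 G20 G21 G22 G23 : GT)
    (h : (mkDual2 G0 G1 G2 G3 G4 G5 G6 G7 G8 G9 G10 G11 G12 G13 G14 G15 G16 G17 G18 G19 G20 G21 G22 G23).ok = true) : ((((G0.ok = true) ∧ ((G1.ok = true) ∧ (G2.ok = true))) ∧ ((G3.ok = true) ∧ ((G4.ok = true) ∧ (G5.ok = true)))) ∧ (((G6.ok = true) ∧ ((G7.ok = true) ∧ (G8.ok = true))) ∧ ((G9.ok = true) ∧ ((G10.ok = true) ∧ (G11.ok = true))))) ∧ ((((G12.ok = true) ∧ ((G13.ok = true) ∧ (G14.ok = true))) ∧ ((G15.ok = true) ∧ ((G16.ok = true) ∧ (G17.ok = true)))) ∧ (((G18.ok = true) ∧ ((G19.ok = true) ∧ (G20.ok = true))) ∧ ((G21.ok = true) ∧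 ((G22.ok = true) ∧ (G23.ok = true))))) := by
  exact ⟨⟨⟨⟨(cond_and (cond_and (cond_and (cond_and h).1).1).1).1, ⟨(cond_and (cond_and (cond_and (cond_and (cond_and h).1).1).1).2).1, (cond_and (cond_and (cond_and (cond_and (cond_and h).1).1).1).2).2⟩⟩, ⟨(cond_and (cond_and (cond_and (cond_and h).1).1).2).1, ⟨(cond_and (cond_and (cond_and (cond_and (cond_and h).1).1).2).2).1, (cond_and (cond_and (cond_and (cond_and (cond_and h).1).1).2).2).2⟩⟩⟩, ⟨⟨(cond_and (cond_and (cond_and (cond_and h).1).2).1).1, ⟨(cond_and (cond_and (cond_and (cond_and (cond_and h).1).2).1).2).1, (cond_and (cond_and (cond_and (cond_and (cond_and h).1).2).1).2).2⟩⟩, ⟨(cond_and (cond_and (cond_and (cond_and h).1).2).2).1, ⟨(cond_and (cond_and (cond_and (cond_and (cond_and h).1).2).2).2).1, (cond_and (cond_and (cond_and (cond_and (cond_and h).1).2).2).2).2⟩⟩⟩⟩, ⟨⟨⟨(cond_and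 (cond_and (cond_and (cond_and h).2).1).1).1, ⟨(cond_and (cond_and (cond_and (cond_and (cond_and h).2).1).1).2).1, (cond_and (cond_and (cond_and (cond_and (cond_and h).2).1).1).2).2⟩⟩, ⟨(cond_and (cond_and (cond_and (cond_and h).2).1).2).1, ⟨(cond_and (cond_and (cond_and (cond_and (cond_and h).2).1).2).2).1, (cond_and (cond_and (cond_and (cond_and (cond_and h).2).1).2).2).2⟩⟩⟩, ⟨⟨(cond_and (cond_and (cond_and (cond_and h).2).2).1).1, ⟨(cond_and (cond_and (cond_and (cond_and (cond_and h).2).2).1).2).1, (cond_and (cond_and (cond_and (cond_and (cond_and h).2).2).1).2).2⟩⟩, ⟨(cond_and (cond_and (cond_and (cond_and h).2).2).2).1, ⟨(cond_and (cond_and (cond_and (cond_and (cond_and h).2).2).2).2).1, (cond_and (cond_and (cond_and (cond_and (cond_and h).2).2).2).2).2⟩⟩⟩⟩⟩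

/-- The bound for the group sums from a dual certificate. -/
theorem mkDual_spec {u v : Fin 4 → ℝ} (hu : ∀ i, 0 < u i) (hv : ∀ i, 0 < v i)
    (hmu : mass u = 1) (hmv : mass v = 1) {a0 a1 a2 a3 b0 b1 b2 b3 : ℕ}
    (h : (mkDual a0 a1 a2 a3 b0 b1 b2 b3).ok = true) :
    (bil (mkDual a0 a1 a2 a3 b0 b1 b2 b3) u v - ((mkDual a0 a1 a2 a3 b0 b1 b2 b3).neg : ℝ)) / 2 ^ 28
      ≤ Gr u v := by
  have hu4 : u 0 + u 1 + u 2 + u 3 = 4 := by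
    unfold mass at hmu
    rw [Fin.sum_univ_four] at hmu
    linarith
  have hv4 : v 0 + v 1 + v 2 + v 3 = 4 := by
    unfold mass at hmv
    rw [Fin.sum_univ_four] at hmv
    linarith
  obtain ⟨⟨⟨⟨ok0, ⟨ok1, ok2⟩⟩, ⟨ok3, ⟨ok4, ok5⟩⟩⟩, ⟨⟨ok6, ⟨ok7, ok8⟩⟩, ⟨ok9, ⟨ok10, ok11⟩⟩⟩⟩, ⟨⟨⟨ok12, ⟨ok13, ok14⟩⟩, ⟨ok15, ⟨ok16, ok17⟩⟩⟩, ⟨⟨ok18, ⟨ok19, ok20⟩⟩, ⟨ok21, ⟨ok22, ok23⟩⟩⟩⟩⟩ := and_tree (gtermP (Nat.mul a0 b0) (Nat.mul a1 b1) (Nat.mul a2 b2) (Nat.mul a3 b3)) (gtermP (Nat.mul a0 b0) (Nat.mul a1 b1) (Nat.mul a2 b3) (Nat.mul a3 b2)) (gtermP (Nat.mul a0 b0) (Nat.mul a1 b2) (Nat.mul a2 b1) (Nat.mul a3 b3)) (gtermP (Nat.mul a0 b0) (Nat.mul a1 b2) (Nat.mul a2 b3) (Nat.mul a3 b1)) (gtermP (Nat.mul a0 b0) (Nat.mul a1 b3) (Nat.mul a2 b1) (Nat.mul a3 b2)) (gtermP (Nat.mul a0 b0) (Nat.mul a1 b3) (Nat.mul a2 b2) (Nat.mul a3 b1)) (gtermP (Nat.mul a0 b1)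 (Nat.mul a1 b0) (Nat.mul a2 b2) (Nat.mul a3 b3)) (gtermP (Nat.mul a0 b1) (Nat.mul a1 b0) (Nat.mul a2 b3) (Nat.mul a3 b2)) (gtermP (Nat.mul a0 b1) (Nat.mul a1 b2) (Nat.mul a2 b0) (Nat.mul a3 b3)) (gtermP (Nat.mul a0 b1) (Nat.mul a1 b2) (Nat.mul a2 b3) (Nat.mul a3 b0)) (gtermP (Nat.mul a0 b1) (Nat.mul a1 b3) (Nat.mul a2 b0) (Nat.mul a3 b2)) (gtermP (Nat.mul a0 b1) (Nat.mul a1 b3) (Nat.mul a2 b2) (Nat.mul a3 b0)) (gtermP (Nat.mul a0 b2) (Nat.mul a1 b0) (Nat.mul a2 b1) (Nat.mul a3 b3)) (gtermP (Nat.mul a0 b2) (Nat.mul a1 b0) (Nat.mul a2 b3) (Nat.mul a3 b1)) (gtermP (Nat.mul a0 b2) (Nat.mul a1 b1) (Nat.mul a2 b0) (Nat.mul a3 b3)) (gtermP (Nat.mul a0 b2) (Nat.mul a1 b1) (Nat.mul a2 b3) (Nat.mul a3 b0)) (gtermP (Nat.mul a0 b2) (Nat.mul a1 b3) (Nat.mul a2 b0) (Nat.mul a3 b1)) (gtermP (Nat.mul a0 b2) (Nat.mul a1 b3) (Nat.mul a2 b1) (Nat.mul a3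 b0)) (gtermP (Nat.mul a0 b3) (Nat.mul a1 b0) (Nat.mul a2 b1) (Nat.mul a3 b2)) (gtermP (Nat.mul a0 b3) (Nat.mul a1 b0) (Nat.mul a2 b2) (Nat.mul a3 b1)) (gtermP (Nat.mul a0 b3) (Nat.mul a1 b1) (Nat.mul a2 b0) (Nat.mul a3 b2)) (gtermP (Nat.mul a0 b3) (Nat.mul a1 b1) (Nat.mul a2 b2) (Nat.mul a3 b0)) (gtermP (Nat.mul a0 b3) (Nat.mul a1 b2) (Nat.mul a2 b0) (Nat.mul a3 b1)) (gtermP (Nat.mul a0 b3) (Nat.mul a1 b2) (Nat.mul a2 b1) (Nat.mul a3 b0)) h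
  have hpp : ∀ g : Equiv.Perm (Fin 4), ∀ i, 0 < pv u v g i := fun g i => mul_pos (hu i) (hv (g i))
  exact mkDual2_spec (gtermP (Nat.mul a0 b0) (Nat.mul a1 b1) (Nat.mul a2 b2) (Nat.mul a3 b3)) (gtermP (Nat.mul a0 b0) (Nat.mul a1 b1) (Nat.mul a2 b3) (Nat.mul a3 b2)) (gtermP (Nat.mul a0 b0) (Nat.mul a1 b2) (Nat.mul a2 b1) (Nat.mul a3 b3)) (gtermP (Nat.mul a0 b0) (Nat.mul a1 b2) (Nat.mul a2 b3) (Nat.mul a3 b1)) (gtermP (Nat.mul a0 b0) (Nat.mul a1 b3) (Nat.mul a2 b1) (Nat.mul a3 b2)) (gtermP (Nat.mul a0 b0) (Nat.mul a1 b3) (Nat.mul a2 b2) (Nat.mul a3 b1)) (gtermP (Nat.mul a0 b1) (Nat.mul a1 b0) (Nat.mul a2 b2) (Nat.mul a3 b3)) (gtermP (Nat.mul a0 b1) (Nat.mul a1 b0) (Nat.mul a2 b3) (Nat.mul a3 b2)) (gtermP (Nat.mul a0 b1) (Nat.mul a1 b2) (Nat.mul a2 b0) (Nat.mul a3 b3)) (gtermP (Nat.mul a0 b1) (Nat.mul a1 b2) (Nat.mul a2 b3) (Nat.mul a3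 b0)) (gtermP (Nat.mul a0 b1) (Nat.mul a1 b3) (Nat.mul a2 b0) (Nat.mul a3 b2)) (gtermP (Nat.mul a0 b1) (Nat.mul a1 b3) (Nat.mul a2 b2) (Nat.mul a3 b0)) (gtermP (Nat.mul a0 b2) (Nat.mul a1 b0) (Nat.mul a2 b1) (Nat.mul a3 b3)) (gtermP (Nat.mul a0 b2) (Nat.mul a1 b0) (Nat.mul a2 b3) (Nat.mul a3 b1)) (gtermP (Nat.mul a0 b2) (Nat.mul a1 b1) (Nat.mul a2 b0) (Nat.mul a3 b3)) (gtermP (Nat.mul a0 b2) (Nat.mul a1 b1) (Nat.mul a2 b3) (Nat.mul a3 b0)) (gtermP (Nat.mul a0 b2) (Nat.mul a1 b3) (Nat.mul a2 b0) (Nat.mul a3 b1)) (gtermP (Nat.mul a0 b2) (Nat.mul a1 b3) (Nat.mul a2 b1) (Nat.mul a3 b0)) (gtermP (Nat.mul a0 b3) (Nat.mul a1 b0) (Nat.mul a2 b1) (Nat.mul a3 b2)) (gtermP (Nat.mul a0 b3) (Nat.mul a1 b0) (Nat.mul a2 b2) (Nat.mul a3 b1)) (gtermP (Nat.mul a0 b3) (Nat.mul a1 b1) (Nat.mul a2 b0) (Nat.mul a3 b2)) (gtermP (Nat.mul a0 b3) (Nat.mul a1 b1)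 (Nat.mul a2 b2) (Nat.mul a3 b0)) (gtermP (Nat.mul a0 b3) (Nat.mul a1 b2) (Nat.mul a2 b0) (Nat.mul a3 b1)) (gtermP (Nat.mul a0 b3) (Nat.mul a1 b2) (Nat.mul a2 b1) (Nat.mul a3 b0)) hu4 hv4
    (gtermP_spec (hpp pg0) ok0)
    (gtermP_spec (hpp pg1) ok1)
    (gtermP_spec (hpp pg2) ok2)
    (gtermP_spec (hpp pg3) ok3)
    (gtermP_spec (hpp pg4) ok4)
    (gtermP_spec (hpp pg5) ok5)
    (gtermP_spec (hpp pg6) ok6)
    (gtermP_spec (hpp pg7) ok7)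
    (gtermP_spec (hpp pg8) ok8)
    (gtermP_spec (hpp pg9) ok9)
    (gtermP_spec (hpp pg10) ok10)
    (gtermP_spec (hpp pg11) ok11)
    (gtermP_spec (hpp pg12) ok12)
    (gtermP_spec (hpp pg13) ok13)
    (gtermP_spec (hpp pg14) ok14)
    (gtermP_spec (hpp pg15) ok15)
    (gtermP_spec (hpp pg16) ok16)
    (gtermP_spec (hpp pg17) ok17)
    (gtermP_spec (hpp pg18) ok18)
    (gtermP_spec (hpp pg19) ok19)
    (gtermP_spec (hpp pg20) ok20)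
    (gtermP_spec (hpp pg21) ok21)
    (gtermP_spec (hpp pg22) ok22)
    (gtermP_spec (hpp pg23) ok23)

end Vale.Agent.P154.Q4.BB
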