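import Vale.Agent.P154.Q4.BB.S2

/-!
Soundness of the computable check, part three: the meaning of the data of a box.
-/

namespace Vale.Agent.P154.Q4.BB

open Real Vale.Agent.P154.Q4

/-- The facts that make the data of a box valid. -/
structure BaseOK (c0 c1 c2 c3 r0 r1 r2 r3 pl0 pu0 pl1 pu1 pl2 pu2 pl3 pu3 : ℕ) : Prop where
  sum : c0 + c1 + c2 + c3 = 16384
  rad : r0 = r1 + r2 + r3
  le1 : r1 ≤ c1
  le2 : r2 ≤ c2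
  le3 : r3 ≤ c3
  l0 : phi (((Nat.sub c0 r0 : ℕ) : ℝ) / 4096) ≤ (pl0 : ℝ) / 2 ^ 30
  u0 : phi (((c0 : ℝ) + r0) / 4096) ≤ (pu0 : ℝ) / 2 ^ 30
  l1 : phi (((Nat.sub c1 r1 : ℕ) : ℝ) / 4096) ≤ (pl1 : ℝ) / 2 ^ 30
  u1 : phi (((c1 : ℝ) + r1) / 4096) ≤ (pu1 : ℝ) / 2 ^ 30
  l2 : phi (((Nat.sub c2 r2 : ℕ) : ℝ) / 4096) ≤ (pl2 : ℝ) / 2 ^ 30
  u2 : phi (((c2 : ℝ) + r2) / 4096) ≤ (pu2 : ℝ) / 2 ^ 30
  l3 : phi (((Nat.sub c3 r3 : ℕ) : ℝ) / 4096) ≤ (pl3 : ℝ) / 2 ^ 30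
  u3 : phi (((c3 : ℝ) + r3) / 4096) ≤ (pu3 : ℝ) / 2 ^ 30

/-- A data record of a box which is valid. -/
def IsSt (s : St) : Prop :=
  ∃ c0 c1 c2 c3 r0 r1 r2 r3 pl0 pu0 pl1 pu1 pl2 pu2 pl3 pu3,
    s = mkSt c0 c1 c2 c3 r0 r1 r2 r3 pl0 pu0 pl1 pu1 pl2 pu2 pl3 pu3
      ∧ BaseOK c0 c1 c2 c3 r0 r1 r2 r3 pl0 pu0 pl1 pu1 pl2 pu2 pl3 pu3

/-- A vector with positive entries of mean one. -/
def Dom (a : Fin 4 → ℝ) : Prop := (∀ i, 0 < a i) ∧ mass a = 1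

/-- A vector in a box. -/
def InBox (c1 c2 c3 r1 r2 r3 : ℕ) (a : Fin 4 → ℝ) : Prop :=
  ((c1 : ℝ) - r1) / 4096 ≤ a 1 ∧ a 1 ≤ ((c1 : ℝ) + r1) / 4096
    ∧ ((c2 : ℝ) - r2) / 4096 ≤ a 2 ∧ a 2 ≤ ((c2 : ℝ) + r2) / 4096
    ∧ ((c3 : ℝ) - r3) / 4096 ≤ a 3 ∧ a 3 ≤ ((c3 : ℝ) + r3) / 4096

/-- The square sum of the centres of a record. -/
noncomputable def sqR (s : St) : ℝ :=
  (s.c0 : ℝ) ^ 2 + (s.c1 : ℝ) ^ 2 + (s.c2 : ℝ) ^ 2 + (s.c3 : ℝ) ^ 2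

/-- Algebraic meaning of the numbers in a record. -/
structure SideFacts (s : St) : Prop where
  sum : s.c0 + s.c1 + s.c2 + s.c3 = 16384
  rad : s.r0 = s.r1 + s.r2 + s.r3
  le1 : s.r1 ≤ s.c1
  le2 : s.r2 ≤ s.c2
  le3 : s.r3 ≤ s.c3
  P : (s.P : ℝ) = 32 * sqR s
  N : (s.N : ℝ) = 2147483648 + s.V
  Y2 : (s.Y2 : ℝ) = (268435456 - sqR s) ^ 2
  Y3 : (s.Y3 : ℝ) = (268435456 - sqR s) ^ 3
  Qr : (s.Qr : ℝ) = (s.r0 : ℝ) ^ 2 + (s.r1 : ℝ) ^ 2 + (s.r2 : ℝ) ^ 2 + (s.r3 : ℝ) ^ 2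
  D : (s.D : ℝ) = 2 * (|(s.c1 : ℝ) - s.c0| * s.r1 + |(s.c2 : ℝ) - s.c0| * s.r2 + |(s.c3 : ℝ) - s.c0| * s.r3) + s.Qr
  E : (s.E : ℝ) = (s.Y2 : ℝ) * s.Qr + 201326592 * (s.D : ℝ) ^ 2
  W : (s.W : ℝ) = (s.Y2 : ℝ) * s.D + 201326592 * (s.D : ℝ) ^ 2
  H : (s.H : ℝ) = |64 * (s.c1 : ℝ) + s.S0 - (64 * (s.c0 : ℝ) + s.S1)| * s.r1
      + |64 * (s.c2 : ℝ) + s.S0 - (64 * (s.c0 : ℝ) + s.S2)| * s.r2
      + |64 * (s.c3 : ℝ) + s.S0 - (64 * (s.c0 : ℝ) + s.S3)| * s.r3 + 32 * s.Qr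
  l0 : phi (((Nat.sub s.c0 s.r0 : ℕ) : ℝ) / 4096) ≤ (s.pl0 : ℝ) / 2 ^ 30
  u0 : phi (((s.c0 : ℝ) + s.r0) / 4096) ≤ (s.pu0 : ℝ) / 2 ^ 30
  l1 : phi (((Nat.sub s.c1 s.r1 : ℕ) : ℝ) / 4096) ≤ (s.pl1 : ℝ) / 2 ^ 30
  u1 : phi (((s.c1 : ℝ) + s.r1) / 4096) ≤ (s.pu1 : ℝ) / 2 ^ 30
  l2 : phi (((Nat.sub s.c2 s.r2 : ℕ) : ℝ) / 4096) ≤ (s.pl2 : ℝ) / 2 ^ 30
  u2 : phi (((s.c2 : ℝ) + s.r2) / 4096) ≤ (s.pu2 : ℝ) / 2 ^ 30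
  l3 : phi (((Nat.sub s.c3 s.r3 : ℕ) : ℝ) / 4096) ≤ (s.pl3 : ℝ) / 2 ^ 30
  u3 : phi (((s.c3 : ℝ) + s.r3) / 4096) ≤ (s.pu3 : ℝ) / 2 ^ 30
  V : (s.V : ℝ) = (lineC s.c0 s.r0 s.pl0 s.pu0 s.S0 : ℝ) + (lineC s.c1 s.r1 s.pl1 s.pu1 s.S1 : ℝ)
      + (lineC s.c2 s.r2 s.pl2 s.pu2 s.S2 : ℝ) + (lineC s.c3 s.r3 s.pl3 s.pu3 s.S3 : ℝ)

theorem cast_sqS (a b c d : ℕ) : ((sqS a b c d : ℕ) : ℝ) = (a : ℝ) ^ 2 + (b : ℝ) ^ 2 + (c : ℝ) ^ 2 + (d : ℝ) ^ 2 := by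
  unfold sqS
  simp only [cast_nadd, cast_nmul]
  ring

theorem sqS_le {a b c d : ℕ} (h : a + b + c + d = 16384) : sqS a b c d ≤ 268435456 := by
  have h1 : sqS a b c d = a * a + b * b + (c * c + d * d) := rfl
  rw [h1]
  have h2 : (a + b + c + d) * (a + b + c + d) = 268435456 := by rw [h]
  nlinarith [Nat.zero_le (a * b), Nat.zero_le (a * c), Nat.zero_le (a * d), Nat.zero_le (b * c),
    Nat.zero_le (b * d), Nat.zero_le (c * d)]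

theorem mkE_cast (Y2 Q D : ℕ) : ((Nat.add (Nat.mul Y2 Q) (Nat.mul 201326592 (Nat.mul D D)) : ℕ) : ℝ)
    = (Y2 : ℝ) * Q + 201326592 * (D : ℝ) ^ 2 := by
  simp only [cast_nadd, cast_nmul]
  push_cast
  ring

theorem mkE_cast2 (Y2 D : ℕ) : ((Nat.add (Nat.mul Y2 D) (Nat.mul 201326592 (Nat.mul D D)) : ℕ) : ℝ)
    = (Y2 : ℝ) * D + 201326592 * (D : ℝ) ^ 2 := mkE_cast Y2 D D

theorem mkN_cast (V : ℕ) : ((Nat.add 2147483648 V : ℕ) : ℝ) = 2147483648 + (V : ℝ) := by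
  simp only [cast_nadd]
  push_cast
  ring

theorem mkD_cast (c0 c1 c2 c3 r1 r2 r3 Q : ℕ) :
    ((Nat.add (Nat.mul 2 (Nat.add (Nat.add (Nat.mul (absd c1 c0) r1) (Nat.mul (absd c2 c0) r2))
        (Nat.mul (absd c3 c0) r3))) Q : ℕ) : ℝ)
      = 2 * (|(c1 : ℝ) - c0| * r1 + |(c2 : ℝ) - c0| * r2 + |(c3 : ℝ) - c0| * r3) + Q := by
  simp only [cast_nadd, cast_nmul, cast_absd]
  push_cast
  ring

theorem mkH_cast (c0 c1 c2 c3 r1 r2 r3 S0 S1 S2 S3 Q : ℕ) :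
    ((Nat.add (Nat.add (Nat.add
      (Nat.mul (absd (Nat.add (Nat.mul 64 c1) S0) (Nat.add (Nat.mul 64 c0) S1)) r1)
      (Nat.mul (absd (Nat.add (Nat.mul 64 c2) S0) (Nat.add (Nat.mul 64 c0) S2)) r2))
      (Nat.mul (absd (Nat.add (Nat.mul 64 c3) S0) (Nat.add (Nat.mul 64 c0) S3)) r3))
      (Nat.mul 32 Q) : ℕ) : ℝ)
      = |64 * (c1 : ℝ) + S0 - (64 * (c0 : ℝ) + S1)| * r1
      + |64 * (c2 : ℝ) + S0 - (64 * (c0 : ℝ) + S2)| * r2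
      + |64 * (c3 : ℝ) + S0 - (64 * (c0 : ℝ) + S3)| * r3 + 32 * Q := by
  simp only [cast_nadd, cast_nmul, cast_absd]
  push_cast
  ring

theorem mkV_cast (a b c d : ℕ) : ((Nat.add (Nat.add a b) (Nat.add c d) : ℕ) : ℝ) = (a : ℝ) + b + c + d := by
  simp only [cast_nadd]
  ring

theorem IsSt.facts {s : St} (h : IsSt s) : SideFacts s := by
  obtain ⟨c0, c1, c2, c3, r0, r1, r2, r3, pl0, pu0, pl1, pu1, pl2, pu2, pl3, pu3, rfl, hb⟩ := h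
  have hY := sqS_le hb.sum
  have hYc : ((Nat.sub 268435456 (sqS c0 c1 c2 c3) : ℕ) : ℝ)
      = 268435456 - ((c0 : ℝ) ^ 2 + (c1 : ℝ) ^ 2 + (c2 : ℝ) ^ 2 + (c3 : ℝ) ^ 2) := by
    have h10 := (congrArg (fun n : ℕ => (n : ℝ)) (rfl : Nat.sub 268435456 (sqS c0 c1 c2 c3)
      = 268435456 - sqS c0 c1 c2 c3)).trans (Nat.cast_sub hY)
    refine h10.trans ?_
    rw [cast_sqS]
    norm_num
  exact
  { sum := hb.sum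
    rad := hb.rad
    le1 := hb.le1
    le2 := hb.le2
    le3 := hb.le3
    P := by
      show ((Nat.mul 32 (sqS c0 c1 c2 c3) : ℕ) : ℝ) = 32 * _
      rw [cast_nmul, cast_sqS]
      simp [sqR, mkSt, mkSt1, mkSt2]
    N := mkN_cast _
    Y2 := by
      show ((Nat.mul (Nat.sub 268435456 (sqS c0 c1 c2 c3)) (Nat.sub 268435456 (sqS c0 c1 c2 c3)) : ℕ) : ℝ) = _
      rw [cast_nmul, hYc]
      simp only [sqR, mkSt, mkSt1, mkSt2]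
      ring
    Y3 := by
      show ((Nat.mul (Nat.mul (Nat.sub 268435456 (sqS c0 c1 c2 c3)) (Nat.sub 268435456 (sqS c0 c1 c2 c3))) (Nat.sub 268435456 (sqS c0 c1 c2 c3)) : ℕ) : ℝ) = _
      rw [cast_nmul, cast_nmul, hYc]
      simp only [sqR, mkSt, mkSt1, mkSt2]
      ring
    Qr := by
      show ((sqS r0 r1 r2 r3 : ℕ) : ℝ) = _
      rw [cast_sqS]
      rfl
    D := mkD_cast _ _ _ _ _ _ _ _
    E := mkE_cast _ _ _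
    W := mkE_cast2 _ _
    H := mkH_cast _ _ _ _ _ _ _ _ _ _ _ _
    l0 := hb.l0
    u0 := hb.u0
    l1 := hb.l1
    u1 := hb.u1
    l2 := hb.l2
    u2 := hb.u2
    l3 := hb.l3
    u3 := hb.u3
    V := mkV_cast _ _ _ _ }

/-- The entries of a box in the coordinates around the centre. -/
theorem box_diffs {s : St} (hs : SideFacts s) {a : Fin 4 → ℝ} (ha : Dom a)
    (hb : InBox s.c1 s.c2 s.c3 s.r1 s.r2 s.r3 a) :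
    a 0 - (s.c0 : ℝ) / 4096 = -((a 1 - (s.c1 : ℝ) / 4096) + (a 2 - (s.c2 : ℝ) / 4096) + (a 3 - (s.c3 : ℝ) / 4096))
      ∧ |a 1 - (s.c1 : ℝ) / 4096| ≤ (s.r1 : ℝ) / 4096
      ∧ |a 2 - (s.c2 : ℝ) / 4096| ≤ (s.r2 : ℝ) / 4096
      ∧ |a 3 - (s.c3 : ℝ) / 4096| ≤ (s.r3 : ℝ) / 4096 := by
  obtain ⟨h1, h2, h3, h4, h5, h6⟩ := hb
  have hsum : (s.c0 : ℝ) + s.c1 + s.c2 + s.c3 = 16384 := by
    have := hs.sum
    exact_mod_cast this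
  have hm := ha.2
  unfold mass at hm
  rw [Fin.sum_univ_four] at hm
  refine ⟨by linarith, ?_, ?_, ?_⟩
  · rw [abs_le]; constructor <;> [(rw [sub_div] at h1); (rw [add_div] at h2)] <;> linarith
  · rw [abs_le]; constructor <;> [(rw [sub_div] at h3); (rw [add_div] at h4)] <;> linarith
  · rw [abs_le]; constructor <;> [(rw [sub_div] at h5); (rw [add_div] at h6)] <;> linarith

theorem cast_sub_div_le {c r : ℕ} {z : ℝ} (hz0 : 0 ≤ z) (h : ((c : ℝ) - r) / 4096 ≤ z) :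
    ((Nat.sub c r : ℕ) : ℝ) / 4096 ≤ z := by
  rcases le_total r c with hrc | hrc
  · rw [cast_sub_of_le hrc]
    exact h
  · have e : Nat.sub c r = 0 := Nat.sub_eq_zero_of_le hrc
    rw [e]
    simpa using hz0

/-- The entropy of a vector in a box is below a linear function. -/
theorem ent_line {s : St} (hs : SideFacts s) {a : Fin 4 → ℝ} (ha : Dom a)
    (hb : InBox s.c1 s.c2 s.c3 s.r1 s.r2 s.r3 a) :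
    eTerm a ≤ (s.V : ℝ) / 2 ^ 32 + ((s.S1 : ℝ) - s.S0) / 2 ^ 20 * (a 1 - (s.c1 : ℝ) / 4096)
      + ((s.S2 : ℝ) - s.S0) / 2 ^ 20 * (a 2 - (s.c2 : ℝ) / 4096)
      + ((s.S3 : ℝ) - s.S0) / 2 ^ 20 * (a 3 - (s.c3 : ℝ) / 4096) := by
  obtain ⟨h0, hd1, hd2, hd3⟩ := box_diffs hs ha hb
  have hp := ha.1
  have hm := ha.2
  unfold mass at hm
  rw [Fin.sum_univ_four] at hm
  have hr : (s.r0 : ℝ) = s.r1 + s.r2 + s.r3 := by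
    have := hs.rad
    exact_mod_cast this
  obtain ⟨h1, h2, h3, h4, h5, h6⟩ := hb
  have a1 := abs_le.mp hd1
  have a2 := abs_le.mp hd2
  have a3 := abs_le.mp hd3
  have hu0 : a 0 ≤ ((s.c0 : ℝ) + s.r0) / 4096 := by
    rw [add_div, hr]
    linarith [a1.1, a2.1, a3.1]
  have hl0 : ((s.c0 : ℝ) - s.r0) / 4096 ≤ a 0 := by
    rw [sub_div, hr]
    linarith [a1.2, a2.2, a3.2]
  have l0 := lineV_bound (S := s.S0) (cast_sub_div_le (hp 0).le hl0) hu0 hs.l0 hs.u0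
  have l1 := lineV_bound (S := s.S1) (cast_sub_div_le (hp 1).le h1) h2 hs.l1 hs.u1
  have l2 := lineV_bound (S := s.S2) (cast_sub_div_le (hp 2).le h3) h4 hs.l2 hs.u2
  have l3 := lineV_bound (S := s.S3) (cast_sub_div_le (hp 3).le h5) h6 hs.l3 hs.u3
  have e : eTerm a = (phi (a 0) + phi (a 1) + phi (a 2) + phi (a 3)) / 4 := by
    unfold eTerm phi
    rw [Fin.sum_univ_four]
    linarith
  rw [e, hs.V] at *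
  obtain ⟨L0, hL0⟩ : ∃ x : ℝ, x = (lineC s.c0 s.r0 s.pl0 s.pu0 s.S0 : ℝ) := ⟨_, rfl⟩
  obtain ⟨L1, hL1⟩ : ∃ x : ℝ, x = (lineC s.c1 s.r1 s.pl1 s.pu1 s.S1 : ℝ) := ⟨_, rfl⟩
  obtain ⟨L2, hL2⟩ : ∃ x : ℝ, x = (lineC s.c2 s.r2 s.pl2 s.pu2 s.S2 : ℝ) := ⟨_, rfl⟩
  obtain ⟨L3, hL3⟩ : ∃ x : ℝ, x = (lineC s.c3 s.r3 s.pl3 s.pu3 s.S3 : ℝ) := ⟨_, rfl⟩
  rw [← hL0] at l0 ⊢
  rw [← hL1] at l1 ⊢
  rw [← hL2] at l2 ⊢
  rw [← hL3] at l3 ⊢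
  have h00 : a 0 = (s.c0 : ℝ) / 4096 - ((a 1 - (s.c1 : ℝ) / 4096) + (a 2 - (s.c2 : ℝ) / 4096) + (a 3 - (s.c3 : ℝ) / 4096)) := by
    linarith
  have key : (((L0 + ((s.S0 : ℝ) - 4194304) * (4096 * a 0 - s.c0)) / 2 ^ 30
      + (L1 + ((s.S1 : ℝ) - 4194304) * (4096 * a 1 - s.c1)) / 2 ^ 30
      + (L2 + ((s.S2 : ℝ) - 4194304) * (4096 * a 2 - s.c2)) / 2 ^ 30
      + (L3 + ((s.S3 : ℝ) - 4194304) * (4096 * a 3 - s.c3)) / 2 ^ 30) / 4)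
      = (L0 + L1 + L2 + L3) / 2 ^ 32 + ((s.S1 : ℝ) - s.S0) / 2 ^ 20 * (a 1 - (s.c1 : ℝ) / 4096)
        + ((s.S2 : ℝ) - s.S0) / 2 ^ 20 * (a 2 - (s.c2 : ℝ) / 4096)
        + ((s.S3 : ℝ) - s.S0) / 2 ^ 20 * (a 3 - (s.c3 : ℝ) / 4096) := by
    rw [h00]
    ring
  rw [← key]
  linarith

/-- The quadratic part of the second moment on a box. -/
noncomputable def qOf (s : St) (a : Fin 4 → ℝ) : ℝ :=
  ((a 0 - (s.c0 : ℝ) / 4096) ^ 2 + (a 1 - (s.c1 : ℝ) / 4096) ^ 2 + (a 2 - (s.c2 : ℝ) / 4096) ^ 2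
    + (a 3 - (s.c3 : ℝ) / 4096) ^ 2) / 4

theorem xx_expand {s : St} (hs : SideFacts s) {a : Fin 4 → ℝ} (ha : Dom a)
    (hb : InBox s.c1 s.c2 s.c3 s.r1 s.r2 s.r3 a) :
    xx a = (sqR s / 2 ^ 26 - 1) + ((s.c1 : ℝ) - s.c0) / 2 ^ 13 * (a 1 - (s.c1 : ℝ) / 4096)
      + ((s.c2 : ℝ) - s.c0) / 2 ^ 13 * (a 2 - (s.c2 : ℝ) / 4096)
      + ((s.c3 : ℝ) - s.c0) / 2 ^ 13 * (a 3 - (s.c3 : ℝ) / 4096) + qOf s a := by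
  obtain ⟨h0, -, -, -⟩ := box_diffs hs ha hb
  have hsum : (s.c0 : ℝ) + s.c1 + s.c2 + s.c3 = 16384 := by
    have := hs.sum
    exact_mod_cast this
  have hc0 : (s.c0 : ℝ) = 16384 - s.c1 - s.c2 - s.c3 := by linarith
  have h00 : a 0 = (s.c0 : ℝ) / 4096 - ((a 1 - (s.c1 : ℝ) / 4096) + (a 2 - (s.c2 : ℝ) / 4096) + (a 3 - (s.c3 : ℝ) / 4096)) := by
    linarith
  unfold xx mom qOf sqR
  rw [Fin.sum_univ_four, h00, hc0]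
  ring

theorem q_bounds {s : St} (hs : SideFacts s) {a : Fin 4 → ℝ} (ha : Dom a)
    (hb : InBox s.c1 s.c2 s.c3 s.r1 s.r2 s.r3 a) :
    0 ≤ qOf s a ∧ qOf s a ≤ (s.Qr : ℝ) / 2 ^ 26 := by
  obtain ⟨h0, hd1, hd2, hd3⟩ := box_diffs hs ha hb
  have hr : (s.r0 : ℝ) = s.r1 + s.r2 + s.r3 := by
    have := hs.rad
    exact_mod_cast this
  constructor
  · unfold qOf
    positivity
  · unfold qOf
    rw [hs.Qr, h0]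
    have hd0 : |-((a 1 - (s.c1 : ℝ) / 4096) + (a 2 - (s.c2 : ℝ) / 4096) + (a 3 - (s.c3 : ℝ) / 4096))| ≤ (s.r0 : ℝ) / 4096 := by
      rw [abs_neg, hr, add_div, add_div]
      refine le_trans (abs_add_le _ _) (add_le_add (le_trans (abs_add_le _ _) (add_le_add hd1 hd2)) hd3)
    have s0 := sq_le_sq' (abs_le.mp hd0).1 (abs_le.mp hd0).2
    have s1 := sq_le_sq' (abs_le.mp hd1).1 (abs_le.mp hd1).2
    have s2 := sq_le_sq' (abs_le.mp hd2).1 (abs_le.mp hd2).2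
    have s3 := sq_le_sq' (abs_le.mp hd3).1 (abs_le.mp hd3).2
    have e : ((s.r0 : ℝ) ^ 2 + (s.r1 : ℝ) ^ 2 + (s.r2 : ℝ) ^ 2 + (s.r3 : ℝ) ^ 2) / 2 ^ 26
        = (((s.r0 : ℝ) / 4096) ^ 2 + ((s.r1 : ℝ) / 4096) ^ 2 + ((s.r2 : ℝ) / 4096) ^ 2 + ((s.r3 : ℝ) / 4096) ^ 2) / 4 := by
      ring
    rw [e]
    linarith

theorem sqR_bounds {s : St} (hs : SideFacts s) : 67108864 ≤ sqR s ∧ sqR s ≤ 268435456 := by
  have hsum : (s.c0 : ℝ) + s.c1 + s.c2 + s.c3 = 16384 := by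
    have := hs.sum
    exact_mod_cast this
  have h0 : (0 : ℝ) ≤ s.c0 := Nat.cast_nonneg _
  have h1 : (0 : ℝ) ≤ s.c1 := Nat.cast_nonneg _
  have h2 : (0 : ℝ) ≤ s.c2 := Nat.cast_nonneg _
  have h3 : (0 : ℝ) ≤ s.c3 := Nat.cast_nonneg _
  have e : ((s.c0 : ℝ) + s.c1 + s.c2 + s.c3) ^ 2 = 268435456 := by
    rw [hsum]
    norm_num
  unfold sqR
  constructor
  · nlinarith [sq_nonneg ((s.c0 : ℝ) - s.c1), sq_nonneg ((s.c0 : ℝ) - s.c2), sq_nonneg ((s.c0 : ℝ) - s.c3),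
      sq_nonneg ((s.c1 : ℝ) - s.c2), sq_nonneg ((s.c1 : ℝ) - s.c3), sq_nonneg ((s.c2 : ℝ) - s.c3)]
  · nlinarith [mul_nonneg h0 h1, mul_nonneg h0 h2, mul_nonneg h0 h3, mul_nonneg h1 h2, mul_nonneg h1 h3,
      mul_nonneg h2 h3]

theorem xx_range {a : Fin 4 → ℝ} (ha : Dom a) : 0 ≤ xx a ∧ xx a ≤ 3 := by
  have hm := ha.2
  have hp := ha.1
  unfold mass at hm
  rw [Fin.sum_univ_four] at hm
  have h0 := (hp 0).le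
  have h1 := (hp 1).le
  have h2 := (hp 2).le
  have h3 := (hp 3).le
  have hs : a 0 + a 1 + a 2 + a 3 = 4 := by linarith
  have e : (a 0 + a 1 + a 2 + a 3) ^ 2 = 16 := by
    rw [hs]
    norm_num
  unfold xx mom
  rw [Fin.sum_univ_four]
  constructor
  · positivity
  · nlinarith [mul_nonneg h0 h1, mul_nonneg h0 h2, mul_nonneg h0 h3, mul_nonneg h1 h2, mul_nonneg h1 h3,
      mul_nonneg h2 h3]

end Vale.Agent.P154.Q4.BB
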