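import Mathlib

/-!
The real inequality behind a leaf of the branch and bound check.
-/

namespace Vale.Agent.P154.Q4.BB

/-- Taylor estimate for the multiplier. -/
theorem w3_taylor {x x0 : ℝ} (h0 : 0 ≤ x) (h3 : x ≤ 3) (h00 : 0 ≤ x0) (h03 : x0 ≤ 3) :
    0 ≤ (1 - x / 3) ^ 3 - (1 - x0 / 3) ^ 3 + (1 - x0 / 3) ^ 2 * (x - x0)
      ∧ (1 - x / 3) ^ 3 - (1 - x0 / 3) ^ 3 + (1 - x0 / 3) ^ 2 * (x - x0) ≤ (x - x0) ^ 2 / 3 := by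
  have e : (1 - x / 3) ^ 3 - (1 - x0 / 3) ^ 3 + (1 - x0 / 3) ^ 2 * (x - x0)
      = (x - x0) ^ 2 * ((9 - 2 * x0 - x) / 27) := by ring
  rw [e]
  have h1 : 0 ≤ (9 - 2 * x0 - x) / 27 := by linarith
  have h2 : (9 - 2 * x0 - x) / 27 ≤ 1 / 3 := by linarith
  constructor
  · positivity
  · have := mul_le_mul_of_nonneg_left h2 (sq_nonneg (x - x0))
    linarith

theorem mul_ge_neg {g d p : ℝ} (h : |d| ≤ p) : -(|g| * p) ≤ g * d := by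
  have h1 : |g * d| ≤ |g| * p := by
    rw [abs_mul]
    exact mul_le_mul_of_nonneg_left h (abs_nonneg g)
  have := neg_abs_le (g * d)
  linarith

theorem mul2_ge_neg {g d e p o : ℝ} (h : |d| ≤ p) (h2 : |e| ≤ o) : -(|g| * p * o) ≤ g * d * e := by
  have h0 : 0 ≤ p := le_trans (abs_nonneg d) h
  have h1 : |d * e| ≤ p * o := by
    rw [abs_mul]
    exact mul_le_mul h h2 (abs_nonneg e) h0
  have h3 := mul_ge_neg (g := g) h1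
  have e1 : g * d * e = g * (d * e) := by ring
  have e2 : |g| * p * o = |g| * (p * o) := by ring
  rw [e1, e2]
  exact h3

theorem le_of_abs_mul_le {g e E : ℝ} (h : |e| ≤ E) : g * e ≤ |g| * E := by
  have h1 : |g * e| ≤ |g| * E := by
    rw [abs_mul]
    exact mul_le_mul_of_nonneg_left h (abs_nonneg g)
  exact le_trans (le_abs_self _) h1

theorem prod_le_of_abs {x y X Y : ℝ} (h1 : |x| ≤ X) (h2 : |y| ≤ Y) : x * y ≤ X * Y := by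
  have h3 : |x * y| ≤ X * Y := by
    rw [abs_mul]
    exact mul_le_mul h1 h2 (abs_nonneg _) (le_trans (abs_nonneg _) h1)
  exact le_trans (le_abs_self _) h3

/-- The gradient coefficient at a leaf. -/
def gkf (b s k w0 po wp : ℝ) : ℝ := b - 6 * s - w0 * (3 * k - 6 * s) + po * wp * k

/-- The estimates of the small terms for one side. -/
theorem side_small {x x0 q qb d1 d2 d3 p1 p2 p3 k1 k2 k3 s1 s2 s3 w0 wp w Dl Hp : ℝ}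
    (hd1 : |d1| ≤ p1) (hd2 : |d2| ≤ p2) (hd3 : |d3| ≤ p3)
    (hx : x = x0 + k1 * d1 + k2 * d2 + k3 * d3 + q)
    (hq : 0 ≤ q) (hq2 : q ≤ qb)
    (h00 : 0 ≤ x0) (h03 : x0 ≤ 3) (hx0 : 0 ≤ x) (hx3 : x ≤ 3)
    (hw0 : w0 = (1 - x0 / 3) ^ 3) (hwp : wp = (1 - x0 / 3) ^ 2) (hw : w = (1 - x / 3) ^ 3)
    (hDl : Dl = |k1| * p1 + |k2| * p2 + |k3| * p3 + qb)
    (hHp : Hp = |3 * k1 - 6 * s1| * p1 + |3 * k2 - 6 * s2| * p2 + |3 * k3 - 6 * s3| * p3 + 3 * qb) :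
    |w - w0 + wp * (k1 * d1 + k2 * d2 + k3 * d3)| ≤ wp * qb + Dl ^ 2 / 3
      ∧ |w - w0| ≤ wp * Dl + Dl ^ 2 / 3
      ∧ |(3 * k1 - 6 * s1) * d1 + (3 * k2 - 6 * s2) * d2 + (3 * k3 - 6 * s3) * d3 + 3 * q| ≤ Hp
      ∧ 0 ≤ w0 ∧ 0 ≤ 1 - w ∧ 0 ≤ wp := by
  obtain ⟨l, hl⟩ : ∃ l, l = k1 * d1 + k2 * d2 + k3 * d3 := ⟨_, rfl⟩
  rw [← hl]
  have hx' : x - x0 = l + q := by rw [hx, hl]; ring
  have hwp0 : 0 ≤ wp := by rw [hwp]; positivity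
  have hw00 : 0 ≤ w0 := by
    rw [hw0]
    have : 0 ≤ 1 - x0 / 3 := by linarith
    positivity
  have hlabs : |l| ≤ |k1| * p1 + |k2| * p2 + |k3| * p3 := by
    rw [hl]
    refine le_trans (abs_add_le _ _) ?_
    refine add_le_add (le_trans (abs_add_le _ _) (add_le_add ?_ ?_)) ?_
    · rw [abs_mul]; exact mul_le_mul_of_nonneg_left hd1 (abs_nonneg _)
    · rw [abs_mul]; exact mul_le_mul_of_nonneg_left hd2 (abs_nonneg _)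
    · rw [abs_mul]; exact mul_le_mul_of_nonneg_left hd3 (abs_nonneg _)
  have hD : |x - x0| ≤ Dl := by
    rw [hx', hDl]
    refine le_trans (abs_add_le _ _) ?_
    rw [abs_of_nonneg hq]
    linarith
  have hD0 : 0 ≤ Dl := le_trans (abs_nonneg _) hD
  have hsq : (x - x0) ^ 2 ≤ Dl ^ 2 := by
    rw [← sq_abs (x - x0)]
    exact pow_le_pow_left₀ (abs_nonneg _) hD 2
  obtain ⟨t1, t2⟩ := w3_taylor hx0 hx3 h00 h03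
  rw [← hw, ← hw0, ← hwp] at t1 t2
  have he2 : w - w0 + wp * l = (w - w0 + wp * (x - x0)) - wp * q := by rw [hx']; ring
  have hpq : wp * q ≤ wp * qb := mul_le_mul_of_nonneg_left hq2 hwp0
  have hpq0 : 0 ≤ wp * q := mul_nonneg hwp0 hq
  have hpx : |wp * (x - x0)| ≤ wp * Dl := by
    rw [abs_mul, abs_of_nonneg hwp0]
    exact mul_le_mul_of_nonneg_left hD hwp0
  have h1 := abs_le.mp hpx
  refine ⟨?_, ?_, ?_, hw00, ?_, hwp0⟩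
  · rw [abs_le, he2]
    constructor <;> linarith
  · rw [abs_le]
    constructor <;> linarith [h1.1, h1.2]
  · rw [hHp]
    refine le_trans (abs_add_le _ _) (add_le_add ?_ ?_)
    · refine le_trans (abs_add_le _ _) (add_le_add (le_trans (abs_add_le _ _) (add_le_add ?_ ?_)) ?_)
      · rw [abs_mul]; exact mul_le_mul_of_nonneg_left hd1 (abs_nonneg _)
      · rw [abs_mul]; exact mul_le_mul_of_nonneg_left hd2 (abs_nonneg _)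
      · rw [abs_mul]; exact mul_le_mul_of_nonneg_left hd3 (abs_nonneg _)
    · rw [abs_of_nonneg (by linarith)]
      linarith
  · have h5 : 0 ≤ 1 - x / 3 := by linarith
    have h6 : 1 - x / 3 ≤ 1 := by linarith
    have := pow_le_one₀ (n := 3) h5 h6
    rw [hw]
    linarith

/-- The expansion at a leaf. -/
theorem leaf_id (Gr xa xb x0a x0b E0a E0b qa qb d1 d2 d3 e1 e2 e3
    sa1 sa2 sa3 sb1 sb2 sb3 ka1 ka2 ka3 kb1 kb2 kb3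
    B0 ba1 ba2 ba3 bb1 bb2 bb3 M11 M12 M13 M21 M22 M23 M31 M32 M33
    w0a w0b wpa wpb pa0 pb0 wa wb : ℝ)
    (hxa : xa = x0a + ka1 * d1 + ka2 * d2 + ka3 * d3 + qa)
    (hxb : xb = x0b + kb1 * e1 + kb2 * e2 + kb3 * e3 + qb)
    (hpa0 : pa0 = 3 * x0a - 6 * E0a) (hpb0 : pb0 = 3 * x0b - 6 * E0b) :
    Gr - 6 * (E0a + (sa1 * d1 + sa2 * d2 + sa3 * d3)) - 6 * (E0b + (sb1 * e1 + sb2 * e2 + sb3 * e3))
        - wb * (3 * xa - 6 * (E0a + (sa1 * d1 + sa2 * d2 + sa3 * d3)))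
        - wa * (3 * xb - 6 * (E0b + (sb1 * e1 + sb2 * e2 + sb3 * e3)))
      = (Gr - (B0 + ba1 * d1 + ba2 * d2 + ba3 * d3 + bb1 * e1 + bb2 * e2 + bb3 * e3
        + M11 * d1 * e1 + M12 * d1 * e2 + M13 * d1 * e3
        + M21 * d2 * e1 + M22 * d2 * e2 + M23 * d2 * e3
        + M31 * d3 * e1 + M32 * d3 * e2 + M33 * d3 * e3))
        + (B0 - 6 * E0a - 6 * E0b - w0b * pa0 - w0a * pb0)
        + (gkf ba1 sa1 ka1 w0b pb0 wpa * d1 + gkf ba2 sa2 ka2 w0b pb0 wpa * d2 + gkf ba3 sa3 ka3 w0b pb0 wpa * d3)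
        + (gkf bb1 sb1 kb1 w0a pa0 wpb * e1 + gkf bb2 sb2 kb2 w0a pa0 wpb * e2 + gkf bb3 sb3 kb3 w0a pa0 wpb * e3)
        + (M11 * d1 * e1 + M12 * d1 * e2 + M13 * d1 * e3
        + M21 * d2 * e1 + M22 * d2 * e2 + M23 * d2 * e3
        + M31 * d3 * e1 + M32 * d3 * e2 + M33 * d3 * e3)
        - 3 * w0b * qa - 3 * w0a * qb
        - pb0 * (wa - w0a + wpa * (ka1 * d1 + ka2 * d2 + ka3 * d3))
        - pa0 * (wb - w0b + wpb * (kb1 * e1 + kb2 * e2 + kb3 * e3))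
        - (wb - w0b) * ((3 * ka1 - 6 * sa1) * d1 + (3 * ka2 - 6 * sa2) * d2 + (3 * ka3 - 6 * sa3) * d3 + 3 * qa)
        - (wa - w0a) * ((3 * kb1 - 6 * sb1) * e1 + (3 * kb2 - 6 * sb2) * e2 + (3 * kb3 - 6 * sb3) * e3 + 3 * qb) := by
  subst hxa hxb hpa0 hpb0
  unfold gkf
  ring

/-- The final linear step at a leaf. -/
theorem leaf_lin {V B R0 g1 g2 g3 g4 g5 g6 G1 G2 G3 G4 G5 G6 m1 m2 m3 m4 m5 m6 m7 m8 m9 A1 A2 A3 A4 A5 A6 A7 A8 A9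
      q1 q2 Q1 Q2 r1 r2 R1 R2 t1 t2 T1 T2 : ℝ}
    (hV : V = (-B) + R0 + (g1 + g2 + g3) + (g4 + g5 + g6) + (m1 + m2 + m3 + m4 + m5 + m6 + m7 + m8 + m9)
      - q1 - q2 - r1 - r2 - t1 - t2)
    (hB : B ≤ 0)
    (h1 : -G1 ≤ g1) (h2 : -G2 ≤ g2) (h3 : -G3 ≤ g3) (h4 : -G4 ≤ g4) (h5 : -G5 ≤ g5) (h6 : -G6 ≤ g6)
    (a1 : -A1 ≤ m1) (a2 : -A2 ≤ m2) (a3 : -A3 ≤ m3) (a4 : -A4 ≤ m4) (a5 : -A5 ≤ m5) (a6 : -A6 ≤ m6)
    (a7 : -A7 ≤ m7) (a8 : -A8 ≤ m8) (a9 : -A9 ≤ m9)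
    (c1 : q1 ≤ Q1) (c2 : q2 ≤ Q2) (c3 : r1 ≤ R1) (c4 : r2 ≤ R2) (c5 : t1 ≤ T1) (c6 : t2 ≤ T2)
    (hfin : 0 ≤ R0 - (G1 + G2 + G3) - (G4 + G5 + G6) - (A1 + A2 + A3 + A4 + A5 + A6 + A7 + A8 + A9)
      - Q1 - Q2 - R1 - R2 - T1 - T2) : 0 ≤ V := by
  rw [hV]
  linarith

/-- The real inequality behind a leaf. -/
theorem leaf_core
    {Gr Ea Eb xa xb x0a x0b E0a E0b qa qb qba qbb : ℝ}
    {d1 d2 d3 p1 p2 p3 e1 e2 e3 o1 o2 o3 : ℝ}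
    {sa1 sa2 sa3 sb1 sb2 sb3 ka1 ka2 ka3 kb1 kb2 kb3 : ℝ}
    {B0 ba1 ba2 ba3 bb1 bb2 bb3 M11 M12 M13 M21 M22 M23 M31 M32 M33 : ℝ}
    (hd1 : |d1| ≤ p1) (hd2 : |d2| ≤ p2) (hd3 : |d3| ≤ p3)
    (he1 : |e1| ≤ o1) (he2 : |e2| ≤ o2) (he3 : |e3| ≤ o3)
    (hEa : Ea ≤ E0a + sa1 * d1 + sa2 * d2 + sa3 * d3)
    (hEb : Eb ≤ E0b + sb1 * e1 + sb2 * e2 + sb3 * e3)
    (hxa : xa = x0a + ka1 * d1 + ka2 * d2 + ka3 * d3 + qa)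
    (hxb : xb = x0b + kb1 * e1 + kb2 * e2 + kb3 * e3 + qb)
    (hqa : 0 ≤ qa) (hqa2 : qa ≤ qba) (hqb : 0 ≤ qb) (hqb2 : qb ≤ qbb)
    (h0a : 0 ≤ x0a) (h3a : x0a ≤ 3) (h0b : 0 ≤ x0b) (h3b : x0b ≤ 3)
    (hxa0 : 0 ≤ xa) (hxa3 : xa ≤ 3) (hxb0 : 0 ≤ xb) (hxb3 : xb ≤ 3)
    (hG : B0 + ba1 * d1 + ba2 * d2 + ba3 * d3 + bb1 * e1 + bb2 * e2 + bb3 * e3
        + M11 * d1 * e1 + M12 * d1 * e2 + M13 * d1 * e3
        + M21 * d2 * e1 + M22 * d2 * e2 + M23 * d2 * e3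
        + M31 * d3 * e1 + M32 * d3 * e2 + M33 * d3 * e3 ≤ Gr)
    {w0a w0b wpa wpb pa0 pb0 Dla Dlb Hpa Hpb : ℝ}
    (hw0a : w0a = (1 - x0a / 3) ^ 3) (hw0b : w0b = (1 - x0b / 3) ^ 3)
    (hwpa : wpa = (1 - x0a / 3) ^ 2) (hwpb : wpb = (1 - x0b / 3) ^ 2)
    (hpa0 : pa0 = 3 * x0a - 6 * E0a) (hpb0 : pb0 = 3 * x0b - 6 * E0b)
    (hDla : Dla = |ka1| * p1 + |ka2| * p2 + |ka3| * p3 + qba)
    (hDlb : Dlb = |kb1| * o1 + |kb2| * o2 + |kb3| * o3 + qbb)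
    (hHpa : Hpa = |3 * ka1 - 6 * sa1| * p1 + |3 * ka2 - 6 * sa2| * p2 + |3 * ka3 - 6 * sa3| * p3 + 3 * qba)
    (hHpb : Hpb = |3 * kb1 - 6 * sb1| * o1 + |3 * kb2 - 6 * sb2| * o2 + |3 * kb3 - 6 * sb3| * o3 + 3 * qbb)
    (hfin : 0 ≤ (B0 - 6 * E0a - 6 * E0b - w0b * pa0 - w0a * pb0)
        - (|gkf ba1 sa1 ka1 w0b pb0 wpa| * p1 + |gkf ba2 sa2 ka2 w0b pb0 wpa| * p2
            + |gkf ba3 sa3 ka3 w0b pb0 wpa| * p3)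
        - (|gkf bb1 sb1 kb1 w0a pa0 wpb| * o1 + |gkf bb2 sb2 kb2 w0a pa0 wpb| * o2
            + |gkf bb3 sb3 kb3 w0a pa0 wpb| * o3)
        - (|M11| * p1 * o1 + |M12| * p1 * o2 + |M13| * p1 * o3
            + |M21| * p2 * o1 + |M22| * p2 * o2 + |M23| * p2 * o3
            + |M31| * p3 * o1 + |M32| * p3 * o2 + |M33| * p3 * o3)
        - 3 * w0b * qba - 3 * w0a * qbb
        - |pb0| * (wpa * qba + Dla ^ 2 / 3) - |pa0| * (wpb * qbb + Dlb ^ 2 / 3)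
        - (wpb * Dlb + Dlb ^ 2 / 3) * Hpa - (wpa * Dla + Dla ^ 2 / 3) * Hpb) :
    0 ≤ Gr - 6 * (Ea + Eb) - (1 - xb / 3) ^ 3 * (3 * xa - 6 * Ea)
      - (1 - xa / 3) ^ 3 * (3 * xb - 6 * Eb) := by
  obtain ⟨wa, hwa⟩ : ∃ w, w = (1 - xa / 3) ^ 3 := ⟨_, rfl⟩
  obtain ⟨wb, hwb⟩ : ∃ w, w = (1 - xb / 3) ^ 3 := ⟨_, rfl⟩
  rw [← hwa, ← hwb]
  obtain ⟨ea, eb2, edp, hw00, h1w, hwp0⟩ := side_small (s1 := sa1) (s2 := sa2) (s3 := sa3) hd1 hd2 hd3 hxa hqa hqa2 h0a h3a hxa0 hxa3 hw0a hwpa hwa hDla hHpa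
  obtain ⟨fa, fb2, fdp, hw00b, h1wb, hwp0b⟩ := side_small (s1 := sb1) (s2 := sb2) (s3 := sb3) he1 he2 he3 hxb hqb hqb2 h0b h3b hxb0 hxb3 hw0b hwpb hwb hDlb hHpb
  have hid := leaf_id Gr xa xb x0a x0b E0a E0b qa qb d1 d2 d3 e1 e2 e3
    sa1 sa2 sa3 sb1 sb2 sb3 ka1 ka2 ka3 kb1 kb2 kb3
    B0 ba1 ba2 ba3 bb1 bb2 bb3 M11 M12 M13 M21 M22 M23 M31 M32 M33
    w0a w0b wpa wpb pa0 pb0 wa wb hxa hxb hpa0 hpb0
  have hq1' : 3 * w0b * qa ≤ 3 * w0b * qba := mul_le_mul_of_nonneg_left hqa2 (by positivity)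
  have hq2' : 3 * w0a * qb ≤ 3 * w0a * qbb := mul_le_mul_of_nonneg_left hqb2 (by positivity)
  have hr1 := le_of_abs_mul_le (g := pb0) ea
  have hr2 := le_of_abs_mul_le (g := pa0) fa
  have ht1 := prod_le_of_abs eb2 fdp
  have ht2 := prod_le_of_abs fb2 edp
  have hbase := leaf_lin (B := B0 + ba1 * d1 + ba2 * d2 + ba3 * d3 + bb1 * e1 + bb2 * e2 + bb3 * e3
        + M11 * d1 * e1 + M12 * d1 * e2 + M13 * d1 * e3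
        + M21 * d2 * e1 + M22 * d2 * e2 + M23 * d2 * e3
        + M31 * d3 * e1 + M32 * d3 * e2 + M33 * d3 * e3 - Gr) (R0 := B0 - 6 * E0a - 6 * E0b - w0b * pa0 - w0a * pb0)
    (V := Gr - 6 * (E0a + (sa1 * d1 + sa2 * d2 + sa3 * d3)) - 6 * (E0b + (sb1 * e1 + sb2 * e2 + sb3 * e3))
        - wb * (3 * xa - 6 * (E0a + (sa1 * d1 + sa2 * d2 + sa3 * d3)))
        - wa * (3 * xb - 6 * (E0b + (sb1 * e1 + sb2 * e2 + sb3 * e3))))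
    (hid.trans (by ring)) (by linarith)
    (mul_ge_neg (g := gkf ba1 sa1 ka1 w0b pb0 wpa) hd1) (mul_ge_neg (g := gkf ba2 sa2 ka2 w0b pb0 wpa) hd2)
    (mul_ge_neg (g := gkf ba3 sa3 ka3 w0b pb0 wpa) hd3) (mul_ge_neg (g := gkf bb1 sb1 kb1 w0a pa0 wpb) he1)
    (mul_ge_neg (g := gkf bb2 sb2 kb2 w0a pa0 wpb) he2) (mul_ge_neg (g := gkf bb3 sb3 kb3 w0a pa0 wpb) he3)
    (mul2_ge_neg (g := M11) hd1 he1) (mul2_ge_neg (g := M12) hd1 he2) (mul2_ge_neg (g := M13) hd1 he3)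
    (mul2_ge_neg (g := M21) hd2 he1) (mul2_ge_neg (g := M22) hd2 he2) (mul2_ge_neg (g := M23) hd2 he3)
    (mul2_ge_neg (g := M31) hd3 he1) (mul2_ge_neg (g := M32) hd3 he2) (mul2_ge_neg (g := M33) hd3 he3)
    hq1' hq2' hr1 hr2 ht2 ht1 (by linarith)
  have hm1 := mul_le_mul_of_nonneg_left hEa h1wb
  have hm2 := mul_le_mul_of_nonneg_left hEb h1w
  have e : Gr - 6 * (Ea + Eb) - wb * (3 * xa - 6 * Ea) - wa * (3 * xb - 6 * Eb)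
      = (Gr - 6 * (E0a + (sa1 * d1 + sa2 * d2 + sa3 * d3)) - 6 * (E0b + (sb1 * e1 + sb2 * e2 + sb3 * e3))
        - wb * (3 * xa - 6 * (E0a + (sa1 * d1 + sa2 * d2 + sa3 * d3)))
        - wa * (3 * xb - 6 * (E0b + (sb1 * e1 + sb2 * e2 + sb3 * e3))))
        + 6 * ((1 - wb) * (E0a + sa1 * d1 + sa2 * d2 + sa3 * d3) - (1 - wb) * Ea)
        + 6 * ((1 - wa) * (E0b + sb1 * e1 + sb2 * e2 + sb3 * e3) - (1 - wa) * Eb) := by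
    ring
  rw [e]
  linarith

end Vale.Agent.P154.Q4.BB
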