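import Vale.Agent.P154.Q4.BB.S3
import Vale.Agent.P154.Q4.BB.S4

/-!
Soundness of the computable check, part five: a leaf.
-/

namespace Vale.Agent.P154.Q4.BB

open Real Vale.Agent.P154.Q4

/-- The closure defect. -/
noncomputable def Fbb (u v : Fin 4 → ℝ) : ℝ :=
  (∑ g : Equiv.Perm (Fin 4), psi (pv u v g)) / 24 - wMul v * psi u - wMul u * psi v

theorem unit_vals {u : Fin 4 → ℝ} (hu : mass u = 1) :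
    wMul u = (1 - xx u / 3) ^ 3 ∧ psi u = 3 * xx u - 6 * eTerm u := by
  constructor
  · unfold wMul
    rw [nrm_eq_self hu, hu]
    ring
  · unfold psi ent yy eTerm
    rw [nrm_eq_self hu, hu]
    simp
    ring

theorem Fbb_eq {u v : Fin 4 → ℝ} (hu : Dom u) (hv : Dom v) :
    Fbb u v = Gr u v - 6 * (eTerm u + eTerm v) - (1 - xx v / 3) ^ 3 * (3 * xx u - 6 * eTerm u)
      - (1 - xx u / 3) ^ 3 * (3 * xx v - 6 * eTerm v) := by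
  obtain ⟨u1, u2⟩ := unit_vals hu.2
  obtain ⟨v1, v2⟩ := unit_vals hv.2
  unfold Fbb Gr
  rw [sum_psi_pv hu.1 hv.1 hu.2 hv.2, u1, u2, v1, v2]
  ring

/-- The expansion of the bilinear form around the centres. -/
theorem bil_expand (C00 C01 C02 C03 C10 C11 C12 C13 C20 C21 C22 C23 C30 C31 C32 C33 neg
    c0 c1 c2 c3 b0 b1 b2 b3 d1 d2 d3 e1 e2 e3 x0 x1 x2 x3 y0 y1 y2 y3 : ℝ)
    (hx0 : x0 = c0 / 4096 - (d1 + d2 + d3)) (hx1 : x1 = c1 / 4096 + d1) (hx2 : x2 = c2 / 4096 + d2)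
    (hx3 : x3 = c3 / 4096 + d3)
    (hy0 : y0 = b0 / 4096 - (e1 + e2 + e3)) (hy1 : y1 = b1 / 4096 + e1) (hy2 : y2 = b2 / 4096 + e2)
    (hy3 : y3 = b3 / 4096 + e3) :
    (C00 * (x0 * y0) + C01 * (x0 * y1) + C02 * (x0 * y2) + C03 * (x0 * y3)
      + C10 * (x1 * y0) + C11 * (x1 * y1) + C12 * (x1 * y2) + C13 * (x1 * y3)
      + C20 * (x2 * y0) + C21 * (x2 * y1) + C22 * (x2 * y2) + C23 * (x2 * y3)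
      + C30 * (x3 * y0) + C31 * (x3 * y1) + C32 * (x3 * y2) + C33 * (x3 * y3) - neg) / 2 ^ 28
    = ((c0 * (C00 * b0 + C01 * b1 + (C02 * b2 + C03 * b3)) + c1 * (C10 * b0 + C11 * b1 + (C12 * b2 + C13 * b3))
        + (c2 * (C20 * b0 + C21 * b1 + (C22 * b2 + C23 * b3)) + c3 * (C30 * b0 + C31 * b1 + (C32 * b2 + C33 * b3)))) / 2 ^ 24 - neg) / 2 ^ 28
      + (((C10 * b0 + C11 * b1 + (C12 * b2 + C13 * b3)) - (C00 * b0 + C01 * b1 + (C02 * b2 + C03 * b3))) / 2 ^ 40) * d1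
      + (((C20 * b0 + C21 * b1 + (C22 * b2 + C23 * b3)) - (C00 * b0 + C01 * b1 + (C02 * b2 + C03 * b3))) / 2 ^ 40) * d2
      + (((C30 * b0 + C31 * b1 + (C32 * b2 + C33 * b3)) - (C00 * b0 + C01 * b1 + (C02 * b2 + C03 * b3))) / 2 ^ 40) * d3
      + (((C01 * c0 + C11 * c1 + (C21 * c2 + C31 * c3)) - (C00 * c0 + C10 * c1 + (C20 * c2 + C30 * c3))) / 2 ^ 40) * e1
      + (((C02 * c0 + C12 * c1 + (C22 * c2 + C32 * c3)) - (C00 * c0 + C10 * c1 + (C20 * c2 + C30 * c3))) / 2 ^ 40) * e2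
      + (((C03 * c0 + C13 * c1 + (C23 * c2 + C33 * c3)) - (C00 * c0 + C10 * c1 + (C20 * c2 + C30 * c3))) / 2 ^ 40) * e3
      + ((C11 + C00 - (C10 + C01)) / 2 ^ 28) * d1 * e1 + ((C12 + C00 - (C10 + C02)) / 2 ^ 28) * d1 * e2
      + ((C13 + C00 - (C10 + C03)) / 2 ^ 28) * d1 * e3
      + ((C21 + C00 - (C20 + C01)) / 2 ^ 28) * d2 * e1 + ((C22 + C00 - (C20 + C02)) / 2 ^ 28) * d2 * e2
      + ((C23 + C00 - (C20 + C03)) / 2 ^ 28) * d2 * e3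
      + ((C31 + C00 - (C30 + C01)) / 2 ^ 28) * d3 * e1 + ((C32 + C00 - (C30 + C02)) / 2 ^ 28) * d3 * e2
      + ((C33 + C00 - (C30 + C03)) / 2 ^ 28) * d3 * e3 := by
  subst hx0 hx1 hx2 hx3 hy0 hy1 hy2 hy3
  ring

/-- A gradient term in fixed point form. -/
theorem gkf_term (Rk R0 Sk S0 ck c0 Y3o Y2s Po No r : ℝ) :
    |gkf ((Rk - R0) / 2 ^ 40) ((Sk - S0) / 2 ^ 20) ((ck - c0) / 2 ^ 13) (Y3o / (27 * 2 ^ 78))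
        (3 * (Po - No) / 2 ^ 31) (Y2s / (9 * 2 ^ 52))| * (r / 4096)
      = |(1297036692682702848 * Rk + 8160249282398746929266688 * S0 + (Y3o * (64 * c0 + Sk) + (6 * (Y2s * Po) * ck + 6 * (Y2s * No) * c0)))
          - (1297036692682702848 * R0 + 8160249282398746929266688 * Sk + (Y3o * (64 * ck + S0) + (6 * (Y2s * Po) * c0 + 6 * (Y2s * No) * ck)))| * r
        / (9 * 2 ^ 109) := by
  have e : gkf ((Rk - R0) / 2 ^ 40) ((Sk - S0) / 2 ^ 20) ((ck - c0) / 2 ^ 13) (Y3o / (27 * 2 ^ 78))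
        (3 * (Po - No) / 2 ^ 31) (Y2s / (9 * 2 ^ 52))
      = ((1297036692682702848 * Rk + 8160249282398746929266688 * S0 + (Y3o * (64 * c0 + Sk) + (6 * (Y2s * Po) * ck + 6 * (Y2s * No) * c0)))
          - (1297036692682702848 * R0 + 8160249282398746929266688 * Sk + (Y3o * (64 * ck + S0) + (6 * (Y2s * Po) * c0 + 6 * (Y2s * No) * ck))))
        / (9 * 2 ^ 97) := by
    unfold gkf
    ring
  rw [e, abs_div, abs_of_pos (by norm_num : (0 : ℝ) < 9 * 2 ^ 97)]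
  ring

/-- The abstract final inequality at a leaf. -/
theorem leaf_fin (ca0 ca1 ca2 ca3 ra1 ra2 ra3 Sa0 Sa1 Sa2 Sa3 Va Pa Na Y2a Y3a Qa Da Ea Wa Ha : ℝ)
    (cb0 cb1 cb2 cb3 rb1 rb2 rb3 Sb0 Sb1 Sb2 Sb3 Vb Pb Nb Y2b Y3b Qb Db Eb Wb Hb : ℝ) (C00 C01 C02 C03 C10 C11 C12 C13 C20 C21 C22 C23 C30 C31 C32 C33 neg Rb0 Rb1 Rb2 Rb3 Ra0 Ra1 Ra2 Ra3 SumCC : ℝ)
    (hEa : Ea = Y2a * Qa + 201326592 * Da ^ 2) (hWa : Wa = Y2a * Da + 201326592 * Da ^ 2)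
    (hEb : Eb = Y2b * Qb + 201326592 * Db ^ 2) (hWb : Wb = Y2b * Db + 201326592 * Db ^ 2)
    (hmain : (21760664753063325144711168 * neg + 8160249282398746929266688 * (Va + Vb) + (Y3b * Pa + Y3a * Pb) + (1297036692682702848 * (ra1 * (|(C11 + C00 - (C10 + C01))| * rb1 + |(C12 + C00 - (C10 + C02))| * rb2 + |(C13 + C00 - (C10 + C03))| * rb3) + ra2 * (|(C21 + C00 - (C20 + C01))| * rb1 + |(C22 + C00 - (C20 + C02))| * rb2 + |(C23 + C00 - (C20 + C03))| * rb3) + ra3 * (|(C31 + C00 - (C30 + C01))| * rb1 + |(C32 + C00 - (C30 + C02))| * rb2 + |(C33 + C00 - (C30 + C03))| * rb3)) + (32 * (Y3b * Qa) + 32 * (Y3a * Qb))) + (3 * (|Pb - Nb| * Ea) + 3 * (|Pa - Na| * Eb) + (3 * (Wb * Ha) + 3 * (Wa * Hb)))) + ((|(1297036692682702848 * Rb1 + 8160249282398746929266688 * Sa0 + (Y3b * (64 * ca0 + Sa1) + (6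 * (Y2a * Pb) * ca1 + 6 * (Y2a * Nb) * ca0))) - (1297036692682702848 * Rb0 + 8160249282398746929266688 * Sa1 + (Y3b * (64 * ca1 + Sa0) + (6 * (Y2a * Pb) * ca0 + 6 * (Y2a * Nb) * ca1)))| * ra1 + |(1297036692682702848 * Rb2 + 8160249282398746929266688 * Sa0 + (Y3b * (64 * ca0 + Sa2) + (6 * (Y2a * Pb) * ca2 + 6 * (Y2a * Nb) * ca0))) - (1297036692682702848 * Rb0 + 8160249282398746929266688 * Sa2 + (Y3b * (64 * ca2 + Sa0) + (6 * (Y2a * Pb) * ca0 + 6 * (Y2a * Nb) * ca2)))| * ra2 + |(1297036692682702848 * Rb3 + 8160249282398746929266688 * Sa0 + (Y3b * (64 * ca0 + Sa3) + (6 * (Y2a * Pb) * ca3 + 6 * (Y2a * Nb) * ca0))) - (1297036692682702848 * Rb0 + 8160249282398746929266688 * Sa3 + (Y3b * (64 * ca3 + Sa0) + (6 * (Y2a * Pb) * ca0 + 6 * (Y2a * Nb) * ca3)))| * ra3) + (|(1297036692682702848 * Ra1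 + 8160249282398746929266688 * Sb0 + (Y3a * (64 * cb0 + Sb1) + (6 * (Y2b * Pa) * cb1 + 6 * (Y2b * Na) * cb0))) - (1297036692682702848 * Ra0 + 8160249282398746929266688 * Sb1 + (Y3a * (64 * cb1 + Sb0) + (6 * (Y2b * Pa) * cb0 + 6 * (Y2b * Na) * cb1)))| * rb1 + |(1297036692682702848 * Ra2 + 8160249282398746929266688 * Sb0 + (Y3a * (64 * cb0 + Sb2) + (6 * (Y2b * Pa) * cb2 + 6 * (Y2b * Na) * cb0))) - (1297036692682702848 * Ra0 + 8160249282398746929266688 * Sb2 + (Y3a * (64 * cb2 + Sb0) + (6 * (Y2b * Pa) * cb0 + 6 * (Y2b * Na) * cb2)))| * rb2 + |(1297036692682702848 * Ra3 + 8160249282398746929266688 * Sb0 + (Y3a * (64 * cb0 + Sb3) + (6 * (Y2b * Pa) * cb3 + 6 * (Y2b * Na) * cb0))) - (1297036692682702848 * Ra0 + 8160249282398746929266688 * Sb3 + (Y3a * (64 * cb3 + Sb0) + (6 * (Y2b * Pa) * cb0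 + 6 * (Y2b * Na) * cb3)))| * rb3)) ≤ (1297036692682702848 * SumCC + (Y3b * Na + Y3a * Nb))) :
    0 ≤ (((SumCC / 2 ^ 24 - neg) / 2 ^ 28) - 6 * (Va / 2 ^ 32) - 6 * (Vb / 2 ^ 32) - (Y3b / (27 * 2 ^ 78)) * (3 * (Pa - Na) / 2 ^ 31) - (Y3a / (27 * 2 ^ 78)) * (3 * (Pb - Nb) / 2 ^ 31))
        - (|gkf ((Rb1 - Rb0) / 2 ^ 40) ((Sa1 - Sa0) / 2 ^ 20) ((ca1 - ca0) / 2 ^ 13) (Y3b / (27 * 2 ^ 78)) (3 * (Pb - Nb) / 2 ^ 31) (Y2a / (9 * 2 ^ 52))| * (ra1 / 4096) + |gkf ((Rb2 - Rb0) / 2 ^ 40) ((Sa2 - Sa0) / 2 ^ 20) ((ca2 - ca0) / 2 ^ 13) (Y3b / (27 * 2 ^ 78)) (3 * (Pb - Nb) / 2 ^ 31) (Y2a / (9 * 2 ^ 52))| * (ra2 / 4096)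
            + |gkf ((Rb3 - Rb0) / 2 ^ 40) ((Sa3 - Sa0) / 2 ^ 20) ((ca3 - ca0) / 2 ^ 13) (Y3b / (27 * 2 ^ 78)) (3 * (Pb - Nb) / 2 ^ 31) (Y2a / (9 * 2 ^ 52))| * (ra3 / 4096))
        - (|gkf ((Ra1 - Ra0) / 2 ^ 40) ((Sb1 - Sb0) / 2 ^ 20) ((cb1 - cb0) / 2 ^ 13) (Y3a / (27 * 2 ^ 78)) (3 * (Pa - Na) / 2 ^ 31) (Y2b / (9 * 2 ^ 52))| * (rb1 / 4096) + |gkf ((Ra2 - Ra0) / 2 ^ 40) ((Sb2 - Sb0) / 2 ^ 20) ((cb2 - cb0) / 2 ^ 13) (Y3a / (27 * 2 ^ 78)) (3 * (Pa - Na) / 2 ^ 31) (Y2b / (9 * 2 ^ 52))| * (rb2 / 4096)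
            + |gkf ((Ra3 - Ra0) / 2 ^ 40) ((Sb3 - Sb0) / 2 ^ 20) ((cb3 - cb0) / 2 ^ 13) (Y3a / (27 * 2 ^ 78)) (3 * (Pa - Na) / 2 ^ 31) (Y2b / (9 * 2 ^ 52))| * (rb3 / 4096))
        - (|(((C11 + C00 - (C10 + C01))) / 2 ^ 28)| * (ra1 / 4096) * (rb1 / 4096) + |(((C12 + C00 - (C10 + C02))) / 2 ^ 28)| * (ra1 / 4096) * (rb2 / 4096) + |(((C13 + C00 - (C10 + C03))) / 2 ^ 28)| * (ra1 / 4096) * (rb3 / 4096) + |(((C21 + C00 - (C20 + C01))) / 2 ^ 28)| * (ra2 / 4096) * (rb1 / 4096) + |(((C22 + C00 - (C20 + C02))) / 2 ^ 28)| * (ra2 / 4096) * (rb2 / 4096) + |(((C23 + C00 - (C20 + C03))) / 2 ^ 28)| * (ra2 / 4096) * (rb3 / 4096) + |(((C31 + C00 - (C30 + C01))) / 2 ^ 28)| * (ra3 / 4096) * (rb1 / 4096) + |(((C32 + C00 - (C30 + C02))) / 2 ^ 28)| * (ra3 / 4096) * (rb2 / 4096) + |(((C33 + C00 - (C30 + C03)))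 / 2 ^ 28)| * (ra3 / 4096) * (rb3 / 4096))
        - 3 * (Y3b / (27 * 2 ^ 78)) * (Qa / 2 ^ 26) - 3 * (Y3a / (27 * 2 ^ 78)) * (Qb / 2 ^ 26)
        - |(3 * (Pb - Nb) / 2 ^ 31)| * ((Y2a / (9 * 2 ^ 52)) * (Qa / 2 ^ 26) + (Da / 2 ^ 26) ^ 2 / 3) - |(3 * (Pa - Na) / 2 ^ 31)| * ((Y2b / (9 * 2 ^ 52)) * (Qb / 2 ^ 26) + (Db / 2 ^ 26) ^ 2 / 3)
        - ((Y2b / (9 * 2 ^ 52)) * (Db / 2 ^ 26) + (Db / 2 ^ 26) ^ 2 / 3) * (3 * Ha / 2 ^ 31) - ((Y2a / (9 * 2 ^ 52)) * (Da / 2 ^ 26) + (Da / 2 ^ 26) ^ 2 / 3) * (3 * Hb / 2 ^ 31) := by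
  simp only [gkf_term]
  have a1 : |(3 * (Pb - Nb) / 2 ^ 31)| = 3 * |Pb - Nb| / 2 ^ 31 := by
    rw [abs_div, abs_mul, abs_of_pos (by norm_num : (0 : ℝ) < 3), abs_of_pos (by norm_num : (0 : ℝ) < 2 ^ 31)]
  have a2 : |(3 * (Pa - Na) / 2 ^ 31)| = 3 * |Pa - Na| / 2 ^ 31 := by
    rw [abs_div, abs_mul, abs_of_pos (by norm_num : (0 : ℝ) < 3), abs_of_pos (by norm_num : (0 : ℝ) < 2 ^ 31)]
  have a3 : ∀ x : ℝ, |x / 2 ^ 28| = |x| / 2 ^ 28 := fun x => by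
    rw [abs_div, abs_of_pos (by norm_num : (0 : ℝ) < 2 ^ 28)]
  rw [a1, a2]
  simp only [a3]
  subst hEa hWa hEb hWb
  have hd := div_nonneg (sub_nonneg.mpr hmain) (by norm_num : (0 : ℝ) ≤ 9 * 2 ^ 109)
  refine le_of_le_of_eq hd ?_
  ring

theorem cast_row (x0 x1 x2 x3 y0 y1 y2 y3 : ℕ) : ((row x0 x1 x2 x3 y0 y1 y2 y3 : ℕ) : ℝ)
    = (x0 : ℝ) * y0 + (x1 : ℝ) * y1 + ((x2 : ℝ) * y2 + (x3 : ℝ) * y3) := by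
  unfold row
  simp only [cast_nadd, cast_nmul]

theorem cast_gk (R0 S0' Y2s Po No Y3o c0 S0 ck Sk Rk r : ℕ) :
    ((gk (Nat.mul 1297036692682702848 R0) (Nat.mul 8160249282398746929266688 S0') (Nat.mul 6 (Nat.mul Y2s Po)) (Nat.mul 6 (Nat.mul Y2s No)) Y3o c0 S0 ck Sk Rk r : ℕ) : ℝ)
      = |(1297036692682702848 * (Rk : ℝ) + 8160249282398746929266688 * (S0' : ℝ) + ((Y3o : ℝ) * (64 * (c0 : ℝ) + Sk) + (6 * ((Y2s : ℝ) * Po) * ck + 6 * ((Y2s : ℝ) * No) * c0)))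
          - (1297036692682702848 * (R0 : ℝ) + 8160249282398746929266688 * (Sk : ℝ) + ((Y3o : ℝ) * (64 * (ck : ℝ) + S0) + (6 * ((Y2s : ℝ) * Po) * c0 + 6 * ((Y2s : ℝ) * No) * ck)))| * r := by
  unfold gk
  simp only [cast_nadd, cast_nmul, cast_absd]
  push_cast
  try ring_nf

theorem cast_gSum (A : St) (R0 R1 R2 R3 Y3o Y2s Po No : ℕ) :
    ((gSum A R0 R1 R2 R3 Y3o (Nat.mul 6 (Nat.mul Y2s Po)) (Nat.mul 6 (Nat.mul Y2s No)) : ℕ) : ℝ)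
      = |(1297036692682702848 * (R1 : ℝ) + 8160249282398746929266688 * (A.S0 : ℝ) + ((Y3o : ℝ) * (64 * (A.c0 : ℝ) + A.S1) + (6 * ((Y2s : ℝ) * Po) * A.c1 + 6 * ((Y2s : ℝ) * No) * A.c0)))
          - (1297036692682702848 * (R0 : ℝ) + 8160249282398746929266688 * (A.S1 : ℝ) + ((Y3o : ℝ) * (64 * (A.c1 : ℝ) + A.S0) + (6 * ((Y2s : ℝ) * Po) * A.c0 + 6 * ((Y2s : ℝ) * No) * A.c1)))| * A.r1
        + |(1297036692682702848 * (R2 : ℝ) + 8160249282398746929266688 * (A.S0 : ℝ) + ((Y3o : ℝ) * (64 * (A.c0 : ℝ) + A.S2) + (6 * ((Y2s : ℝ) * Po) * A.c2 + 6 * ((Y2s : ℝ) * No) * A.c0)))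
          - (1297036692682702848 * (R0 : ℝ) + 8160249282398746929266688 * (A.S2 : ℝ) + ((Y3o : ℝ) * (64 * (A.c2 : ℝ) + A.S0) + (6 * ((Y2s : ℝ) * Po) * A.c0 + 6 * ((Y2s : ℝ) * No) * A.c2)))| * A.r2
        + |(1297036692682702848 * (R3 : ℝ) + 8160249282398746929266688 * (A.S0 : ℝ) + ((Y3o : ℝ) * (64 * (A.c0 : ℝ) + A.S3) + (6 * ((Y2s : ℝ) * Po) * A.c3 + 6 * ((Y2s : ℝ) * No) * A.c0)))
          - (1297036692682702848 * (R0 : ℝ) + 8160249282398746929266688 * (A.S3 : ℝ) + ((Y3o : ℝ) * (64 * (A.c3 : ℝ) + A.S0) + (6 * ((Y2s : ℝ) * Po) * A.c0 + 6 * ((Y2s : ℝ) * No) * A.c3)))| * A.r3 := by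
  show ((Nat.add (Nat.add (gk _ _ _ _ Y3o A.c0 A.S0 A.c1 A.S1 R1 A.r1)
      (gk _ _ _ _ Y3o A.c0 A.S0 A.c2 A.S2 R2 A.r2)) (gk _ _ _ _ Y3o A.c0 A.S0 A.c3 A.S3 R3 A.r3) : ℕ) : ℝ) = _
  rw [cast_nadd, cast_nadd, cast_gk, cast_gk, cast_gk]

theorem cast_mTerm (D : Dual) (A B : St) : ((mTerm D A B : ℕ) : ℝ) = ((A.r1 : ℝ) * (|((D.C11 : ℝ) + D.C00 - ((D.C10 : ℝ) + D.C01))| * B.r1 + |((D.C12 : ℝ) + D.C00 - ((D.C10 : ℝ) + D.C02))| * B.r2 + |((D.C13 : ℝ) + D.C00 - ((D.C10 : ℝ) + D.C03))| * B.r3) + (A.r2 : ℝ) * (|((D.C21 : ℝ) + D.C00 - ((D.C20 : ℝ) + D.C01))| * B.r1 + |((D.C22 : ℝ) + D.C00 - ((D.C20 : ℝ) + D.C02))| * B.r2 + |((D.C23 : ℝ) + D.C00 - ((D.C20 : ℝ) + D.C03))| * B.r3) + (A.r3 : ℝ) * (|((D.C31 : ℝ) + D.C00 - ((D.C30 : ℝ) + D.C01))| * B.r1 + |((D.C32 : ℝ) + D.C00 - ((D.C30 : ℝ) + D.C02))|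 * B.r2 + |((D.C33 : ℝ) + D.C00 - ((D.C30 : ℝ) + D.C03))| * B.r3)) := by
  unfold mTerm
  simp only [cast_nadd, cast_nmul, cast_absd]

theorem cast_negT (A B : St) (D : Dual) : ((negT A B D : ℕ) : ℝ)
    = 21760664753063325144711168 * (D.neg : ℝ) + 8160249282398746929266688 * ((A.V : ℝ) + B.V) + ((B.Y3 : ℝ) * A.P + (A.Y3 : ℝ) * B.P)
      + (1297036692682702848 * ((A.r1 : ℝ) * (|((D.C11 : ℝ) + D.C00 - ((D.C10 : ℝ) + D.C01))| * B.r1 + |((D.C12 : ℝ) + D.C00 - ((D.C10 : ℝ) + D.C02))| * B.r2 + |((D.C13 : ℝ) + D.C00 - ((D.C10 : ℝ) + D.C03))| * B.r3) + (A.r2 : ℝ) * (|((D.C21 : ℝ) + D.C00 - ((D.C20 : ℝ) + D.C01))| * B.r1 + |((D.C22 : ℝ) + D.C00 - ((D.C20 : ℝ) + D.C02))| * B.r2 + |((D.C23 : ℝ) + D.C00 - ((D.C20 : ℝ) + D.C03))| * B.r3) + (A.r3 : ℝ) * (|((D.C31 : ℝ) + D.C00 - ((D.C30 : ℝ) + D.C01))|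 * B.r1 + |((D.C32 : ℝ) + D.C00 - ((D.C30 : ℝ) + D.C02))| * B.r2 + |((D.C33 : ℝ) + D.C00 - ((D.C30 : ℝ) + D.C03))| * B.r3)) + (32 * ((B.Y3 : ℝ) * A.Qr) + 32 * ((A.Y3 : ℝ) * B.Qr)))
      + (3 * (|(B.P : ℝ) - B.N| * A.E) + 3 * (|(A.P : ℝ) - A.N| * B.E) + (3 * ((B.W : ℝ) * A.H) + 3 * ((A.W : ℝ) * B.H))) := by
  unfold negT
  simp only [cast_nadd, cast_nmul, cast_absd, cast_mTerm]
  push_cast
  try ring_nf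

theorem cast_posT (A B : St) (S : ℕ) : ((posT A B S : ℕ) : ℝ)
    = 1297036692682702848 * (S : ℝ) + ((B.Y3 : ℝ) * A.N + (A.Y3 : ℝ) * B.N) := by
  unfold posT
  simp only [cast_nadd, cast_nmul]
  push_cast
  try ring_nf

/-- The meaning of the numbers in a record, for the final step at a leaf. -/
theorem side_id {s : St} (hs : SideFacts s) :
    (s.Y3 : ℝ) / (27 * 2 ^ 78) = (1 - (sqR s / 2 ^ 26 - 1) / 3) ^ 3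
      ∧ (s.Y2 : ℝ) / (9 * 2 ^ 52) = (1 - (sqR s / 2 ^ 26 - 1) / 3) ^ 2
      ∧ 3 * ((s.P : ℝ) - s.N) / 2 ^ 31 = 3 * (sqR s / 2 ^ 26 - 1) - 6 * ((s.V : ℝ) / 2 ^ 32)
      ∧ (s.D : ℝ) / 2 ^ 26 = |((s.c1 : ℝ) - s.c0) / 2 ^ 13| * ((s.r1 : ℝ) / 4096)
          + |((s.c2 : ℝ) - s.c0) / 2 ^ 13| * ((s.r2 : ℝ) / 4096)
          + |((s.c3 : ℝ) - s.c0) / 2 ^ 13| * ((s.r3 : ℝ) / 4096) + (s.Qr : ℝ) / 2 ^ 26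
      ∧ 3 * (s.H : ℝ) / 2 ^ 31
        = |3 * (((s.c1 : ℝ) - s.c0) / 2 ^ 13) - 6 * (((s.S1 : ℝ) - s.S0) / 2 ^ 20)| * ((s.r1 : ℝ) / 4096)
          + |3 * (((s.c2 : ℝ) - s.c0) / 2 ^ 13) - 6 * (((s.S2 : ℝ) - s.S0) / 2 ^ 20)| * ((s.r2 : ℝ) / 4096)
          + |3 * (((s.c3 : ℝ) - s.c0) / 2 ^ 13) - 6 * (((s.S3 : ℝ) - s.S0) / 2 ^ 20)| * ((s.r3 : ℝ) / 4096)
          + 3 * ((s.Qr : ℝ) / 2 ^ 26) := by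
  have hab : ∀ x : ℝ, |x / 2 ^ 13| = |x| / 2 ^ 13 := fun x => by
    rw [abs_div, abs_of_pos (by norm_num : (0 : ℝ) < 2 ^ 13)]
  have hh : ∀ x y : ℝ, ∀ u v : ℝ, x = 64 * u + v - (64 * y + (v + x)) + x → True := fun _ _ _ _ _ => trivial
  have hab2 : ∀ c0 c S0 S : ℝ, |3 * ((c - c0) / 2 ^ 13) - 6 * ((S - S0) / 2 ^ 20)|
      = 3 * |64 * c + S0 - (64 * c0 + S)| / 2 ^ 19 := by
    intro c0 c S0 S
    have e : 3 * ((c - c0) / 2 ^ 13) - 6 * ((S - S0) / 2 ^ 20)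
        = 3 * (64 * c + S0 - (64 * c0 + S)) / 2 ^ 19 := by ring
    rw [e, abs_div, abs_mul, abs_of_pos (by norm_num : (0 : ℝ) < 3), abs_of_pos (by norm_num : (0 : ℝ) < 2 ^ 19)]
  refine ⟨?_, ?_, ?_, ?_, ?_⟩
  · rw [hs.Y3]
    ring
  · rw [hs.Y2]
    ring
  · rw [hs.P, hs.N]
    ring
  · rw [hs.D, hab, hab, hab]
    ring
  · rw [hs.H, hab2, hab2, hab2]
    ring

theorem sq_norm {x : ℝ} (h1 : 67108864 ≤ x) (h2 : x ≤ 268435456) :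
    0 ≤ x / 2 ^ 26 - 1 ∧ x / 2 ^ 26 - 1 ≤ 3 := by
  constructor
  · norm_num
    linarith
  · norm_num
    linarith

/-- A leaf is sound. -/
theorem leaf_sound {A B : St} (hA : IsSt A) (hB : IsSt B) (h : leafOK A B = true)
    {a b : Fin 4 → ℝ} (ha : Dom a) (hb : Dom b)
    (hia : InBox A.c1 A.c2 A.c3 A.r1 A.r2 A.r3 a) (hib : InBox B.c1 B.c2 B.c3 B.r1 B.r2 B.r3 b) :
    0 ≤ Fbb a b := by
  have fA := hA.facts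
  have fB := hB.facts
  obtain ⟨z0, d1a, d2a, d3a⟩ := box_diffs fA ha hia
  obtain ⟨z0', e1a, e2a, e3a⟩ := box_diffs fB hb hib
  obtain ⟨D, hD⟩ : ∃ D, D = mkDual A.c0 A.c1 A.c2 A.c3 B.c0 B.c1 B.c2 B.c3 := ⟨_, rfl⟩
  have h1 : leafOK2 A B D = true := by
    rw [hD]
    exact h
  unfold leafOK2 leafOK1 at h1
  obtain ⟨hok, hle⟩ := cond_and h1
  have hle' := Nat.le_of_ble_eq_true hle
  have hspec := mkDual_spec ha.1 hb.1 ha.2 hb.2 (a0 := A.c0) (a1 := A.c1) (a2 := A.c2) (a3 := A.c3)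
    (b0 := B.c0) (b1 := B.c1) (b2 := B.c2) (b3 := B.c3) (by rw [← hD]; exact hok)
  rw [← hD] at hspec
  obtain ⟨Rb0, hRb0⟩ : ∃ R, R = row D.C00 D.C01 D.C02 D.C03 B.c0 B.c1 B.c2 B.c3 := ⟨_, rfl⟩
  obtain ⟨Rb1, hRb1⟩ : ∃ R, R = row D.C10 D.C11 D.C12 D.C13 B.c0 B.c1 B.c2 B.c3 := ⟨_, rfl⟩
  obtain ⟨Rb2, hRb2⟩ : ∃ R, R = row D.C20 D.C21 D.C22 D.C23 B.c0 B.c1 B.c2 B.c3 := ⟨_, rfl⟩
  obtain ⟨Rb3, hRb3⟩ : ∃ R, R = row D.C30 D.C31 D.C32 D.C33 B.c0 B.c1 B.c2 B.c3 := ⟨_, rfl⟩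
  obtain ⟨Ra0, hRa0⟩ : ∃ R, R = row D.C00 D.C10 D.C20 D.C30 A.c0 A.c1 A.c2 A.c3 := ⟨_, rfl⟩
  obtain ⟨Ra1, hRa1⟩ : ∃ R, R = row D.C01 D.C11 D.C21 D.C31 A.c0 A.c1 A.c2 A.c3 := ⟨_, rfl⟩
  obtain ⟨Ra2, hRa2⟩ : ∃ R, R = row D.C02 D.C12 D.C22 D.C32 A.c0 A.c1 A.c2 A.c3 := ⟨_, rfl⟩
  obtain ⟨Ra3, hRa3⟩ : ∃ R, R = row D.C03 D.C13 D.C23 D.C33 A.c0 A.c1 A.c2 A.c3 := ⟨_, rfl⟩
  rw [← hRb0, ← hRb1, ← hRb2, ← hRb3, ← hRa0, ← hRa1, ← hRa2, ← hRa3] at hle'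
  obtain ⟨SumCC, hSum⟩ : ∃ S, S = row A.c0 A.c1 A.c2 A.c3 Rb0 Rb1 Rb2 Rb3 := ⟨_, rfl⟩
  rw [← hSum] at hle'
  have hmain : ((Nat.add (negT A B D) (Nat.add
      (gSum A Rb0 Rb1 Rb2 Rb3 B.Y3 (Nat.mul 6 (Nat.mul A.Y2 B.P)) (Nat.mul 6 (Nat.mul A.Y2 B.N)))
      (gSum B Ra0 Ra1 Ra2 Ra3 A.Y3 (Nat.mul 6 (Nat.mul B.Y2 A.P)) (Nat.mul 6 (Nat.mul B.Y2 A.N)))) : ℕ) : ℝ)
      ≤ ((posT A B SumCC : ℕ) : ℝ) := Nat.cast_le.mpr hle'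
  rw [cast_nadd, cast_nadd, cast_negT, cast_gSum, cast_gSum, cast_posT] at hmain
  have hfin := leaf_fin _ _ _ _ _ _ _ _ _ _ _ _ _ _ _ _ _ _ _ _ _
    _ _ _ _ _ _ _ _ _ _ _ _ _ _ _ _ _ _ _ _ _
    _ _ _ _ _ _ _ _ _ _ _ _ _ _ _ _ _ _ _ _ _ _ _ _ _ _
    fA.E fA.W fB.E fB.W hmain
  -- the expansion of the bilinear form
  have hx := bil_expand (D.C00 : ℝ) (D.C01 : ℝ) (D.C02 : ℝ) (D.C03 : ℝ) (D.C10 : ℝ) (D.C11 : ℝ) (D.C12 : ℝ) (D.C13 : ℝ) (D.C20 : ℝ) (D.C21 : ℝ) (D.C22 : ℝ) (D.C23 : ℝ) (D.C30 : ℝ) (D.C31 : ℝ) (D.C32 : ℝ) (D.C33 : ℝ) (D.neg : ℝ)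
    (A.c0 : ℝ) (A.c1 : ℝ) (A.c2 : ℝ) (A.c3 : ℝ) (B.c0 : ℝ) (B.c1 : ℝ) (B.c2 : ℝ) (B.c3 : ℝ)
    (a 1 - (A.c1 : ℝ) / 4096) (a 2 - (A.c2 : ℝ) / 4096) (a 3 - (A.c3 : ℝ) / 4096)
    (b 1 - (B.c1 : ℝ) / 4096) (b 2 - (B.c2 : ℝ) / 4096) (b 3 - (B.c3 : ℝ) / 4096)
    (a 0) (a 1) (a 2) (a 3) (b 0) (b 1) (b 2) (b 3)
    (by linarith) (by ring) (by ring) (by ring) (by linarith) (by ring) (by ring) (by ring)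
  unfold bil at hspec
  rw [hx] at hspec
  have eb0 : (Rb0 : ℝ) = (D.C00 : ℝ) * B.c0 + (D.C01 : ℝ) * B.c1 + ((D.C02 : ℝ) * B.c2 + (D.C03 : ℝ) * B.c3) := by
    rw [hRb0, cast_row]
  have eb1 : (Rb1 : ℝ) = (D.C10 : ℝ) * B.c0 + (D.C11 : ℝ) * B.c1 + ((D.C12 : ℝ) * B.c2 + (D.C13 : ℝ) * B.c3) := by
    rw [hRb1, cast_row]
  have eb2 : (Rb2 : ℝ) = (D.C20 : ℝ) * B.c0 + (D.C21 : ℝ) * B.c1 + ((D.C22 : ℝ) * B.c2 + (D.C23 : ℝ) * B.c3) := by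
    rw [hRb2, cast_row]
  have eb3 : (Rb3 : ℝ) = (D.C30 : ℝ) * B.c0 + (D.C31 : ℝ) * B.c1 + ((D.C32 : ℝ) * B.c2 + (D.C33 : ℝ) * B.c3) := by
    rw [hRb3, cast_row]
  have ea0 : (Ra0 : ℝ) = (D.C00 : ℝ) * A.c0 + (D.C10 : ℝ) * A.c1 + ((D.C20 : ℝ) * A.c2 + (D.C30 : ℝ) * A.c3) := by
    rw [hRa0, cast_row]
  have ea1 : (Ra1 : ℝ) = (D.C01 : ℝ) * A.c0 + (D.C11 : ℝ) * A.c1 + ((D.C21 : ℝ) * A.c2 + (D.C31 : ℝ) * A.c3) := by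
    rw [hRa1, cast_row]
  have ea2 : (Ra2 : ℝ) = (D.C02 : ℝ) * A.c0 + (D.C12 : ℝ) * A.c1 + ((D.C22 : ℝ) * A.c2 + (D.C32 : ℝ) * A.c3) := by
    rw [hRa2, cast_row]
  have ea3 : (Ra3 : ℝ) = (D.C03 : ℝ) * A.c0 + (D.C13 : ℝ) * A.c1 + ((D.C23 : ℝ) * A.c2 + (D.C33 : ℝ) * A.c3) := by
    rw [hRa3, cast_row]
  have eS : (SumCC : ℝ) = (A.c0 : ℝ) * Rb0 + (A.c1 : ℝ) * Rb1 + ((A.c2 : ℝ) * Rb2 + (A.c3 : ℝ) * Rb3) := by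
    rw [hSum, cast_row]
  rw [← eb0, ← eb1, ← eb2, ← eb3, ← ea0, ← ea1, ← ea2, ← ea3, ← eS] at hspec
  -- the ranges
  have rA := sqR_bounds fA
  have rB := sqR_bounds fB
  obtain ⟨x0a0, x0a3⟩ := sq_norm rA.1 rA.2
  obtain ⟨x0b0, x0b3⟩ := sq_norm rB.1 rB.2
  obtain ⟨xa0, xa3⟩ := xx_range ha
  obtain ⟨xb0, xb3⟩ := xx_range hb
  obtain ⟨qa0, qa1⟩ := q_bounds fA ha hia
  obtain ⟨qb0, qb1⟩ := q_bounds fB hb hib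
  obtain ⟨i1, i2, i3, i4, i5⟩ := side_id fA
  obtain ⟨j1, j2, j3, j4, j5⟩ := side_id fB
  rw [Fbb_eq ha hb]
  exact leaf_core d1a d2a d3a e1a e2a e3a (ent_line fA ha hia) (ent_line fB hb hib)
    (xx_expand fA ha hia) (xx_expand fB hb hib) qa0 qa1 qb0 qb1 x0a0 x0a3 x0b0 x0b3 xa0 xa3 xb0 xb3
    hspec i1 j1 i2 j2 i3 j3 i4 j4 i5 j5 hfin

end Vale.Agent.P154.Q4.BB
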