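import Vale.Agent.P154.Q4.BB.S5

/-!
Soundness of the computable check, part six: the walk through a certificate.
-/

namespace Vale.Agent.P154.Q4.BB

open Real Vale.Agent.P154.Q4

/-- A vector with decreasing entries. -/
def Srt (a : Fin 4 → ℝ) : Prop := a 1 ≤ a 0 ∧ a 2 ≤ a 1 ∧ a 3 ≤ a 2

/-- The region of pairs that has to be covered. -/
def Region (a b : Fin 4 → ℝ) : Prop :=
  a 3 ≤ b 3 ∧ (b 3 < 1 / 4 ∨ (1 < xx b ∧ 7 / 10 < xx a))

/-- The inequality on the pairs of the region in a pair of boxes. -/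
def GoodC (c1 c2 c3 r1 r2 r3 d1 d2 d3 s1 s2 s3 : ℕ) : Prop :=
  ∀ a b : Fin 4 → ℝ, Dom a → Dom b → Srt a → Srt b → InBox c1 c2 c3 r1 r2 r3 a →
    InBox d1 d2 d3 s1 s2 s3 b → Region a b → 0 ≤ Fbb a b

/-- The same for two records. -/
def Good (A B : St) : Prop :=
  GoodC A.c1 A.c2 A.c3 A.r1 A.r2 A.r3 B.c1 B.c2 B.c3 B.r1 B.r2 B.r3

/-- The same for two boxes. -/
def GoodBx (A B : Bx) : Prop :=
  GoodC A.c1 A.c2 A.c3 A.r1 A.r2 A.r3 B.c1 B.c2 B.c3 B.r1 B.r2 B.r3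

theorem cond_or {x y : Bool} (h : cond x true y = true) : x = true ∨ y = true := by
  cases x
  · exact Or.inr h
  · exact Or.inl rfl

theorem blt_cast {x y : ℕ} (h : Nat.blt x y = true) : (x : ℝ) < y := by
  have h1 : x + 1 ≤ y := Nat.le_of_ble_eq_true h
  have h2 : x < y := h1
  exact_mod_cast h2

theorem blt_sub_cast {x c r : ℕ} (h : Nat.blt x (Nat.sub c r) = true) : (x : ℝ) < (c : ℝ) - r := by
  have h1 : x + 1 ≤ Nat.sub c r := Nat.le_of_ble_eq_true h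
  have h2 : x < c - r := h1
  have h3 : x + r < c := by omega
  have h4 : ((x + r : ℕ) : ℝ) < c := by exact_mod_cast h3
  rw [Nat.cast_add] at h4
  linarith

theorem add_blt_sub_cast {x y c r : ℕ} (h : Nat.blt (Nat.add x y) (Nat.sub c r) = true) :
    (x : ℝ) + y < (c : ℝ) - r := by
  have h1 := blt_sub_cast h
  rw [cast_nadd] at h1
  exact h1

/-- The order constraints exclude a record. -/
theorem chamber_false {A : St} (hA : SideFacts A) {a : Fin 4 → ℝ} (ha : Dom a) (hs : Srt a)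
    (hi : InBox A.c1 A.c2 A.c3 A.r1 A.r2 A.r3 a) (h : chamberOut A = true) : False := by
  obtain ⟨h0, hd1, hd2, hd3⟩ := box_diffs hA ha hi
  obtain ⟨i1, i2, i3, i4, i5, i6⟩ := hi
  obtain ⟨s1, s2, s3⟩ := hs
  unfold chamberOut at h
  rcases cond_or h with h | h
  · have h' := add_blt_sub_cast h
    have e1 : ((A.c1 : ℝ) + A.r1) / 4096 < ((A.c2 : ℝ) - A.r2) / 4096 :=
      div_lt_div_of_pos_right h' (by norm_num)
    linarith
  · rcases cond_or h with h | h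
    · have h' := add_blt_sub_cast h
      have e1 : ((A.c2 : ℝ) + A.r2) / 4096 < ((A.c3 : ℝ) - A.r3) / 4096 :=
        div_lt_div_of_pos_right h' (by norm_num)
      linarith
    · have h' := add_blt_sub_cast h
      have e1 : ((A.c0 : ℝ) + A.r0) / 4096 < ((A.c1 : ℝ) - A.r1) / 4096 :=
        div_lt_div_of_pos_right h' (by norm_num)
      have hr : (A.r0 : ℝ) = A.r1 + A.r2 + A.r3 := by
        have := hA.rad
        exact_mod_cast this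
      have a1 := abs_le.mp hd1
      have a2 := abs_le.mp hd2
      have a3 := abs_le.mp hd3
      have e2 : ((A.r0 : ℝ)) / 4096 = (A.r1 : ℝ) / 4096 + (A.r2 : ℝ) / 4096 + (A.r3 : ℝ) / 4096 := by
        rw [hr]
        ring
      have e3 : ((A.c0 : ℝ) + A.r0) / 4096 = (A.c0 : ℝ) / 4096 + (A.r0 : ℝ) / 4096 := by ring
      linarith [a1.1, a2.1, a3.1]

theorem mul_le_abs_mul {x d r : ℝ} (h : |d| ≤ r) : x * d ≤ |x| * r := by
  calc x * d ≤ |x * d| := le_abs_self _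
    _ = |x| * |d| := abs_mul _ _
    _ ≤ |x| * r := mul_le_mul_of_nonneg_left h (abs_nonneg _)

/-- An upper bound for the normalised square sum on a box. -/
theorem xx_upper {s : St} (hs : SideFacts s) {a : Fin 4 → ℝ} (ha : Dom a)
    (hb : InBox s.c1 s.c2 s.c3 s.r1 s.r2 s.r3 a) :
    xx a ≤ ((s.P : ℝ) + 32 * s.D) / 2 ^ 31 - 1 := by
  have e := xx_expand hs ha hb
  obtain ⟨-, hd1, hd2, hd3⟩ := box_diffs hs ha hb
  obtain ⟨-, q1⟩ := q_bounds hs ha hb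
  have m1 := mul_le_abs_mul (x := ((s.c1 : ℝ) - s.c0) / 2 ^ 13) hd1
  have m2 := mul_le_abs_mul (x := ((s.c2 : ℝ) - s.c0) / 2 ^ 13) hd2
  have m3 := mul_le_abs_mul (x := ((s.c3 : ℝ) - s.c0) / 2 ^ 13) hd3
  have hab : ∀ x : ℝ, |x / 2 ^ 13| = |x| / 2 ^ 13 := fun x => by
    rw [abs_div, abs_of_pos (by norm_num : (0 : ℝ) < 2 ^ 13)]
  rw [hab] at m1 m2 m3
  rw [e, hs.P, hs.D]
  have e2 : (32 * sqR s + 32 * (2 * (|(s.c1 : ℝ) - s.c0| * s.r1 + |(s.c2 : ℝ) - s.c0| * s.r2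
      + |(s.c3 : ℝ) - s.c0| * s.r3) + s.Qr)) / 2 ^ 31 - 1
      = (sqR s / 2 ^ 26 - 1) + |(s.c1 : ℝ) - s.c0| / 2 ^ 13 * ((s.r1 : ℝ) / 4096)
        + |(s.c2 : ℝ) - s.c0| / 2 ^ 13 * ((s.r2 : ℝ) / 4096)
        + |(s.c3 : ℝ) - s.c0| / 2 ^ 13 * ((s.r3 : ℝ) / 4096) + (s.Qr : ℝ) / 2 ^ 26 := by
    ring
  rw [e2]
  linarith

theorem xx_lt_of {s : St} (hs : SideFacts s) {a : Fin 4 → ℝ} (ha : Dom a)
    (hb : InBox s.c1 s.c2 s.c3 s.r1 s.r2 s.r3 a)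
    (h : Nat.blt (Nat.add s.P (Nat.mul 32 s.D)) 4294967296 = true) : xx a < 1 := by
  have h1 := xx_upper hs ha hb
  have h2 := blt_cast h
  rw [cast_nadd, cast_nmul] at h2
  have h3 : (((s.P : ℝ) + ((32 : ℕ) : ℝ) * s.D)) / 2 ^ 31 < ((4294967296 : ℕ) : ℝ) / 2 ^ 31 :=
    div_lt_div_of_pos_right h2 (by norm_num)
  norm_num at h3 h1
  linarith

theorem xx_lt_of2 {s : St} (hs : SideFacts s) {a : Fin 4 → ℝ} (ha : Dom a)
    (hb : InBox s.c1 s.c2 s.c3 s.r1 s.r2 s.r3 a)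
    (h : Nat.blt (Nat.mul 10 (Nat.add s.P (Nat.mul 32 s.D))) 36507222016 = true) : xx a < 7 / 10 := by
  have h1 := xx_upper hs ha hb
  have h2 := blt_cast h
  rw [cast_nmul, cast_nadd, cast_nmul] at h2
  have h3 : (((10 : ℕ) : ℝ) * ((s.P : ℝ) + ((32 : ℕ) : ℝ) * s.D)) / (10 * 2 ^ 31)
      < ((36507222016 : ℕ) : ℝ) / (10 * 2 ^ 31) :=
    div_lt_div_of_pos_right h2 (by norm_num)
  norm_num at h3 h1
  linarith

/-- A rejected pair of records. -/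
theorem rej_sound {A B : St} (hA : IsSt A) (hB : IsSt B) (h : rejOK A B = true) : Good A B := by
  have fA := hA.facts
  have fB := hB.facts
  intro a b da db sa sb ia ib hreg
  exfalso
  unfold rejOK at h
  rcases cond_or h with h | h
  · exact chamber_false fA da sa ia h
  rcases cond_or h with h | h
  · exact chamber_false fB db sb ib h
  rcases cond_or h with h | h
  · have h' := add_blt_sub_cast h
    have e1 : ((B.c3 : ℝ) + B.r3) / 4096 < ((A.c3 : ℝ) - A.r3) / 4096 :=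
      div_lt_div_of_pos_right h' (by norm_num)
    obtain ⟨-, -, -, -, i5, -⟩ := ia
    obtain ⟨-, -, -, -, -, j6⟩ := ib
    linarith [hreg.1]
  · cases h0 : Nat.ble 1024 (Nat.sub B.c3 B.r3)
    · rw [h0] at h
      exact Bool.noConfusion h
    · rw [h0] at h
      have h2 : 1024 ≤ Nat.sub B.c3 B.r3 := Nat.le_of_ble_eq_true h0
      have h3 : ((1024 : ℕ) : ℝ) ≤ (B.c3 : ℝ) - B.r3 := by
        have h4 : 1024 ≤ B.c3 - B.r3 := h2
        have h5 : 1024 + B.r3 ≤ B.c3 := by omega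
        have h6 : ((1024 + B.r3 : ℕ) : ℝ) ≤ B.c3 := by exact_mod_cast h5
        rw [Nat.cast_add] at h6
        linarith
      have h7 : (((1024 : ℕ) : ℝ)) / 4096 ≤ ((B.c3 : ℝ) - B.r3) / 4096 :=
        div_le_div_of_nonneg_right h3 (by norm_num)
      obtain ⟨-, -, -, -, j5, -⟩ := id ib
      have h8 : (1 : ℝ) / 4 ≤ b 3 := by
        norm_num at h7 ⊢
        linarith
      rcases hreg.2 with hr | ⟨hx, hy⟩
      · linarith
      · have h9 : cond (Nat.blt (Nat.add B.P (Nat.mul 32 B.D)) 4294967296) true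
            (Nat.blt (Nat.mul 10 (Nat.add A.P (Nat.mul 32 A.D))) 36507222016) = true := h
        rcases cond_or h9 with h9 | h9
        · have := xx_lt_of fB db ib h9
          linarith
        · have := xx_lt_of2 fA da ia h9
          linarith

theorem baseOK_lo1 {c0 c1 c2 c3 r0 r1 r2 r3 pl0 pu0 pl1 pu1 pl2 pu2 pl3 pu3 h : ℕ} (hb : BaseOK c0 c1 c2 c3 r0 r1 r2 r3 pl0 pu0 pl1 pu1 pl2 pu2 pl3 pu3)
    (hr : Nat.mul 2 h = r1) (hc : h ≤ c0) :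
    BaseOK (Nat.add c0 h) (Nat.sub c1 h) c2 c3 (Nat.sub r0 h) h r2 r3 (phiUp (Nat.sub (Nat.add c0 h) (Nat.sub r0 h))) pu0 pl1 (phiUp c1) pl2 pu2 pl3 pu3 := by
  have hr' : 2 * h = r1 := hr
  have hrad := hb.rad
  have hle := hb.le1
  have hsum := hb.sum
  have e1 : Nat.sub c1 h = c1 - h := rfl
  have e2 : Nat.sub r0 h = r0 - h := rfl
  have e3 : Nat.add c0 h = c0 + h := rfl
  have ec : ((Nat.sub c1 h : ℕ) : ℝ) + h = c1 := by
    have : Nat.sub c1 h + h = c1 := by omega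
    exact_mod_cast this
  have er : ((Nat.sub r0 h : ℕ) : ℝ) + h = r0 := by
    have : Nat.sub r0 h + h = r0 := by omega
    exact_mod_cast this
  have e0 : ((Nat.add c0 h : ℕ) : ℝ) + ((Nat.sub r0 h : ℕ) : ℝ) = (c0 : ℝ) + r0 := by
    rw [cast_nadd]
    linarith
  have e5 : Nat.sub (Nat.sub c1 h) h = Nat.sub c1 r1 := by
    have e6 : Nat.sub (Nat.sub c1 h) h = c1 - h - h := rfl
    have e7 : Nat.sub c1 r1 = c1 - r1 := rfl
    omega
  refine ⟨?_, ?_, ?_, ?_, ?_, ?_, ?_, ?_, ?_, ?_, ?_, ?_, ?_⟩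
  · rw [e1, e3]
    omega
  · rw [e2]
    omega
  · rw [e1]; omega
  · exact hb.le2
  · exact hb.le3
  · exact phiUp_spec _
  · rw [e0]
    exact hb.u0
  · rw [e5]
    exact hb.l1
  · rw [ec]
    exact phiUp_spec _
  · exact hb.l2
  · exact hb.u2
  · exact hb.l3
  · exact hb.u3

theorem baseOK_hi1 {c0 c1 c2 c3 r0 r1 r2 r3 pl0 pu0 pl1 pu1 pl2 pu2 pl3 pu3 h : ℕ} (hb : BaseOK c0 c1 c2 c3 r0 r1 r2 r3 pl0 pu0 pl1 pu1 pl2 pu2 pl3 pu3)
    (hr : Nat.mul 2 h = r1) (hc : h ≤ c0) :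
    BaseOK (Nat.sub c0 h) (Nat.add c1 h) c2 c3 (Nat.sub r0 h) h r2 r3 pl0 (phiUp (Nat.add (Nat.sub c0 h) (Nat.sub r0 h))) (phiUp c1) pu1 pl2 pu2 pl3 pu3 := by
  have hr' : 2 * h = r1 := hr
  have hrad := hb.rad
  have hle := hb.le1
  have hsum := hb.sum
  have e1 : Nat.sub c0 h = c0 - h := rfl
  have e2 : Nat.sub r0 h = r0 - h := rfl
  have e3 : Nat.add c1 h = c1 + h := rfl
  have ec : ((Nat.add c1 h : ℕ) : ℝ) + h = ((c1 : ℝ) + r1) := by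
    rw [cast_nadd, ← hr']
    push_cast
    ring
  have e5 : Nat.sub (Nat.sub c0 h) (Nat.sub r0 h) = Nat.sub c0 r0 := by
    have e6 : Nat.sub (Nat.sub c0 h) (Nat.sub r0 h) = c0 - h - (r0 - h) := rfl
    have e7 : Nat.sub c0 r0 = c0 - r0 := rfl
    omega
  have e8 : Nat.sub (Nat.add c1 h) h = c1 := by
    have e9 : Nat.sub (Nat.add c1 h) h = c1 + h - h := rfl
    omega
  have e10 : ((Nat.sub c0 h : ℕ) : ℝ) + ((Nat.sub r0 h : ℕ) : ℝ) = ((Nat.add (Nat.sub c0 h) (Nat.sub r0 h) : ℕ) : ℝ) := by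
    rw [cast_nadd]
  refine ⟨?_, ?_, ?_, ?_, ?_, ?_, ?_, ?_, ?_, ?_, ?_, ?_, ?_⟩
  · rw [e1, e3]
    omega
  · rw [e2]
    omega
  · rw [e3]; omega
  · exact hb.le2
  · exact hb.le3
  · rw [e5]
    exact hb.l0
  · rw [e10]
    exact phiUp_spec _
  · rw [e8]
    exact phiUp_spec _
  · rw [ec]
    exact hb.u1
  · exact hb.l2
  · exact hb.u2
  · exact hb.l3
  · exact hb.u3

theorem isSt_lo1 {A : St} {h : ℕ} (hA : IsSt A) (hs : splitOK A.r1 h A.c0 = true) :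
    IsSt (lo1 A h (phiUp A.c1)) := by
  obtain ⟨c0, c1, c2, c3, r0, r1, r2, r3, pl0, pu0, pl1, pu1, pl2, pu2, pl3, pu3, rfl, hb⟩ := hA
  have hs' : splitOK r1 h c0 = true := hs
  unfold splitOK at hs'
  obtain ⟨h1, h2⟩ := cond_and hs'
  exact ⟨_, _, _, _, _, _, _, _, _, _, _, _, _, _, _, _, rfl,
    baseOK_lo1 hb (Nat.eq_of_beq_eq_true h1) (Nat.le_of_ble_eq_true h2)⟩

theorem isSt_hi1 {A : St} {h : ℕ} (hA : IsSt A) (hs : splitOK A.r1 h A.c0 = true) :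
    IsSt (hi1 A h (phiUp A.c1)) := by
  obtain ⟨c0, c1, c2, c3, r0, r1, r2, r3, pl0, pu0, pl1, pu1, pl2, pu2, pl3, pu3, rfl, hb⟩ := hA
  have hs' : splitOK r1 h c0 = true := hs
  unfold splitOK at hs'
  obtain ⟨h1, h2⟩ := cond_and hs'
  exact ⟨_, _, _, _, _, _, _, _, _, _, _, _, _, _, _, _, rfl,
    baseOK_hi1 hb (Nat.eq_of_beq_eq_true h1) (Nat.le_of_ble_eq_true h2)⟩

theorem baseOK_lo2 {c0 c1 c2 c3 r0 r1 r2 r3 pl0 pu0 pl1 pu1 pl2 pu2 pl3 pu3 h : ℕ} (hb : BaseOK c0 c1 c2 c3 r0 r1 r2 r3 pl0 pu0 pl1 pu1 pl2 pu2 pl3 pu3)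
    (hr : Nat.mul 2 h = r2) (hc : h ≤ c0) :
    BaseOK (Nat.add c0 h) c1 (Nat.sub c2 h) c3 (Nat.sub r0 h) r1 h r3 (phiUp (Nat.sub (Nat.add c0 h) (Nat.sub r0 h))) pu0 pl1 pu1 pl2 (phiUp c2) pl3 pu3 := by
  have hr' : 2 * h = r2 := hr
  have hrad := hb.rad
  have hle := hb.le2
  have hsum := hb.sum
  have e1 : Nat.sub c2 h = c2 - h := rfl
  have e2 : Nat.sub r0 h = r0 - h := rfl
  have e3 : Nat.add c0 h = c0 + h := rfl
  have ec : ((Nat.sub c2 h : ℕ) : ℝ) + h = c2 := by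
    have : Nat.sub c2 h + h = c2 := by omega
    exact_mod_cast this
  have er : ((Nat.sub r0 h : ℕ) : ℝ) + h = r0 := by
    have : Nat.sub r0 h + h = r0 := by omega
    exact_mod_cast this
  have e0 : ((Nat.add c0 h : ℕ) : ℝ) + ((Nat.sub r0 h : ℕ) : ℝ) = (c0 : ℝ) + r0 := by
    rw [cast_nadd]
    linarith
  have e5 : Nat.sub (Nat.sub c2 h) h = Nat.sub c2 r2 := by
    have e6 : Nat.sub (Nat.sub c2 h) h = c2 - h - h := rfl
    have e7 : Nat.sub c2 r2 = c2 - r2 := rfl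
    omega
  refine ⟨?_, ?_, ?_, ?_, ?_, ?_, ?_, ?_, ?_, ?_, ?_, ?_, ?_⟩
  · rw [e1, e3]
    omega
  · rw [e2]
    omega
  · exact hb.le1
  · rw [e1]; omega
  · exact hb.le3
  · exact phiUp_spec _
  · rw [e0]
    exact hb.u0
  · exact hb.l1
  · exact hb.u1
  · rw [e5]
    exact hb.l2
  · rw [ec]
    exact phiUp_spec _
  · exact hb.l3
  · exact hb.u3

theorem baseOK_hi2 {c0 c1 c2 c3 r0 r1 r2 r3 pl0 pu0 pl1 pu1 pl2 pu2 pl3 pu3 h : ℕ} (hb : BaseOK c0 c1 c2 c3 r0 r1 r2 r3 pl0 pu0 pl1 pu1 pl2 pu2 pl3 pu3)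
    (hr : Nat.mul 2 h = r2) (hc : h ≤ c0) :
    BaseOK (Nat.sub c0 h) c1 (Nat.add c2 h) c3 (Nat.sub r0 h) r1 h r3 pl0 (phiUp (Nat.add (Nat.sub c0 h) (Nat.sub r0 h))) pl1 pu1 (phiUp c2) pu2 pl3 pu3 := by
  have hr' : 2 * h = r2 := hr
  have hrad := hb.rad
  have hle := hb.le2
  have hsum := hb.sum
  have e1 : Nat.sub c0 h = c0 - h := rfl
  have e2 : Nat.sub r0 h = r0 - h := rfl
  have e3 : Nat.add c2 h = c2 + h := rfl
  have ec : ((Nat.add c2 h : ℕ) : ℝ) + h = ((c2 : ℝ) + r2) := by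
    rw [cast_nadd, ← hr']
    push_cast
    ring
  have e5 : Nat.sub (Nat.sub c0 h) (Nat.sub r0 h) = Nat.sub c0 r0 := by
    have e6 : Nat.sub (Nat.sub c0 h) (Nat.sub r0 h) = c0 - h - (r0 - h) := rfl
    have e7 : Nat.sub c0 r0 = c0 - r0 := rfl
    omega
  have e8 : Nat.sub (Nat.add c2 h) h = c2 := by
    have e9 : Nat.sub (Nat.add c2 h) h = c2 + h - h := rfl
    omega
  have e10 : ((Nat.sub c0 h : ℕ) : ℝ) + ((Nat.sub r0 h : ℕ) : ℝ) = ((Nat.add (Nat.sub c0 h) (Nat.sub r0 h) : ℕ) : ℝ) := by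
    rw [cast_nadd]
  refine ⟨?_, ?_, ?_, ?_, ?_, ?_, ?_, ?_, ?_, ?_, ?_, ?_, ?_⟩
  · rw [e1, e3]
    omega
  · rw [e2]
    omega
  · exact hb.le1
  · rw [e3]; omega
  · exact hb.le3
  · rw [e5]
    exact hb.l0
  · rw [e10]
    exact phiUp_spec _
  · exact hb.l1
  · exact hb.u1
  · rw [e8]
    exact phiUp_spec _
  · rw [ec]
    exact hb.u2
  · exact hb.l3
  · exact hb.u3

theorem isSt_lo2 {A : St} {h : ℕ} (hA : IsSt A) (hs : splitOK A.r2 h A.c0 = true) :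
    IsSt (lo2 A h (phiUp A.c2)) := by
  obtain ⟨c0, c1, c2, c3, r0, r1, r2, r3, pl0, pu0, pl1, pu1, pl2, pu2, pl3, pu3, rfl, hb⟩ := hA
  have hs' : splitOK r2 h c0 = true := hs
  unfold splitOK at hs'
  obtain ⟨h1, h2⟩ := cond_and hs'
  exact ⟨_, _, _, _, _, _, _, _, _, _, _, _, _, _, _, _, rfl,
    baseOK_lo2 hb (Nat.eq_of_beq_eq_true h1) (Nat.le_of_ble_eq_true h2)⟩

theorem isSt_hi2 {A : St} {h : ℕ} (hA : IsSt A) (hs : splitOK A.r2 h A.c0 = true) :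
    IsSt (hi2 A h (phiUp A.c2)) := by
  obtain ⟨c0, c1, c2, c3, r0, r1, r2, r3, pl0, pu0, pl1, pu1, pl2, pu2, pl3, pu3, rfl, hb⟩ := hA
  have hs' : splitOK r2 h c0 = true := hs
  unfold splitOK at hs'
  obtain ⟨h1, h2⟩ := cond_and hs'
  exact ⟨_, _, _, _, _, _, _, _, _, _, _, _, _, _, _, _, rfl,
    baseOK_hi2 hb (Nat.eq_of_beq_eq_true h1) (Nat.le_of_ble_eq_true h2)⟩

theorem baseOK_lo3 {c0 c1 c2 c3 r0 r1 r2 r3 pl0 pu0 pl1 pu1 pl2 pu2 pl3 pu3 h : ℕ} (hb : BaseOK c0 c1 c2 c3 r0 r1 r2 r3 pl0 pu0 pl1 pu1 pl2 pu2 pl3 pu3)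
    (hr : Nat.mul 2 h = r3) (hc : h ≤ c0) :
    BaseOK (Nat.add c0 h) c1 c2 (Nat.sub c3 h) (Nat.sub r0 h) r1 r2 h (phiUp (Nat.sub (Nat.add c0 h) (Nat.sub r0 h))) pu0 pl1 pu1 pl2 pu2 pl3 (phiUp c3) := by
  have hr' : 2 * h = r3 := hr
  have hrad := hb.rad
  have hle := hb.le3
  have hsum := hb.sum
  have e1 : Nat.sub c3 h = c3 - h := rfl
  have e2 : Nat.sub r0 h = r0 - h := rfl
  have e3 : Nat.add c0 h = c0 + h := rfl
  have ec : ((Nat.sub c3 h : ℕ) : ℝ) + h = c3 := by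
    have : Nat.sub c3 h + h = c3 := by omega
    exact_mod_cast this
  have er : ((Nat.sub r0 h : ℕ) : ℝ) + h = r0 := by
    have : Nat.sub r0 h + h = r0 := by omega
    exact_mod_cast this
  have e0 : ((Nat.add c0 h : ℕ) : ℝ) + ((Nat.sub r0 h : ℕ) : ℝ) = (c0 : ℝ) + r0 := by
    rw [cast_nadd]
    linarith
  have e5 : Nat.sub (Nat.sub c3 h) h = Nat.sub c3 r3 := by
    have e6 : Nat.sub (Nat.sub c3 h) h = c3 - h - h := rfl
    have e7 : Nat.sub c3 r3 = c3 - r3 := rfl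
    omega
  refine ⟨?_, ?_, ?_, ?_, ?_, ?_, ?_, ?_, ?_, ?_, ?_, ?_, ?_⟩
  · rw [e1, e3]
    omega
  · rw [e2]
    omega
  · exact hb.le1
  · exact hb.le2
  · rw [e1]; omega
  · exact phiUp_spec _
  · rw [e0]
    exact hb.u0
  · exact hb.l1
  · exact hb.u1
  · exact hb.l2
  · exact hb.u2
  · rw [e5]
    exact hb.l3
  · rw [ec]
    exact phiUp_spec _

theorem baseOK_hi3 {c0 c1 c2 c3 r0 r1 r2 r3 pl0 pu0 pl1 pu1 pl2 pu2 pl3 pu3 h : ℕ} (hb : BaseOK c0 c1 c2 c3 r0 r1 r2 r3 pl0 pu0 pl1 pu1 pl2 pu2 pl3 pu3)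
    (hr : Nat.mul 2 h = r3) (hc : h ≤ c0) :
    BaseOK (Nat.sub c0 h) c1 c2 (Nat.add c3 h) (Nat.sub r0 h) r1 r2 h pl0 (phiUp (Nat.add (Nat.sub c0 h) (Nat.sub r0 h))) pl1 pu1 pl2 pu2 (phiUp c3) pu3 := by
  have hr' : 2 * h = r3 := hr
  have hrad := hb.rad
  have hle := hb.le3
  have hsum := hb.sum
  have e1 : Nat.sub c0 h = c0 - h := rfl
  have e2 : Nat.sub r0 h = r0 - h := rfl
  have e3 : Nat.add c3 h = c3 + h := rfl
  have ec : ((Nat.add c3 h : ℕ) : ℝ) + h = ((c3 : ℝ) + r3) := by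
    rw [cast_nadd, ← hr']
    push_cast
    ring
  have e5 : Nat.sub (Nat.sub c0 h) (Nat.sub r0 h) = Nat.sub c0 r0 := by
    have e6 : Nat.sub (Nat.sub c0 h) (Nat.sub r0 h) = c0 - h - (r0 - h) := rfl
    have e7 : Nat.sub c0 r0 = c0 - r0 := rfl
    omega
  have e8 : Nat.sub (Nat.add c3 h) h = c3 := by
    have e9 : Nat.sub (Nat.add c3 h) h = c3 + h - h := rfl
    omega
  have e10 : ((Nat.sub c0 h : ℕ) : ℝ) + ((Nat.sub r0 h : ℕ) : ℝ) = ((Nat.add (Nat.sub c0 h) (Nat.sub r0 h) : ℕ) : ℝ) := by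
    rw [cast_nadd]
  refine ⟨?_, ?_, ?_, ?_, ?_, ?_, ?_, ?_, ?_, ?_, ?_, ?_, ?_⟩
  · rw [e1, e3]
    omega
  · rw [e2]
    omega
  · exact hb.le1
  · exact hb.le2
  · rw [e3]; omega
  · rw [e5]
    exact hb.l0
  · rw [e10]
    exact phiUp_spec _
  · exact hb.l1
  · exact hb.u1
  · exact hb.l2
  · exact hb.u2
  · rw [e8]
    exact phiUp_spec _
  · rw [ec]
    exact hb.u3

theorem isSt_lo3 {A : St} {h : ℕ} (hA : IsSt A) (hs : splitOK A.r3 h A.c0 = true) :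
    IsSt (lo3 A h (phiUp A.c3)) := by
  obtain ⟨c0, c1, c2, c3, r0, r1, r2, r3, pl0, pu0, pl1, pu1, pl2, pu2, pl3, pu3, rfl, hb⟩ := hA
  have hs' : splitOK r3 h c0 = true := hs
  unfold splitOK at hs'
  obtain ⟨h1, h2⟩ := cond_and hs'
  exact ⟨_, _, _, _, _, _, _, _, _, _, _, _, _, _, _, _, rfl,
    baseOK_lo3 hb (Nat.eq_of_beq_eq_true h1) (Nat.le_of_ble_eq_true h2)⟩

theorem isSt_hi3 {A : St} {h : ℕ} (hA : IsSt A) (hs : splitOK A.r3 h A.c0 = true) :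
    IsSt (hi3 A h (phiUp A.c3)) := by
  obtain ⟨c0, c1, c2, c3, r0, r1, r2, r3, pl0, pu0, pl1, pu1, pl2, pu2, pl3, pu3, rfl, hb⟩ := hA
  have hs' : splitOK r3 h c0 = true := hs
  unfold splitOK at hs'
  obtain ⟨h1, h2⟩ := cond_and hs'
  exact ⟨_, _, _, _, _, _, _, _, _, _, _, _, _, _, _, _, rfl,
    baseOK_hi3 hb (Nat.eq_of_beq_eq_true h1) (Nat.le_of_ble_eq_true h2)⟩

/-- A coordinate interval is halved. -/
theorem half_interval {c r h : ℕ} {z : ℝ} (hr : Nat.mul 2 h = r) (hle : r ≤ c)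
    (h1 : ((c : ℝ) - r) / 4096 ≤ z) (h2 : z ≤ ((c : ℝ) + r) / 4096) :
    (((Nat.sub c h : ℕ) : ℝ) - h) / 4096 ≤ z ∧ z ≤ (((Nat.sub c h : ℕ) : ℝ) + h) / 4096
      ∨ (((Nat.add c h : ℕ) : ℝ) - h) / 4096 ≤ z ∧ z ≤ (((Nat.add c h : ℕ) : ℝ) + h) / 4096 := by
  have hr' : 2 * h = r := hr
  have e1 : ((Nat.sub c h : ℕ) : ℝ) = (c : ℝ) - h := cast_sub_of_le (by omega)
  have e2 : (r : ℝ) = 2 * h := by
    rw [← hr']
    push_cast
    ring
  rw [e1, cast_nadd]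
  rw [e2] at h1 h2
  by_cases hz : z ≤ (c : ℝ) / 4096
  · left
    constructor
    · refine le_trans (le_of_eq ?_) h1
      ring
    · refine le_trans hz (le_of_eq ?_)
      ring
  · right
    have hz' := not_le.mp hz
    constructor
    · refine le_trans (le_of_eq ?_) hz'.le
      ring
    · refine le_trans h2 (le_of_eq ?_)
      ring

theorem box_split1 {c1 c2 c3 r1 r2 r3 h : ℕ} {a : Fin 4 → ℝ} (hr : Nat.mul 2 h = r1) (hle : r1 ≤ c1)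
    (hi : InBox c1 c2 c3 r1 r2 r3 a) : InBox (Nat.sub c1 h) c2 c3 h r2 r3 a ∨ InBox (Nat.add c1 h) c2 c3 h r2 r3 a := by
  obtain ⟨i1, i2, i3, i4, i5, i6⟩ := hi
  rcases half_interval hr hle i1 i2 with ⟨j1, j2⟩ | ⟨j1, j2⟩
  · left
    exact ⟨j1, j2, i3, i4, i5, i6⟩
  · right
    exact ⟨j1, j2, i3, i4, i5, i6⟩

theorem goodC_A1 {c1 c2 c3 r1 r2 r3 d1 d2 d3 s1 s2 s3 h : ℕ} (hr : Nat.mul 2 h = r1) (hle : r1 ≤ c1)
    (h1 : GoodC (Nat.sub c1 h) c2 c3 h r2 r3 d1 d2 d3 s1 s2 s3) (h2 : GoodC (Nat.add c1 h) c2 c3 h r2 r3 d1 d2 d3 s1 s2 s3) :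
    GoodC c1 c2 c3 r1 r2 r3 d1 d2 d3 s1 s2 s3 := by
  intro a b da db sa sb ia ib hreg
  rcases box_split1 hr hle ia with i | i
  · exact h1 a b da db sa sb i ib hreg
  · exact h2 a b da db sa sb i ib hreg

theorem goodC_B1 {c1 c2 c3 r1 r2 r3 d1 d2 d3 s1 s2 s3 h : ℕ} (hr : Nat.mul 2 h = s1) (hle : s1 ≤ d1)
    (h1 : GoodC c1 c2 c3 r1 r2 r3 (Nat.sub d1 h) d2 d3 h s2 s3) (h2 : GoodC c1 c2 c3 r1 r2 r3 (Nat.add d1 h) d2 d3 h s2 s3) :
    GoodC c1 c2 c3 r1 r2 r3 d1 d2 d3 s1 s2 s3 := by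
  intro a b da db sa sb ia ib hreg
  rcases box_split1 hr hle ib with i | i
  · exact h1 a b da db sa sb ia i hreg
  · exact h2 a b da db sa sb ia i hreg

theorem box_split2 {c1 c2 c3 r1 r2 r3 h : ℕ} {a : Fin 4 → ℝ} (hr : Nat.mul 2 h = r2) (hle : r2 ≤ c2)
    (hi : InBox c1 c2 c3 r1 r2 r3 a) : InBox c1 (Nat.sub c2 h) c3 r1 h r3 a ∨ InBox c1 (Nat.add c2 h) c3 r1 h r3 a := by
  obtain ⟨i1, i2, i3, i4, i5, i6⟩ := hi
  rcases half_interval hr hle i3 i4 with ⟨j1, j2⟩ | ⟨j1, j2⟩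
  · left
    exact ⟨i1, i2, j1, j2, i5, i6⟩
  · right
    exact ⟨i1, i2, j1, j2, i5, i6⟩

theorem goodC_A2 {c1 c2 c3 r1 r2 r3 d1 d2 d3 s1 s2 s3 h : ℕ} (hr : Nat.mul 2 h = r2) (hle : r2 ≤ c2)
    (h1 : GoodC c1 (Nat.sub c2 h) c3 r1 h r3 d1 d2 d3 s1 s2 s3) (h2 : GoodC c1 (Nat.add c2 h) c3 r1 h r3 d1 d2 d3 s1 s2 s3) :
    GoodC c1 c2 c3 r1 r2 r3 d1 d2 d3 s1 s2 s3 := by
  intro a b da db sa sb ia ib hreg
  rcases box_split2 hr hle ia with i | i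
  · exact h1 a b da db sa sb i ib hreg
  · exact h2 a b da db sa sb i ib hreg

theorem goodC_B2 {c1 c2 c3 r1 r2 r3 d1 d2 d3 s1 s2 s3 h : ℕ} (hr : Nat.mul 2 h = s2) (hle : s2 ≤ d2)
    (h1 : GoodC c1 c2 c3 r1 r2 r3 d1 (Nat.sub d2 h) d3 s1 h s3) (h2 : GoodC c1 c2 c3 r1 r2 r3 d1 (Nat.add d2 h) d3 s1 h s3) :
    GoodC c1 c2 c3 r1 r2 r3 d1 d2 d3 s1 s2 s3 := by
  intro a b da db sa sb ia ib hreg
  rcases box_split2 hr hle ib with i | i
  · exact h1 a b da db sa sb ia i hreg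
  · exact h2 a b da db sa sb ia i hreg

theorem box_split3 {c1 c2 c3 r1 r2 r3 h : ℕ} {a : Fin 4 → ℝ} (hr : Nat.mul 2 h = r3) (hle : r3 ≤ c3)
    (hi : InBox c1 c2 c3 r1 r2 r3 a) : InBox c1 c2 (Nat.sub c3 h) r1 r2 h a ∨ InBox c1 c2 (Nat.add c3 h) r1 r2 h a := by
  obtain ⟨i1, i2, i3, i4, i5, i6⟩ := hi
  rcases half_interval hr hle i5 i6 with ⟨j1, j2⟩ | ⟨j1, j2⟩
  · left
    exact ⟨i1, i2, i3, i4, j1, j2⟩
  · right
    exact ⟨i1, i2, i3, i4, j1, j2⟩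

theorem goodC_A3 {c1 c2 c3 r1 r2 r3 d1 d2 d3 s1 s2 s3 h : ℕ} (hr : Nat.mul 2 h = r3) (hle : r3 ≤ c3)
    (h1 : GoodC c1 c2 (Nat.sub c3 h) r1 r2 h d1 d2 d3 s1 s2 s3) (h2 : GoodC c1 c2 (Nat.add c3 h) r1 r2 h d1 d2 d3 s1 s2 s3) :
    GoodC c1 c2 c3 r1 r2 r3 d1 d2 d3 s1 s2 s3 := by
  intro a b da db sa sb ia ib hreg
  rcases box_split3 hr hle ia with i | i
  · exact h1 a b da db sa sb i ib hreg
  · exact h2 a b da db sa sb i ib hreg

theorem goodC_B3 {c1 c2 c3 r1 r2 r3 d1 d2 d3 s1 s2 s3 h : ℕ} (hr : Nat.mul 2 h = s3) (hle : s3 ≤ d3)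
    (h1 : GoodC c1 c2 c3 r1 r2 r3 d1 d2 (Nat.sub d3 h) s1 s2 h) (h2 : GoodC c1 c2 c3 r1 r2 r3 d1 d2 (Nat.add d3 h) s1 s2 h) :
    GoodC c1 c2 c3 r1 r2 r3 d1 d2 d3 s1 s2 s3 := by
  intro a b da db sa sb ia ib hreg
  rcases box_split3 hr hle ib with i | i
  · exact h1 a b da db sa sb ia i hreg
  · exact h2 a b da db sa sb ia i hreg

theorem cond_some {b : Bool} {x : Option ℕ} {r : ℕ} (h : cond b x none = some r) :
    b = true ∧ x = some r := by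
  cases b
  · have h' : (none : Option ℕ) = some r := h
    cases h'
  · exact ⟨rfl, h⟩

theorem match_some {x : Option ℕ} {f : ℕ → Option ℕ} {s : ℕ}
    (h : (match x with
      | none => none
      | some r => f r) = some s) : ∃ r, x = some r ∧ f r = some s := by
  cases x with
  | none =>
    have h' : (none : Option ℕ) = some s := h
    cases h'
  | some r => exact ⟨r, rfl, h⟩

theorem split_parts {r h c0 : ℕ} (hs : splitOK r h c0 = true) : Nat.mul 2 h = r := by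
  unfold splitOK at hs
  exact Nat.eq_of_beq_eq_true (cond_and hs).1

theorem walk_sound : ∀ (n ds : ℕ) (A B : St) (r : ℕ), IsSt A → IsSt B → walk n ds A B = some r →
    Good A B := by
  intro n
  induction n with
  | zero =>
    intro ds A B r _ _ h
    have h' : (none : Option ℕ) = some r := h
    cases h'
  | succ n ih =>
    intro ds A B r hA hB h
    have fA := hA.facts
    have fB := hB.facts
    rw [walk] at h
    split at h
    · obtain ⟨h1, -⟩ := cond_some h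
      intro a b da db _ _ ia ib _
      exact leaf_sound hA hB h1 da db ia ib
    · obtain ⟨h1, -⟩ := cond_some h
      exact rej_sound hA hB h1
    · obtain ⟨h1, h2⟩ := cond_some h
      obtain ⟨r', h3, h4⟩ := match_some h2
      exact goodC_A1 (split_parts h1) fA.le1 (ih _ _ _ _ (isSt_lo1 hA h1) hB h3)
        (ih _ _ _ _ (isSt_hi1 hA h1) hB h4)
    · obtain ⟨h1, h2⟩ := cond_some h
      obtain ⟨r', h3, h4⟩ := match_some h2
      exact goodC_A2 (split_parts h1) fA.le2 (ih _ _ _ _ (isSt_lo2 hA h1) hB h3)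
        (ih _ _ _ _ (isSt_hi2 hA h1) hB h4)
    · obtain ⟨h1, h2⟩ := cond_some h
      obtain ⟨r', h3, h4⟩ := match_some h2
      exact goodC_A3 (split_parts h1) fA.le3 (ih _ _ _ _ (isSt_lo3 hA h1) hB h3)
        (ih _ _ _ _ (isSt_hi3 hA h1) hB h4)
    · obtain ⟨h1, h2⟩ := cond_some h
      obtain ⟨r', h3, h4⟩ := match_some h2
      exact goodC_B1 (split_parts h1) fB.le1 (ih _ _ _ _ hA (isSt_lo1 hB h1) h3)
        (ih _ _ _ _ hA (isSt_hi1 hB h1) h4)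
    · obtain ⟨h1, h2⟩ := cond_some h
      obtain ⟨r', h3, h4⟩ := match_some h2
      exact goodC_B2 (split_parts h1) fB.le2 (ih _ _ _ _ hA (isSt_lo2 hB h1) h3)
        (ih _ _ _ _ hA (isSt_hi2 hB h1) h4)
    · obtain ⟨h1, h2⟩ := cond_some h
      obtain ⟨r', h3, h4⟩ := match_some h2
      exact goodC_B3 (split_parts h1) fB.le3 (ih _ _ _ _ hA (isSt_lo3 hB h1) h3)
        (ih _ _ _ _ hA (isSt_hi3 hB h1) h4)

theorem isSt_ofBx {x : Bx} (h : bxOK x = true) : IsSt (ofBx x) := by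
  unfold bxOK at h
  obtain ⟨h0, h⟩ := cond_and h
  obtain ⟨h1, h⟩ := cond_and h
  obtain ⟨h2, h3⟩ := cond_and h
  have h0' := Nat.le_of_ble_eq_true h0
  have h1' := Nat.le_of_ble_eq_true h1
  have h2' := Nat.le_of_ble_eq_true h2
  have h3' := Nat.le_of_ble_eq_true h3
  refine ⟨_, _, _, _, _, _, _, _, _, _, _, _, _, _, _, _, rfl, ?_⟩
  have e0 : Nat.add (Nat.add x.c1 x.c2) x.c3 = x.c1 + x.c2 + x.c3 := rfl
  rw [e0] at h0'
  refine ⟨?_, rfl, h1', h2', h3', phiUp_spec _, ?_, phiUp_spec _, ?_, phiUp_spec _, ?_, phiUp_spec _, ?_⟩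
  · have e1 : Nat.sub 16384 (Nat.add (Nat.add x.c1 x.c2) x.c3) = 16384 - (x.c1 + x.c2 + x.c3) := rfl
    rw [e1]
    omega
  all_goals
    rw [← cast_nadd]
    exact phiUp_spec _

/-- The certificate check implies the inequality on a pair of boxes. -/
theorem chk_sound {ds : ℕ} {A B : Bx} (h : chk ds A B = true) : GoodBx A B := by
  unfold chk at h
  obtain ⟨h1, h⟩ := cond_and h
  obtain ⟨h2, h⟩ := cond_and h
  cases hw : walk 64 ds (ofBx A) (ofBx B) with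
  | none =>
    rw [hw] at h
    exact Bool.noConfusion h
  | some r =>
    exact walk_sound 64 ds _ _ r (isSt_ofBx h1) (isSt_ofBx h2) hw

end Vale.Agent.P154.Q4.BB
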