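import Vale.Agent.P154.Q4.BB.S6

/-!
Permutation invariance and symmetry of the closure defect: it is enough to treat sorted vectors.
-/

namespace Vale.Agent.P154.Q4.BB

open Real Vale.Agent.P154.Q4 Finset

theorem mass_comp (u : Fin 4 → ℝ) (σ : Equiv.Perm (Fin 4)) : mass (u ∘ σ) = mass u := by
  unfold mass
  congr 1
  exact Equiv.sum_comp σ u

theorem nrm_comp (u : Fin 4 → ℝ) (σ : Equiv.Perm (Fin 4)) : nrm (u ∘ σ) = (nrm u) ∘ σ := by
  funext i
  simp [nrm, mass_comp]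

theorem mom_comp (k : ℕ) (u : Fin 4 → ℝ) (σ : Equiv.Perm (Fin 4)) : mom k (u ∘ σ) = mom k u := by
  unfold mom
  congr 1
  exact Equiv.sum_comp σ (fun i => (u i - 1) ^ k)

theorem xx_comp (u : Fin 4 → ℝ) (σ : Equiv.Perm (Fin 4)) : xx (u ∘ σ) = xx u := mom_comp 2 u σ

theorem yy_comp (u : Fin 4 → ℝ) (σ : Equiv.Perm (Fin 4)) : yy (u ∘ σ) = yy u := by
  unfold yy
  rw [mass_comp, nrm_comp, xx_comp]

theorem ent_comp (u : Fin 4 → ℝ) (σ : Equiv.Perm (Fin 4)) : ent (u ∘ σ) = ent u := by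
  unfold ent
  rw [mass_comp]
  congr 2
  exact Equiv.sum_comp σ (fun i => u i * Real.log (u i))

theorem psi_comp (u : Fin 4 → ℝ) (σ : Equiv.Perm (Fin 4)) : psi (u ∘ σ) = psi u := by
  unfold psi
  rw [yy_comp, ent_comp]

theorem wMul_comp (u : Fin 4 → ℝ) (σ : Equiv.Perm (Fin 4)) : wMul (u ∘ σ) = wMul u := by
  unfold wMul
  rw [mass_comp, nrm_comp, xx_comp]

theorem pv_comp (u v : Fin 4 → ℝ) (σ τ g : Equiv.Perm (Fin 4)) :
    pv (u ∘ σ) (v ∘ τ) g = (pv u v (τ * g * σ⁻¹)) ∘ σ := by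
  funext i
  simp [pv, Equiv.Perm.mul_apply]

/-- Invariance under permutations of each argument. -/
theorem Fbb_comp (u v : Fin 4 → ℝ) (σ τ : Equiv.Perm (Fin 4)) :
    Fbb (u ∘ σ) (v ∘ τ) = Fbb u v := by
  unfold Fbb
  rw [psi_comp, psi_comp, wMul_comp, wMul_comp]
  have e : ∑ g : Equiv.Perm (Fin 4), psi (pv (u ∘ σ) (v ∘ τ) g)
      = ∑ g : Equiv.Perm (Fin 4), psi (pv u v g) := by
    have h1 : ∀ g : Equiv.Perm (Fin 4), psi (pv (u ∘ σ) (v ∘ τ) g)
        = psi (pv u v ((Equiv.mulLeft τ).trans (Equiv.mulRight σ⁻¹) g)) := by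
      intro g
      rw [pv_comp, psi_comp]
      rfl
    simp only [h1]
    exact Equiv.sum_comp ((Equiv.mulLeft τ).trans (Equiv.mulRight σ⁻¹))
      (fun g => psi (pv u v g))
  rw [e]

/-- Symmetry. -/
theorem Fbb_comm (u v : Fin 4 → ℝ) : Fbb u v = Fbb v u := by
  unfold Fbb
  have e : ∑ g : Equiv.Perm (Fin 4), psi (pv u v g) = ∑ g : Equiv.Perm (Fin 4), psi (pv v u g) := by
    have h1 : ∀ g : Equiv.Perm (Fin 4), psi (pv v u g) = psi (pv u v ((Equiv.inv _) g)) := by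
      intro g
      have h2 : pv v u g = (pv u v g⁻¹) ∘ g := by
        funext i
        simp [pv, mul_comm]
      rw [h2, psi_comp]
      rfl
    simp only [h1]
    exact (Equiv.sum_comp (Equiv.inv (Equiv.Perm (Fin 4))) (fun g => psi (pv u v g))).symm
  rw [e]
  ring

theorem exists_sort (u : Fin 4 → ℝ) : ∃ σ : Equiv.Perm (Fin 4), Srt (u ∘ σ) := by
  have hm := Tuple.monotone_sort (fun i => - u i)
  refine ⟨Tuple.sort (fun i => - u i), ?_, ?_, ?_⟩
  · have := hm (show (0 : Fin 4) ≤ 1 by decide)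
    simp only [Function.comp] at this ⊢
    linarith
  · have := hm (show (1 : Fin 4) ≤ 2 by decide)
    simp only [Function.comp] at this ⊢
    linarith
  · have := hm (show (2 : Fin 4) ≤ 3 by decide)
    simp only [Function.comp] at this ⊢
    linarith

theorem dom_comp {u : Fin 4 → ℝ} (h : Dom u) (σ : Equiv.Perm (Fin 4)) : Dom (u ∘ σ) :=
  ⟨fun i => h.1 _, (mass_comp u σ).trans h.2⟩

/-- A sorted vector lies in the root box. -/
theorem inBox_root {a : Fin 4 → ℝ} (ha : Dom a) (hs : Srt a) :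
    InBox 4096 4096 2048 4096 4096 2048 a := by
  have hm := ha.2
  unfold mass at hm
  rw [Fin.sum_univ_four] at hm
  have h1 := ha.1 1
  have h2 := ha.1 2
  have h3 := ha.1 3
  have h0 := ha.1 0
  obtain ⟨s1, s2, s3⟩ := hs
  unfold InBox
  norm_num
  refine ⟨h1.le, ?_, h2.le, ?_, h3.le, ?_⟩ <;> linarith

end Vale.Agent.P154.Q4.BB
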